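import Mathlib

/-!
# P200 family: abstract analysis of a graded module free over `K[m1, m2]`

Here `Q` is a commutative `K`-algebra with graded pieces `QD D`, in which `m1, m2` behave
as a regular sequence. The main tool is the concavity of the growth under `m1, m2`.
-/

open Module

namespace Vale.Agent.P200b

variable {K : Type*} [Field K] {Q : Type*} [CommRing Q] [Algebra K Q]

/-- `m1 X + m2 X`. -/
noncomputable def D2 (m1 m2 : Q) (X : Submodule K Q) : Submodule K Q :=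
  X.map (LinearMap.mulLeft K m1) ⊔ X.map (LinearMap.mulLeft K m2)

/-- `{u ∈ E | m1 u ∈ X, m2 u ∈ X}`. -/
noncomputable def colon (m1 m2 : Q) (X E : Submodule K Q) : Submodule K Q :=
  E ⊓ X.comap (LinearMap.mulLeft K m1) ⊓ X.comap (LinearMap.mulLeft K m2)

theorem mem_colon {m1 m2 : Q} {X E : Submodule K Q} {u : Q} :
    u ∈ colon m1 m2 X E ↔ u ∈ E ∧ m1 * u ∈ X ∧ m2 * u ∈ X := by
  simp [colon, and_assoc]

theorem mul_mem_D2_left {m1 m2 : Q} {X : Submodule K Q} {a : Q} (ha : a ∈ X) :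
    m1 * a ∈ D2 m1 m2 X :=
  Submodule.mem_sup_left (Submodule.mem_map.2 ⟨a, ha, rfl⟩)

theorem mul_mem_D2_right {m1 m2 : Q} {X : Submodule K Q} {a : Q} (ha : a ∈ X) :
    m2 * a ∈ D2 m1 m2 X :=
  Submodule.mem_sup_right (Submodule.mem_map.2 ⟨a, ha, rfl⟩)

theorem D2_mono {m1 m2 : Q} {X Y : Submodule K Q} (h : X ≤ Y) : D2 m1 m2 X ≤ D2 m1 m2 Y :=
  sup_le_sup (Submodule.map_mono h) (Submodule.map_mono h)

theorem D2_le {m1 m2 : Q} {X Y : Submodule K Q} (h1 : ∀ a ∈ X, m1 * a ∈ Y)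
    (h2 : ∀ a ∈ X, m2 * a ∈ Y) : D2 m1 m2 X ≤ Y := by
  refine sup_le ?_ ?_
  · rintro _ ⟨a, ha, rfl⟩
    exact h1 a ha
  · rintro _ ⟨a, ha, rfl⟩
    exact h2 a ha

theorem mem_D2 {m1 m2 : Q} {X : Submodule K Q} {y : Q} :
    y ∈ D2 m1 m2 X ↔ ∃ a ∈ X, ∃ c ∈ X, y = m1 * a + m2 * c := by
  constructor
  · intro hy
    obtain ⟨p, hp, r, hr, rfl⟩ := Submodule.mem_sup.1 hy
    obtain ⟨a, ha, rfl⟩ := hp
    obtain ⟨c, hc, rfl⟩ := hr
    exact ⟨a, ha, c, hc, rfl⟩
  · rintro ⟨a, ha, c, hc, rfl⟩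
    exact add_mem (mul_mem_D2_left ha) (mul_mem_D2_right hc)

/-- An operator commuting with `m1, m2` moves `D2`. -/
theorem D2_map_mul {m1 m2 w : Q} {X : Submodule K Q} :
    (D2 m1 m2 X).map (LinearMap.mulLeft K w) =
      D2 m1 m2 (X.map (LinearMap.mulLeft K w)) := by
  ext y
  simp only [Submodule.mem_map, mem_D2]
  constructor
  · rintro ⟨_, ⟨a, ha, c, hc, rfl⟩, rfl⟩
    refine ⟨w * a, ⟨a, ha, rfl⟩, w * c, ⟨c, hc, rfl⟩, ?_⟩
    simp only [LinearMap.mulLeft_apply]
    ring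
  · rintro ⟨_, ⟨a, ha, rfl⟩, _, ⟨c, hc, rfl⟩, rfl⟩
    refine ⟨m1 * a + m2 * c, ⟨a, ha, c, hc, rfl⟩, ?_⟩
    simp only [LinearMap.mulLeft_apply]
    ring

/-- The standing hypotheses. -/
structure GQ (QD : ℕ → Submodule K Q) (m1 m2 w : Q) : Prop where
  fd : ∀ D, FiniteDimensional K (QD D)
  m1_mem : ∀ {D a}, a ∈ QD D → m1 * a ∈ QD (D + 1)
  m2_mem : ∀ {D a}, a ∈ QD D → m2 * a ∈ QD (D + 1)
  w_mem : ∀ {D a}, a ∈ QD D → w * a ∈ QD (D + 1)
  inj1 : ∀ {a : Q}, m1 * a = 0 → a = 0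
  inj2 : ∀ {a : Q}, m2 * a = 0 → a = 0
  reg : ∀ {D a c}, a ∈ QD (D + 1) → c ∈ QD (D + 1) → m1 * a = m2 * c →
    ∃ u ∈ QD D, a = m2 * u ∧ c = m1 * u
  reg0 : ∀ {a c}, a ∈ QD 0 → c ∈ QD 0 → m1 * a = m2 * c → a = 0 ∧ c = 0

variable {QD : ℕ → Submodule K Q} {m1 m2 w : Q}

theorem GQ.fd_of_le (h : GQ QD m1 m2 w) {X : Submodule K Q} {D : ℕ} (hX : X ≤ QD D) :
    FiniteDimensional K X := by
  have := h.fd D
  exact Submodule.finiteDimensional_of_le hX

theorem GQ.D2_le_QD (h : GQ QD m1 m2 w) {X : Submodule K Q} {D : ℕ} (hX : X ≤ QD D) :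
    D2 m1 m2 X ≤ QD (D + 1) :=
  D2_le (fun _ ha => h.m1_mem (hX ha)) (fun _ ha => h.m2_mem (hX ha))

/-- The multiplication map `X × X → D2 X`. -/
noncomputable def psi (m1 m2 : Q) (X : Submodule K Q) : (X × X) →ₗ[K] Q :=
  ((LinearMap.mulLeft K m1).comp X.subtype).coprod ((LinearMap.mulLeft K m2).comp X.subtype)

theorem psi_apply (X : Submodule K Q) (a c : X) :
    psi m1 m2 X (a, c) = m1 * (a : Q) + m2 * (c : Q) := by
  simp [psi]

theorem range_psi (X : Submodule K Q) : LinearMap.range (psi m1 m2 X) = D2 m1 m2 X := by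
  ext y
  rw [mem_D2]
  constructor
  · rintro ⟨⟨a, c⟩, rfl⟩
    exact ⟨a, a.2, c, c.2, psi_apply X a c⟩
  · rintro ⟨a, ha, c, hc, rfl⟩
    exact ⟨(⟨a, ha⟩, ⟨c, hc⟩), psi_apply X _ _⟩

/-- Dimension of `D2 X`, the key formula. -/
theorem GQ.finrank_D2 (h : GQ QD m1 m2 w) {X : Submodule K Q} {D : ℕ} (hX : X ≤ QD (D + 1)) :
    finrank K (D2 m1 m2 X) + finrank K (colon m1 m2 X (QD D)) = 2 * finrank K X := by
  have hfd : FiniteDimensional K X := h.fd_of_le hX
  have hr := LinearMap.finrank_range_add_finrank_ker (psi m1 m2 X)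
  rw [range_psi, Module.finrank_prod] at hr
  -- the kernel is the colon
  let C := colon m1 m2 X (QD D)
  let a2 : C →ₗ[K] X := LinearMap.codRestrict X ((LinearMap.mulLeft K m2).comp C.subtype)
    (fun u => (mem_colon.1 u.2).2.2)
  let a1 : C →ₗ[K] X := LinearMap.codRestrict X ((LinearMap.mulLeft K m1).comp C.subtype)
    (fun u => (mem_colon.1 u.2).2.1)
  have hz0 : ∀ u : C, psi m1 m2 X (a2 u, -(a1 u)) = 0 := by
    intro u
    rw [psi_apply]
    show m1 * (m2 * (u : Q)) + m2 * (-(m1 * (u : Q))) = 0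
    ring
  let φ : C →ₗ[K] LinearMap.ker (psi m1 m2 X) :=
    LinearMap.codRestrict _ (LinearMap.prod a2 (-a1)) (fun u => by
      rw [LinearMap.mem_ker]
      exact hz0 u)
  have hφ : Function.Bijective φ := by
    constructor
    · rw [injective_iff_map_eq_zero]
      intro u hu
      have h1 : ((φ u : X × X).1 : Q) = 0 := by rw [hu]; rfl
      have h2 : m2 * (u : Q) = 0 := h1
      exact Subtype.ext (h.inj2 h2)
    · rintro ⟨⟨a, c⟩, hz⟩
      rw [LinearMap.mem_ker, psi_apply] at hz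
      have haD := hX a.2
      have hcD := hX c.2
      have hnc : -(c : Q) ∈ QD (D + 1) := neg_mem hcD
      obtain ⟨u, hu, e1, e2⟩ := h.reg haD hnc (by linear_combination hz)
      refine ⟨⟨u, ?_⟩, ?_⟩
      · refine mem_colon.2 ⟨hu, ?_, ?_⟩
        · have : m1 * u = -(c : Q) := e2.symm
          rw [this]
          exact neg_mem c.2
        · rw [← e1]
          exact a.2
      · apply Subtype.ext
        apply Prod.ext
        · apply Subtype.ext
          show m2 * u = a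
          exact e1.symm
        · apply Subtype.ext
          show -(m1 * u) = c
          rw [← e2]
          ring
  have he := (LinearEquiv.ofBijective φ hφ).finrank_eq
  have : finrank K (LinearMap.ker (psi m1 m2 X)) = finrank K (colon m1 m2 X (QD D)) := he.symm
  omega

/-- In degree zero, `D2` doubles the dimension. -/
theorem GQ.finrank_D2_zero (h : GQ QD m1 m2 w) {X : Submodule K Q} (hX : X ≤ QD 0) :
    finrank K (D2 m1 m2 X) = 2 * finrank K X := by
  have hfd : FiniteDimensional K X := h.fd_of_le hX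
  have hr := LinearMap.finrank_range_add_finrank_ker (psi m1 m2 X)
  rw [range_psi, Module.finrank_prod] at hr
  have hk : LinearMap.ker (psi m1 m2 X) = ⊥ := by
    rw [LinearMap.ker_eq_bot']
    rintro ⟨a, c⟩ hz
    rw [psi_apply] at hz
    have hnc : -(c : Q) ∈ QD 0 := neg_mem (hX c.2)
    obtain ⟨e1, e2⟩ := h.reg0 (hX a.2) hnc (by linear_combination hz)
    exact Prod.ext (Subtype.ext e1) (Subtype.ext (neg_eq_zero.1 e2))
  rw [hk, finrank_bot] at hr
  omega

/-- `D2` strictly increases the dimension. -/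
theorem GQ.lt_finrank_D2 (h : GQ QD m1 m2 w) (D : ℕ) :
    ∀ {X : Submodule K Q}, X ≤ QD D → X ≠ ⊥ → finrank K X + 1 ≤ finrank K (D2 m1 m2 X) := by
  induction D with
  | zero =>
    intro X hX hne
    have hfd := h.fd_of_le hX
    have := h.finrank_D2_zero hX
    have hpos : 0 < finrank K X := by
      rw [Nat.pos_iff_ne_zero]
      intro h0
      exact hne (Submodule.finrank_eq_zero.1 h0)
    omega
  | succ D ih =>
    intro X hX hne
    have hfd := h.fd_of_le hX
    have hf := h.finrank_D2 hX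
    set C := colon m1 m2 X (QD D) with hC
    have hCX : D2 m1 m2 C ≤ X :=
      D2_le (fun _ ha => (mem_colon.1 ha).2.1) (fun _ ha => (mem_colon.1 ha).2.2)
    have hCQ : C ≤ QD D := fun _ ha => (mem_colon.1 ha).1
    have hpos : 0 < finrank K X := by
      rw [Nat.pos_iff_ne_zero]
      intro h0
      exact hne (Submodule.finrank_eq_zero.1 h0)
    by_cases hC0 : C = ⊥
    · rw [hC0, finrank_bot] at hf
      omega
    · have h1 := ih hCQ hC0
      have h2 := Submodule.finrank_mono hCX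
      omega

/-- **Concavity**. -/
theorem GQ.concave (h : GQ QD m1 m2 w) {X : Submodule K Q} {D : ℕ} (hX : X ≤ QD D) :
    finrank K (D2 m1 m2 (D2 m1 m2 X)) + finrank K X ≤ 2 * finrank K (D2 m1 m2 X) := by
  have hY := h.D2_le_QD hX
  have hf := h.finrank_D2 hY
  have hle : X ≤ colon m1 m2 (D2 m1 m2 X) (QD D) := fun a ha =>
    mem_colon.2 ⟨hX ha, mul_mem_D2_left ha, mul_mem_D2_right ha⟩
  have : FiniteDimensional K (colon m1 m2 (D2 m1 m2 X) (QD D)) :=
    h.fd_of_le (fun _ ha => (mem_colon.1 ha).1)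
  have := Submodule.finrank_mono hle
  omega

/-- The iterates of `D2`. -/
noncomputable def iterD2 (m1 m2 : Q) (X : Submodule K Q) : ℕ → Submodule K Q
  | 0 => X
  | k + 1 => D2 m1 m2 (iterD2 m1 m2 X k)

theorem GQ.iterD2_le (h : GQ QD m1 m2 w) {X : Submodule K Q} {D : ℕ} (hX : X ≤ QD D) (k : ℕ) :
    iterD2 m1 m2 X k ≤ QD (D + k) := by
  induction k with
  | zero => exact hX
  | succ k ih => exact h.D2_le_QD ih

/-- The increments of the dimensions of the iterates do not increase. -/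
theorem GQ.iterD2_incr (h : GQ QD m1 m2 w) {X : Submodule K Q} {D : ℕ} (hX : X ≤ QD D) (k : ℕ) :
    finrank K (iterD2 m1 m2 X (k + 1)) + finrank K X ≤
      finrank K (iterD2 m1 m2 X k) + finrank K (D2 m1 m2 X) := by
  have fd : ∀ j, FiniteDimensional K (iterD2 m1 m2 X j) := fun j =>
    h.fd_of_le (h.iterD2_le hX j)
  induction k with
  | zero => exact le_of_eq (add_comm _ _)
  | succ k ih =>
    have := h.concave (h.iterD2_le hX k)
    have e1 : iterD2 m1 m2 X (k + 1 + 1) = D2 m1 m2 (D2 m1 m2 (iterD2 m1 m2 X k)) := rfl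
    have e2 : iterD2 m1 m2 X (k + 1) = D2 m1 m2 (iterD2 m1 m2 X k) := rfl
    rw [e1]
    rw [e2] at ih ⊢
    omega

/-- Upper bound for the dimension of iterates. -/
theorem GQ.iterD2_bound (h : GQ QD m1 m2 w) {X : Submodule K Q} {D : ℕ} (hX : X ≤ QD D)
    {a : ℕ} (ha : finrank K (D2 m1 m2 X) ≤ finrank K X + a) (k : ℕ) :
    finrank K (iterD2 m1 m2 X k) ≤ finrank K X + a * k := by
  induction k with
  | zero => simp [iterD2]; exact le_rfl
  | succ k ih =>
    have := h.iterD2_incr hX k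
    have e : a * (k + 1) = a * k + a := by ring
    rw [e]
    omega

/-- Increment bound between two iterates. -/
theorem GQ.iterD2_diff (h : GQ QD m1 m2 w) {X : Submodule K Q} {D : ℕ} (hX : X ≤ QD D)
    {a : ℕ} (ha : finrank K (D2 m1 m2 X) ≤ finrank K X + a) (k j : ℕ) :
    finrank K (iterD2 m1 m2 X (k + j)) ≤ finrank K (iterD2 m1 m2 X k) + a * j := by
  induction j with
  | zero => simp
  | succ j ih =>
    have := h.iterD2_incr hX (k + j)
    have e : a * (j + 1) = a * j + a := by ring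
    rw [e, ← add_assoc]
    omega

end Vale.Agent.P200b
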