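import Vale.Agent.Lib.P200b.Abstract

/-!
# P200 family: growth in a graded algebra free over `K[m1, m2]`, low degrees

`M X = m1 X + m2 X + w X`; the cases with `dim D2 X = dim X + 1`, and the low degree growth.
-/

open Module MvPolynomial

namespace Vale.Agent.P200b

variable {K : Type*} [Field K] {Q : Type*} [CommRing Q] [Algebra K Q]

/-- `M X = m1 X + m2 X + w X`. -/
noncomputable def MM (m1 m2 w : Q) (X : Submodule K Q) : Submodule K Q :=
  D2 m1 m2 X ⊔ X.map (LinearMap.mulLeft K w)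

theorem D2_le_MM {m1 m2 w : Q} (X : Submodule K Q) : D2 m1 m2 X ≤ MM m1 m2 w X := le_sup_left

theorem mul_mem_MM_w {m1 m2 w : Q} {X : Submodule K Q} {a : Q} (ha : a ∈ X) :
    w * a ∈ MM m1 m2 w X :=
  Submodule.mem_sup_right (Submodule.mem_map.2 ⟨a, ha, rfl⟩)

theorem MM_mono {m1 m2 w : Q} {X Y : Submodule K Q} (h : X ≤ Y) :
    MM m1 m2 w X ≤ MM m1 m2 w Y :=
  sup_le_sup (D2_mono h) (Submodule.map_mono h)

theorem MM_le {m1 m2 w : Q} {X Y : Submodule K Q} (h1 : ∀ a ∈ X, m1 * a ∈ Y)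
    (h2 : ∀ a ∈ X, m2 * a ∈ Y) (h3 : ∀ a ∈ X, w * a ∈ Y) : MM m1 m2 w X ≤ Y := by
  refine sup_le (D2_le h1 h2) ?_
  rintro _ ⟨a, ha, rfl⟩
  exact h3 a ha

/-- An ideal contains `M X` if it contains `X`. -/
theorem MM_le_ideal {m1 m2 w : Q} {X : Submodule K Q} {I : Ideal Q}
    (h : ∀ a ∈ X, a ∈ I) {y : Q} (hy : y ∈ MM m1 m2 w X) : y ∈ I := by
  have hle : MM m1 m2 w X ≤ I.restrictScalars K :=
    MM_le (fun a ha => I.mul_mem_left _ (h a ha)) (fun a ha => I.mul_mem_left _ (h a ha))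
      (fun a ha => I.mul_mem_left _ (h a ha))
  exact hle hy

theorem finrank_map_mul {X : Submodule K Q} {z : Q} (hinj : ∀ a ∈ X, z * a = 0 → a = 0) :
    finrank K (X.map (LinearMap.mulLeft K z)) = finrank K X := by
  have hi : Function.Injective ((LinearMap.mulLeft K z).comp X.subtype) := by
    rw [injective_iff_map_eq_zero]
    rintro ⟨a, ha⟩ h0
    exact Subtype.ext (hinj a ha h0)
  have := LinearMap.finrank_range_of_inj hi
  rw [LinearMap.range_comp, Submodule.range_subtype] at this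
  exact this

/-- The variables over `K[m1, m2]`. -/
abbrev R2 (K : Type*) [Field K] := MvPolynomial (Fin 2) K

/-- `Q` with the operators `m1, m2, w`, torsion free over `K[m1, m2]`, in which eigenvectors
of `w` over the field of fractions are eigenvectors with a linear eigenvalue. -/
structure GT (QD : ℕ → Submodule K Q) (m1 m2 w : Q) (ι : R2 K →ₐ[K] Q) : Prop
    extends GQ QD m1 m2 w where
  ι0 : ι (X 0) = m1
  ι1 : ι (X 1) = m2
  tf : ∀ {t : R2 K} {g : Q}, t ≠ 0 → ι t * g = 0 → g = 0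
  eig : ∀ {r : ℕ} {t₁ t₂ : R2 K} {g : Q}, t₁.IsHomogeneous r → t₂.IsHomogeneous (r + 1) →
    t₁ ≠ 0 → g ≠ 0 → ι t₁ * (w * g) = ι t₂ * g → ∃ α β : K, w * g = (α • m1 + β • m2) * g
  gen : ∀ {D x}, x ∈ QD (D + 1) → ∃ a ∈ QD D, ∃ c ∈ QD D, ∃ e ∈ QD D, x = m1 * a + m2 * c + w * e
  qd0 : ∀ {x}, x ∈ QD 0 → ∃ c : K, x = c • (1 : Q)
  one_mem : (1 : Q) ∈ QD 0
  dim0 : finrank K (QD 0) = 1
  dimS : ∀ D, finrank K (QD (D + 1)) = 3 * (D + 1)
  c3 : ∀ {e g} {α β : K}, g ∈ QD e → g ≠ 0 → w * g = (α • m1 + β • m2) * g → 2 ≤ e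
  base1 : ∀ {V : Submodule K Q}, V ≤ QD 1 → 2 ≤ finrank K V → finrank K V + 3 ≤ finrank K (MM m1 m2 w V)

variable {QD : ℕ → Submodule K Q} {m1 m2 w : Q} {ι : R2 K →ₐ[K] Q}

/-- the span of `t g`, `t` binary form of degree `k` -/
noncomputable def Bg (m1 m2 g : Q) (k : ℕ) : Submodule K Q :=
  iterD2 m1 m2 (Submodule.span K {g}) k

theorem GT.mem_Bg (h : GT QD m1 m2 w ι) {g : Q} (k : ℕ) {x : Q} (hx : x ∈ Bg (K := K) m1 m2 g k) :
    ∃ t : R2 K, t.IsHomogeneous k ∧ x = ι t * g := by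
  induction k generalizing x with
  | zero =>
    obtain ⟨c, rfl⟩ := Submodule.mem_span_singleton.1 hx
    refine ⟨C c, isHomogeneous_C _ _, ?_⟩
    rw [← algebraMap_eq, AlgHom.commutes, Algebra.smul_def]
  | succ k ih =>
    obtain ⟨a, ha, c, hc, rfl⟩ := mem_D2.1 hx
    obtain ⟨t, ht, rfl⟩ := ih ha
    obtain ⟨t', ht', rfl⟩ := ih hc
    refine ⟨X 0 * t + X 1 * t', ?_, ?_⟩
    · have h0 := (isHomogeneous_X K (0 : Fin 2)).mul ht
      have h1 := (isHomogeneous_X K (1 : Fin 2)).mul ht'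
      rw [show k + 1 = 1 + k by omega]
      exact h0.add h1
    · rw [map_add, map_mul, map_mul, h.ι0, h.ι1]
      ring

/-- `dim D2 X = dim X + 1` forces `X` to be a `Bg`. -/
theorem GT.L2 (h : GT QD m1 m2 w ι) (n : ℕ) : ∀ {D : ℕ} {X : Submodule K Q}, X ≤ QD D →
    finrank K X = n + 1 → finrank K (D2 m1 m2 X) = n + 2 →
    ∃ e g, e + n = D ∧ g ∈ QD e ∧ g ≠ 0 ∧ X = Bg m1 m2 g n := by
  induction n with
  | zero =>
    intro D X hX h1 _
    have hfd := h.fd_of_le hX
    obtain ⟨g, hg0, hg⟩ := finrank_eq_one_iff'.1 h1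
    have hX' : X = Submodule.span K {(g : Q)} := by
      refine le_antisymm ?_ ?_
      · intro x hx
        obtain ⟨c, hc⟩ := hg ⟨x, hx⟩
        have : x = c • (g : Q) := by
          have := congrArg Subtype.val hc
          simpa using this.symm
        rw [this]
        exact Submodule.smul_mem _ _ (Submodule.mem_span_singleton_self _)
      · exact (Submodule.span_singleton_le_iff_mem _ _).2 g.2
    refine ⟨D, g, by omega, hX g.2, ?_, hX'⟩
    intro h0
    exact hg0 (Subtype.ext h0)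
  | succ n ih =>
    intro D X hX h1 h2
    have hfd := h.fd_of_le hX
    cases D with
    | zero =>
      have h3 := h.fd 0
      have := Submodule.finrank_mono hX
      rw [h.dim0] at this
      omega
    | succ D =>
      have hf := h.finrank_D2 hX
      set C := colon m1 m2 X (QD D) with hC
      have hCX : D2 m1 m2 C ≤ X :=
        D2_le (fun _ ha => (mem_colon.1 ha).2.1) (fun _ ha => (mem_colon.1 ha).2.2)
      have hCQ : C ≤ QD D := fun _ ha => (mem_colon.1 ha).1
      have hC1 : finrank K C = n + 1 := by omega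
      have hC0 : C ≠ ⊥ := by
        intro h0
        rw [h0, finrank_bot] at hC1
        omega
      have hlt := h.lt_finrank_D2 D hCQ hC0
      have hfdC := h.fd_of_le hCQ
      have hD2C : D2 m1 m2 C = X := Submodule.eq_of_le_of_finrank_le hCX (by omega)
      obtain ⟨e, g, he, hg, hg0, hCg⟩ := ih hCQ hC1 (by rw [hD2C]; omega)
      refine ⟨e, g, by omega, hg, hg0, ?_⟩
      rw [← hD2C, hCg]
      rfl

/-- If `w v ∈ D2 V` for a nonzero `v`, and `V = Bg`, then `g` is an eigenvector of `w`. -/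
theorem GT.eigen_of_mem (h : GT QD m1 m2 w ι) {g : Q} {n : ℕ} (hg0 : g ≠ 0) {v : Q}
    (hv : v ∈ Bg (K := K) m1 m2 g n) (hv0 : v ≠ 0)
    (hw : w * v ∈ D2 m1 m2 (Bg (K := K) m1 m2 g n)) :
    ∃ α β : K, w * g = (α • m1 + β • m2) * g := by
  obtain ⟨t, ht, rfl⟩ := h.mem_Bg n hv
  obtain ⟨t₂, ht₂, e⟩ := h.mem_Bg (n + 1) hw
  have ht0 : t ≠ 0 := by
    rintro rfl
    simp at hv0
  exact h.eig ht ht₂ ht0 hg0 (by linear_combination e)

/-- An eigenvector generates a `w`-stable `Bg`. -/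
theorem GT.stable_of_eigen (h : GT QD m1 m2 w ι) {g : Q} {n : ℕ} {α β : K}
    (he : w * g = (α • m1 + β • m2) * g) {v : Q} (hv : v ∈ Bg (K := K) m1 m2 g n) :
    w * v ∈ D2 m1 m2 (Bg (K := K) m1 m2 g n) := by
  obtain ⟨t, ht, rfl⟩ := h.mem_Bg n hv
  have e : w * (ι t * g) = α • (m1 * (ι t * g)) + β • (m2 * (ι t * g)) := by
    have : w * (ι t * g) = ι t * (w * g) := by ring
    rw [this, he]
    simp only [Algebra.smul_def]
    ring
  rw [e]
  exact add_mem (Submodule.smul_mem _ _ (mul_mem_D2_left hv))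
    (Submodule.smul_mem _ _ (mul_mem_D2_right hv))

/-- **Part (i)**: growth by one. -/
theorem GT.part1 (h : GT QD m1 m2 w ι) {d : ℕ} {V : Submodule K Q} (hV : V ≤ QD d)
    (hq : 1 ≤ finrank K V) : finrank K V + 1 ≤ finrank K (MM m1 m2 w V) := by
  have hne : V ≠ ⊥ := by
    rintro rfl
    simp at hq
  have h1 := h.lt_finrank_D2 d hV hne
  have hfd : FiniteDimensional K (MM m1 m2 w V) := by
    have hle : MM m1 m2 w V ≤ QD (d + 1) :=
      MM_le (fun _ ha => h.m1_mem (hV ha)) (fun _ ha => h.m2_mem (hV ha))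
        (fun _ ha => h.w_mem (hV ha))
    exact h.fd_of_le hle
  have h2 := Submodule.finrank_mono (D2_le_MM (m1 := m1) (m2 := m2) (w := w) V)
  omega

theorem GT.MM_le_QD (h : GT QD m1 m2 w ι) {d : ℕ} {V : Submodule K Q} (hV : V ≤ QD d) :
    MM m1 m2 w V ≤ QD (d + 1) :=
  MM_le (fun _ ha => h.m1_mem (hV ha)) (fun _ ha => h.m2_mem (hV ha))
    (fun _ ha => h.w_mem (hV ha))

/-- Bound in the stable case with minimal growth: `q < d`. -/
theorem GT.stable_small (h : GT QD m1 m2 w ι) {d : ℕ} {V : Submodule K Q} (hV : V ≤ QD d)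
    (hq : 1 ≤ finrank K V) (hw : ∀ v ∈ V, w * v ∈ D2 m1 m2 V)
    (ha : finrank K (D2 m1 m2 V) = finrank K V + 1) : finrank K V + 1 ≤ d := by
  obtain ⟨n, hn⟩ : ∃ n, finrank K V = n + 1 := ⟨finrank K V - 1, by omega⟩
  obtain ⟨e, g, he, hg, hg0, rfl⟩ := h.L2 n hV hn (by omega)
  have hne : Bg (K := K) m1 m2 g n ≠ ⊥ := by
    intro h0
    rw [h0, finrank_bot] at hn
    omega
  obtain ⟨v, hv, hv0⟩ := Submodule.exists_mem_ne_zero_of_ne_bot hne
  obtain ⟨α, β, hab⟩ := h.eigen_of_mem hg0 hv hv0 (hw v hv)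
  have := h.c3 hg hg0 hab
  omega

/-- **Part (ii)**: growth by two when `d ≤ q`. -/
theorem GT.part2 (h : GT QD m1 m2 w ι) {d : ℕ} {V : Submodule K Q} (hV : V ≤ QD d)
    (hq : 1 ≤ finrank K V) (hd : d ≤ finrank K V) :
    finrank K V + 2 ≤ finrank K (MM m1 m2 w V) := by
  by_contra hlt
  push Not at hlt
  have hne : V ≠ ⊥ := by
    rintro rfl
    simp at hq
  have h1 := h.lt_finrank_D2 d hV hne
  have hfd : FiniteDimensional K (MM m1 m2 w V) := h.fd_of_le (h.MM_le_QD hV)
  have h2 := Submodule.finrank_mono (D2_le_MM (m1 := m1) (m2 := m2) (w := w) V)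
  have heq : D2 m1 m2 V = MM m1 m2 w V :=
    Submodule.eq_of_le_of_finrank_le (D2_le_MM V) (by omega)
  have := h.stable_small hV hq (fun v hv => by rw [heq]; exact mul_mem_MM_w hv) (by omega)
  omega

/-- **Part (iii)**: growth by three when `2 d ≤ q`. -/
theorem GT.part3 (h : GT QD m1 m2 w ι) (d : ℕ) : ∀ {V : Submodule K Q}, V ≤ QD (d + 1) →
    2 * (d + 1) ≤ finrank K V → finrank K V + 3 ≤ finrank K (MM m1 m2 w V) := by
  induction d with
  | zero =>
    intro V hV hq
    exact h.base1 hV (by omega)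
  | succ d ih =>
    intro V hV hq
    have hfdV := h.fd_of_le hV
    have hMQ := h.MM_le_QD hV
    have hfdM := h.fd_of_le hMQ
    have := h.fd (d + 1)
    have := h.fd (d + 2)
    set V₁ : Submodule K Q := QD (d + 1) ⊓ V.comap (LinearMap.mulLeft K m1) with hV₁
    have hV₁Q : V₁ ≤ QD (d + 1) := inf_le_left
    have hfdV₁ := h.fd_of_le hV₁Q
    have hm1V : ∀ {a}, a ∈ V₁ → m1 * a ∈ V := fun ha => ha.2
    set B : Submodule K Q := (QD (d + 1)).map (LinearMap.mulLeft K m1) with hB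
    have hfdB : FiniteDimensional K B := inferInstance
    have hBdim : finrank K B = 3 * (d + 1) := by
      rw [hB, finrank_map_mul (fun a _ h0 => h.inj1 h0), h.dimS]
    have hinf : V ⊓ B = V₁.map (LinearMap.mulLeft K m1) := by
      ext x
      constructor
      · rintro ⟨hx, a, ha, rfl⟩
        exact ⟨a, ⟨ha, hx⟩, rfl⟩
      · rintro ⟨a, ha, rfl⟩
        exact ⟨hm1V ha, a, ha.1, rfl⟩
    have hinfdim : finrank K ↥(V ⊓ B) = finrank K V₁ := by
      rw [hinf, finrank_map_mul (fun a _ h0 => h.inj1 h0)]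
    have hBQ : B ≤ QD (d + 2) := by
      rintro _ ⟨a, ha, rfl⟩
      exact h.m1_mem ha
    have hsup : V ⊔ B ≤ QD (d + 2) := sup_le hV hBQ
    have hsum := Submodule.finrank_sup_add_finrank_inf_eq V B
    have hsupdim := Submodule.finrank_mono hsup
    rw [h.dimS] at hsupdim
    by_cases hcase : finrank K V₁ + 3 ≤ finrank K V
    · -- `V + m1 Q = Q`
      have heq : V ⊔ B = QD (d + 2) :=
        Submodule.eq_of_le_of_finrank_le hsup (by rw [h.dimS]; omega)
      set B' : Submodule K Q := (QD (d + 2)).map (LinearMap.mulLeft K m1) with hB'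
      have hB'dim : finrank K B' = 3 * (d + 2) := by
        rw [hB', finrank_map_mul (fun a _ h0 => h.inj1 h0), h.dimS]
      have hfdB' : FiniteDimensional K B' := inferInstance
      have hall : QD (d + 3) ≤ MM m1 m2 w V ⊔ B' := by
        intro x hx
        obtain ⟨a, ha, c, hc, e, he, rfl⟩ := h.gen hx
        have hmem : ∀ (z a : Q), (∀ v ∈ V, z * v ∈ MM m1 m2 w V) → (∀ u ∈ QD (d + 1), z * (m1 * u) ∈ B') →
            a ∈ QD (d + 2) → z * a ∈ MM m1 m2 w V ⊔ B' := by
          intro z a hz1 hz2 ha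
          rw [← heq] at ha
          obtain ⟨v, hv, _, ⟨u, hu, rfl⟩, rfl⟩ := Submodule.mem_sup.1 ha
          rw [mul_add]
          exact add_mem (Submodule.mem_sup_left (hz1 v hv)) (Submodule.mem_sup_right (hz2 u hu))
        refine add_mem (add_mem (Submodule.mem_sup_right ⟨a, ha, rfl⟩) ?_) ?_
        · refine hmem m2 c (fun v hv => D2_le_MM _ (mul_mem_D2_right hv)) (fun u hu => ?_) hc
          exact ⟨m2 * u, h.m2_mem hu, by simp only [LinearMap.mulLeft_apply]; ring⟩
        · refine hmem w e (fun v hv => mul_mem_MM_w hv) (fun u hu => ?_) he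
          exact ⟨w * u, h.w_mem hu, by simp only [LinearMap.mulLeft_apply]; ring⟩
      have h1 := Submodule.finrank_mono hall
      rw [h.dimS] at h1
      have h2 := Submodule.finrank_sup_add_finrank_inf_eq (MM m1 m2 w V) B'
      have hle2 : V.map (LinearMap.mulLeft K m1) ≤ MM m1 m2 w V ⊓ B' := by
        rintro _ ⟨a, ha, rfl⟩
        exact ⟨D2_le_MM _ (mul_mem_D2_left ha), a, hV ha, rfl⟩
      have h3 := Submodule.finrank_mono hle2
      rw [finrank_map_mul (fun a _ h0 => h.inj1 h0)] at h3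
      omega
    · -- use the induction hypothesis
      have hq₁ : 2 * (d + 1) ≤ finrank K V₁ := by omega
      have ih1 := ih hV₁Q hq₁
      have hMV₁ := h.MM_le_QD hV₁Q
      have hfdMV₁ := h.fd_of_le hMV₁
      set Xx : Submodule K Q := (MM m1 m2 w V₁).map (LinearMap.mulLeft K m1) with hXx
      set Yy : Submodule K Q := V.map (LinearMap.mulLeft K m2) with hYy
      have hXle : Xx ≤ MM m1 m2 w V := by
        rintro _ ⟨y, hy, rfl⟩
        have hc : MM m1 m2 w V₁ ≤ (MM m1 m2 w V).comap (LinearMap.mulLeft K m1) := by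
          refine MM_le (fun a ha => ?_) (fun a ha => ?_) (fun a ha => ?_)
          · show m1 * (m1 * a) ∈ MM m1 m2 w V
            exact D2_le_MM _ (mul_mem_D2_left (hm1V ha))
          · show m1 * (m2 * a) ∈ MM m1 m2 w V
            rw [mul_left_comm]
            exact D2_le_MM _ (mul_mem_D2_right (hm1V ha))
          · show m1 * (w * a) ∈ MM m1 m2 w V
            rw [mul_left_comm]
            exact mul_mem_MM_w (hm1V ha)
        exact hc hy
      have hYle : Yy ≤ MM m1 m2 w V := by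
        rintro _ ⟨y, hy, rfl⟩
        exact D2_le_MM _ (mul_mem_D2_right hy)
      have hXYle : Xx ⊔ Yy ≤ MM m1 m2 w V := sup_le hXle hYle
      have hsum2 := Submodule.finrank_sup_add_finrank_inf_eq Xx Yy
      have hXdim : finrank K Xx = finrank K (MM m1 m2 w V₁) := by
        rw [hXx, finrank_map_mul (fun a _ h0 => h.inj1 h0)]
      have hYdim : finrank K Yy = finrank K V := by
        rw [hYy, finrank_map_mul (fun a _ h0 => h.inj2 h0)]
      have hinf2 : Xx ⊓ Yy ≤ V₁.map (LinearMap.mulLeft K (m1 * m2)) := by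
        rintro z ⟨⟨y, hy, e1⟩, ⟨v, hv, e2⟩⟩
        simp only [LinearMap.mulLeft_apply] at e1 e2
        obtain ⟨u, hu, eu1, eu2⟩ := h.reg (hMV₁ hy) (hV hv) (e1.trans e2.symm)
        refine ⟨u, ⟨hu, ?_⟩, ?_⟩
        · show m1 * u ∈ V
          rw [← eu2]
          exact hv
        · simp only [LinearMap.mulLeft_apply]
          rw [← e1, eu1]
          ring
      have hfd3 : FiniteDimensional K (V₁.map (LinearMap.mulLeft K (m1 * m2))) := inferInstance
      have h4 := Submodule.finrank_mono hinf2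
      rw [finrank_map_mul (fun a _ h0 => by
        apply h.inj2
        apply h.inj1
        linear_combination h0)] at h4
      have h5 := Submodule.finrank_mono hXYle
      omega

end Vale.Agent.P200b
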