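import Vale.Agent.Lib.P200b.Growth

/-!
# P200 family: linear changes of coordinates
-/

open MvPolynomial Module
open Vale.Agent.P200

namespace Vale.Agent.P200b

variable {K : Type*} [Field K] {f1 f2 f3 : S K} {b : ℕ}

/-- A linear automorphism of `K[x, y, z]`. -/
structure LinAuto (σ : S K ≃ₐ[K] S K) : Prop where
  lin : ∀ j, σ (X j) ∈ H K 1
  lin' : ∀ j, σ.symm (X j) ∈ H K 1

theorem aeval_self_equiv (σ : S K ≃ₐ[K] S K) (p : S K) : σ p = aeval (fun j => σ (X j)) p := by
  have : (σ : S K →ₐ[K] S K) = aeval (fun j => σ (X j)) := by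
    apply MvPolynomial.algHom_ext
    intro i
    simp
  exact DFunLike.congr_fun this p

theorem LinAuto.map_H {σ : S K ≃ₐ[K] S K} (hσ : LinAuto σ) {d : ℕ} {p : S K} (hp : p ∈ H K d) :
    σ p ∈ H K d := by
  rw [aeval_self_equiv]
  have := IsHomogeneous.aeval (R := K) (S := K) hp (fun j => σ (X j)) hσ.lin
  rwa [one_mul] at this

theorem LinAuto.symm {σ : S K ≃ₐ[K] S K} (hσ : LinAuto σ) : LinAuto σ.symm :=
  ⟨hσ.lin', by simpa using hσ.lin⟩

theorem mem_span_pair_map {σ : S K ≃ₐ[K] S K} {a c p : S K}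
    (hp : p ∈ Ideal.span {a, c}) : σ p ∈ Ideal.span {σ a, σ c} := by
  obtain ⟨x, y, rfl⟩ := Ideal.mem_span_pair.1 hp
  exact Ideal.mem_span_pair.2 ⟨σ x, σ y, by simp only [map_add, map_mul]⟩

theorem mem_span_single_map {σ : S K ≃ₐ[K] S K} {a p : S K}
    (hp : p ∈ Ideal.span {a}) : σ p ∈ Ideal.span {σ a} := by
  obtain ⟨x, rfl⟩ := Ideal.mem_span_singleton'.1 hp
  exact Ideal.mem_span_singleton'.2 ⟨σ x, by simp only [map_mul]⟩

/-- Regular sequences are preserved. -/
theorem RegSeq.map (h : RegSeq f1 f2 f3) (σ : S K ≃ₐ[K] S K) : RegSeq (σ f1) (σ f2) (σ f3) := by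
  refine ⟨fun h0 => h.ne (σ.injective (by rw [h0, map_zero])), ?_, ?_⟩
  · intro g hg
    have h1 := mem_span_single_map (σ := σ.symm) hg
    simp only [map_mul, AlgEquiv.symm_apply_apply] at h1
    have := mem_span_single_map (σ := σ) (h.reg2 _ h1)
    simpa using this
  · intro g hg
    have h1 := mem_span_pair_map (σ := σ.symm) hg
    simp only [map_mul, AlgEquiv.symm_apply_apply] at h1
    have := mem_span_pair_map (σ := σ) (h.reg3 _ h1)
    simpa using this

theorem CIb.map (h : CIb b f1 f2 f3) {σ : S K ≃ₐ[K] S K} (hσ : LinAuto σ) :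
    CIb b (σ f1) (σ f2) (σ f3) :=
  ⟨Vale.Agent.P200b.RegSeq.map h.reg σ, hσ.map_H h.h1, hσ.map_H h.h2, hσ.map_H h.h3, h.hb⟩

theorem mem_Fid_map {σ : S K ≃ₐ[K] S K} {p : S K} (hp : p ∈ Fid f1 f2 f3) :
    σ p ∈ Fid (σ f1) (σ f2) (σ f3) := by
  obtain ⟨a, c, e, rfl⟩ := mem_Fid.1 hp
  exact mem_Fid.2 ⟨σ a, σ c, σ e, by simp only [map_add, map_mul]⟩

/-- The growth bound transfers along a linear automorphism. -/
theorem growth_transfer {σ : S K ≃ₐ[K] S K} (hσ : LinAuto σ)
    (hg : ∀ {d : ℕ} {V : Submodule K (S K)}, F (σ f1) (σ f2) (σ f3) d ≤ V → V ≤ H K d →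
      G b d (finrank K V - fdim b d) + fdim b (d + 1) ≤
        finrank K ↥(M V ⊔ F (σ f1) (σ f2) (σ f3) (d + 1)))
    {d : ℕ} {V : Submodule K (S K)} (hFV : F f1 f2 f3 d ≤ V) (hV : V ≤ H K d) :
    G b d (finrank K V - fdim b d) + fdim b (d + 1) ≤ finrank K ↥(M V ⊔ F f1 f2 f3 (d + 1)) := by
  have hfdV : FiniteDimensional K V := fd_of_le hV
  set L : S K →ₗ[K] S K := σ.toLinearMap with hL
  have hLe : ∀ {U : Submodule K (S K)}, finrank K (U.map L) = finrank K U := by
    intro U
    exact LinearEquiv.finrank_map_eq σ.toLinearEquiv U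
  set V' := V.map L with hV'
  have hV'H : V' ≤ H K d := by
    rintro _ ⟨v, hv, rfl⟩
    exact hσ.map_H (hV hv)
  have hFV' : F (σ f1) (σ f2) (σ f3) d ≤ V' := by
    rintro p ⟨hp, hpH⟩
    refine ⟨σ.symm p, hFV ⟨?_, hσ.symm.map_H hpH⟩, by simp [hL]⟩
    have := mem_Fid_map (σ := σ.symm) hp
    simpa using this
  have h1 := hg hFV' hV'H
  rw [hLe] at h1
  have hle : M V' ⊔ F (σ f1) (σ f2) (σ f3) (d + 1) ≤ (M V ⊔ F f1 f2 f3 (d + 1)).map L := by
    refine sup_le ?_ ?_
    · refine iSup_le fun j => ?_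
      rintro _ ⟨_, ⟨v, hv, rfl⟩, rfl⟩
      refine ⟨σ.symm (X j) * v, Submodule.mem_sup_left (mul_mem_M (hσ.lin' j) hv), ?_⟩
      simp [hL]
    · rintro p ⟨hp, hpH⟩
      refine ⟨σ.symm p, Submodule.mem_sup_right ⟨?_, hσ.symm.map_H hpH⟩, by simp [hL]⟩
      have := mem_Fid_map (σ := σ.symm) hp
      simpa using this
  have hT : M V ⊔ F f1 f2 f3 (d + 1) ≤ H K (d + 1) := sup_le (M_le_H hV) (F_le_H' _ _ _ _)
  have hfdT : FiniteDimensional K ↥(M V ⊔ F f1 f2 f3 (d + 1)) := fd_of_le hT
  have h2 := Submodule.finrank_mono hle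
  rw [hLe] at h2
  omega

/-- An automorphism given by mutually inverse substitutions. -/
noncomputable def linEquiv (A B : Fin 3 → S K) (hAB : ∀ j, aeval B (A j) = X j)
    (hBA : ∀ j, aeval A (B j) = X j) : S K ≃ₐ[K] S K :=
  AlgEquiv.ofAlgHom (aeval A) (aeval B)
    (by
      apply MvPolynomial.algHom_ext
      intro i
      simp only [AlgHom.comp_apply, aeval_X, AlgHom.id_apply]
      exact hBA i)
    (by
      apply MvPolynomial.algHom_ext
      intro i
      simp only [AlgHom.comp_apply, aeval_X, AlgHom.id_apply]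
      exact hAB i)

theorem linEquiv_X (A B : Fin 3 → S K) (hAB : ∀ j, aeval B (A j) = X j)
    (hBA : ∀ j, aeval A (B j) = X j) (j : Fin 3) : linEquiv A B hAB hBA (X j) = A j := by
  simp [linEquiv]

theorem linEquiv_symm_X (A B : Fin 3 → S K) (hAB : ∀ j, aeval B (A j) = X j)
    (hBA : ∀ j, aeval A (B j) = X j) (j : Fin 3) : (linEquiv A B hAB hBA).symm (X j) = B j := by
  simp [linEquiv]

theorem coeff_eq_eval {p : S K} (hp : p ∈ H K 3) :
    coeff (Finsupp.single 0 3) p = eval ![1, 0, 0] p := by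
  classical
  rw [eval_eq']
  by_cases hs : Finsupp.single (0 : Fin 3) 3 ∈ p.support
  · rw [Finset.sum_eq_single_of_mem _ hs]
    · simp [Fin.prod_univ_three]
    · intro m hm hne
      have h3 := hp (MvPolynomial.mem_support_iff.1 hm)
      have hdeg : m 0 + m 1 + m 2 = 3 := by
        simpa [Finsupp.degree_eq_sum, Finsupp.weight_apply, Finsupp.sum_fintype, Fin.sum_univ_three]
          using h3
      have hz : m 1 ≠ 0 ∨ m 2 ≠ 0 := by
        by_contra hc
        push Not at hc
        apply hne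
        ext i
        fin_cases i
        · simp
          omega
        · simpa using hc.1
        · simpa using hc.2
      simp only [Fin.prod_univ_three, Matrix.cons_val_zero, Matrix.cons_val_one, Matrix.cons_val]
      rcases hz with hz | hz
      · simp [zero_pow hz]
      · simp [zero_pow hz]
  · rw [MvPolynomial.notMem_support_iff.1 hs]
    symm
    refine Finset.sum_eq_zero fun m hm => ?_
    have h3 := hp (MvPolynomial.mem_support_iff.1 hm)
    have hdeg : m 0 + m 1 + m 2 = 3 := by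
      simpa [Finsupp.degree_eq_sum, Finsupp.weight_apply, Finsupp.sum_fintype, Fin.sum_univ_three]
        using h3
    have hz : m 1 ≠ 0 ∨ m 2 ≠ 0 := by
      by_contra hc
      push Not at hc
      apply hs
      have : m = Finsupp.single 0 3 := by
        ext i
        fin_cases i
        · simp
          omega
        · simpa using hc.1
        · simpa using hc.2
      rw [← this]
      exact hm
    simp only [Fin.prod_univ_three, Matrix.cons_val_zero, Matrix.cons_val_one, Matrix.cons_val]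
    rcases hz with hz | hz
    · simp [zero_pow hz]
    · simp [zero_pow hz]

/-- Evaluating a substitution. -/
theorem eval_aeval_subst (x : Fin 3 → K) (A : Fin 3 → S K) (p : S K) :
    eval x (aeval A p) = eval (fun j => eval x (A j)) p := by
  have : (aeval x : S K →ₐ[K] K).comp (aeval A) = aeval (fun j => eval x (A j)) := by
    apply MvPolynomial.algHom_ext
    intro i
    simp [aeval_eq_eval]
  have h2 := DFunLike.congr_fun this p
  simpa [aeval_eq_eval] using h2

theorem CX_mem_H1 (t : K) (j : Fin 3) : (C t * X j : S K) ∈ H K 1 := by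
  have := (isHomogeneous_C (Fin 3) t).mul (isHomogeneous_X K j)
  rwa [zero_add] at this

/-- The automorphism attached to substitutions, and normal position. -/
theorem normal_of_subst {f1 : S K} {r : Fin 3 → K} (h1 : f1 ∈ H K 3) (hr : eval r f1 ≠ 0)
    (A B : Fin 3 → S K) (hAB : ∀ j, aeval B (A j) = X j) (hBA : ∀ j, aeval A (B j) = X j)
    (hA : ∀ j, A j ∈ H K 1) (hB : ∀ j, B j ∈ H K 1) (hAr : ∀ j, eval ![1, 0, 0] (A j) = r j) :
    ∃ σ : S K ≃ₐ[K] S K, LinAuto σ ∧ NP (σ f1) := by
  have hσ : LinAuto (linEquiv A B hAB hBA) :=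
    ⟨fun j => by rw [linEquiv_X]; exact hA j, fun j => by rw [linEquiv_symm_X]; exact hB j⟩
  refine ⟨linEquiv A B hAB hBA, hσ, hσ.map_H h1, ?_⟩
  rw [coeff_eq_eval (hσ.map_H h1)]
  have e : linEquiv A B hAB hBA f1 = aeval A f1 := rfl
  rw [e, eval_aeval_subst]
  have : (fun j => eval ![1, 0, 0] (A j)) = r := funext hAr
  rw [this]
  exact hr

/-- A point off the cubic gives a normal position. -/
theorem exists_normal {f1 : S K} {r : Fin 3 → K} (h1 : f1 ∈ H K 3) (hr : eval r f1 ≠ 0) :
    ∃ σ : S K ≃ₐ[K] S K, LinAuto σ ∧ NP (σ f1) := by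
  have hne : r 0 ≠ 0 ∨ r 1 ≠ 0 ∨ r 2 ≠ 0 := by
    by_contra hc
    push Not at hc
    apply hr
    have hr0 : r = 0 := by
      ext i
      fin_cases i
      · exact hc.1
      · exact hc.2.1
      · exact hc.2.2
    rw [hr0]
    rw [eval_eq']
    refine Finset.sum_eq_zero fun m hm => ?_
    have h3 := h1 (MvPolynomial.mem_support_iff.1 hm)
    have hdeg : m 0 + m 1 + m 2 = 3 := by
      simpa [Finsupp.degree_eq_sum, Finsupp.weight_apply, Finsupp.sum_fintype, Fin.sum_univ_three]
        using h3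
    have hex : ∃ i, m i ≠ 0 := by
      by_contra hcc
      push Not at hcc
      have h0 := hcc 0
      have h1' := hcc 1
      have h2 := hcc 2
      omega
    obtain ⟨i, hi⟩ := hex
    rw [Finset.prod_eq_zero (Finset.mem_univ i) (by simp [hi]), mul_zero]
  have hC : ∀ {t : K}, t ≠ 0 → (C t⁻¹ * C t : S K) = 1 := by
    intro t ht
    rw [← C_mul, inv_mul_cancel₀ ht, C_1]
  have hev : ∀ (t : K) (j : Fin 3), eval ![1, 0, 0] (C t * X j : S K) = t * (![1, 0, 0] : Fin 3 → K) j := by
    intro t j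
    simp
  rcases hne with h0 | h0 | h0
  · refine normal_of_subst h1 hr ![C (r 0) * X 0, C (r 1) * X 0 + X 1, C (r 2) * X 0 + X 2]
      ![C (r 0)⁻¹ * X 0, X 1 - C (r 1) * (C (r 0)⁻¹ * X 0), X 2 - C (r 2) * (C (r 0)⁻¹ * X 0)]
      ?_ ?_ ?_ ?_ ?_
    · intro j
      fin_cases j <;> simp [aeval_X, aeval_C, map_add, map_mul, map_sub, -aeval_eq_bind₁, algebraMap_eq]
      · linear_combination (X 0 : S K) * hC h0
    · intro j
      have hh := hC h0
      fin_cases j <;> simp [aeval_X, aeval_C, map_add, map_mul, map_sub, -aeval_eq_bind₁, algebraMap_eq]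
      · linear_combination (X 0 : S K) * hC h0
      · linear_combination (-(C (r 1) * X 0) : S K) * hC h0
      · linear_combination (-(C (r 2) * X 0) : S K) * hC h0
    · intro j
      fin_cases j
      · exact CX_mem_H1 _ _
      · exact add_mem (CX_mem_H1 _ _) (X_mem_H1 _)
      · exact add_mem (CX_mem_H1 _ _) (X_mem_H1 _)
    · intro j
      have e : ∀ (a c : K) (i : Fin 3), (C a * (C c * X i) : S K) = C (a * c) * X i := by
        intro a c i; rw [C_mul]; ring
      fin_cases j
      · exact CX_mem_H1 _ _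
      · refine sub_mem (X_mem_H1 _) ?_
        simp only [e]
        exact CX_mem_H1 _ _
      · refine sub_mem (X_mem_H1 _) ?_
        simp only [e]
        exact CX_mem_H1 _ _
    · intro j
      fin_cases j <;> simp
  · refine normal_of_subst h1 hr ![C (r 0) * X 0 + X 1, C (r 1) * X 0, C (r 2) * X 0 + X 2]
      ![C (r 1)⁻¹ * X 1, X 0 - C (r 0) * (C (r 1)⁻¹ * X 1), X 2 - C (r 2) * (C (r 1)⁻¹ * X 1)]
      ?_ ?_ ?_ ?_ ?_
    · intro j
      fin_cases j <;> simp [aeval_X, aeval_C, map_add, map_mul, map_sub, -aeval_eq_bind₁, algebraMap_eq]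
      · linear_combination (X 1 : S K) * hC h0
    · intro j
      fin_cases j <;> simp [aeval_X, aeval_C, map_add, map_mul, map_sub, -aeval_eq_bind₁, algebraMap_eq]
      · linear_combination (X 0 : S K) * hC h0
      · linear_combination (-(C (r 0) * X 0) : S K) * hC h0
      · linear_combination (-(C (r 2) * X 0) : S K) * hC h0
    · intro j
      fin_cases j
      · exact add_mem (CX_mem_H1 _ _) (X_mem_H1 _)
      · exact CX_mem_H1 _ _
      · exact add_mem (CX_mem_H1 _ _) (X_mem_H1 _)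
    · intro j
      have e : ∀ (a c : K) (i : Fin 3), (C a * (C c * X i) : S K) = C (a * c) * X i := by
        intro a c i; rw [C_mul]; ring
      fin_cases j
      · exact CX_mem_H1 _ _
      · refine sub_mem (X_mem_H1 _) ?_
        simp only [e]
        exact CX_mem_H1 _ _
      · refine sub_mem (X_mem_H1 _) ?_
        simp only [e]
        exact CX_mem_H1 _ _
    · intro j
      fin_cases j <;> simp
  · refine normal_of_subst h1 hr ![C (r 0) * X 0 + X 1, C (r 1) * X 0 + X 2, C (r 2) * X 0]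
      ![C (r 2)⁻¹ * X 2, X 0 - C (r 0) * (C (r 2)⁻¹ * X 2), X 1 - C (r 1) * (C (r 2)⁻¹ * X 2)]
      ?_ ?_ ?_ ?_ ?_
    · intro j
      fin_cases j <;> simp [aeval_X, aeval_C, map_add, map_mul, map_sub, -aeval_eq_bind₁, algebraMap_eq]
      · linear_combination (X 2 : S K) * hC h0
    · intro j
      fin_cases j <;> simp [aeval_X, aeval_C, map_add, map_mul, map_sub, -aeval_eq_bind₁, algebraMap_eq]
      · linear_combination (X 0 : S K) * hC h0
      · linear_combination (-(C (r 0) * X 0) : S K) * hC h0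
      · linear_combination (-(C (r 1) * X 0) : S K) * hC h0
    · intro j
      fin_cases j
      · exact add_mem (CX_mem_H1 _ _) (X_mem_H1 _)
      · exact add_mem (CX_mem_H1 _ _) (X_mem_H1 _)
      · exact CX_mem_H1 _ _
    · intro j
      have e : ∀ (a c : K) (i : Fin 3), (C a * (C c * X i) : S K) = C (a * c) * X i := by
        intro a c i; rw [C_mul]; ring
      fin_cases j
      · exact CX_mem_H1 _ _
      · refine sub_mem (X_mem_H1 _) ?_
        simp only [e]
        exact CX_mem_H1 _ _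
      · refine sub_mem (X_mem_H1 _) ?_
        simp only [e]
        exact CX_mem_H1 _ _
    · intro j
      fin_cases j <;> simp

/-- **The growth bound, given a point off the cubic.** -/
theorem CIb.growth_of_point (h : CIb b f1 f2 f3) (hb4 : 4 ≤ b) {r : Fin 3 → K}
    (hr : eval r f1 ≠ 0) {d : ℕ} {V : Submodule K (S K)} (hFV : F f1 f2 f3 d ≤ V)
    (hV : V ≤ H K d) :
    G b d (finrank K V - fdim b d) + fdim b (d + 1) ≤ finrank K ↥(M V ⊔ F f1 f2 f3 (d + 1)) := by
  obtain ⟨σ, hσ, hnp⟩ := exists_normal h.h1 hr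
  exact growth_transfer hσ (fun hF hW => (h.map hσ).growth_np hnp hb4 hF hW) hFV hV

end Vale.Agent.P200b
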