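import Vale.Agent.Lib.P200b.Rank
import Vale.Agent.Lib.P200b.Transfer

/-!
# P200 family: from growth to the ideal property of `J`, and the Hilbert function of `J`
-/

open MvPolynomial Module
open Vale.Agent.P200

namespace Vale.Agent.P200b

variable {K : Type*} [Field K] {b : ℕ}

/-! ### the powers are a regular sequence -/

theorem X_pow_eq' (j : Fin 3) (n : ℕ) : (X j ^ n : S K) = monomial (Finsupp.single j n) 1 :=
  X_pow_eq_monomial

theorem regSeq_pow (hb : 1 ≤ b) : RegSeq (X 0 ^ 3 : S K) (X 1 ^ b) (X 2 ^ b) := by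
  refine ⟨pow_ne_zero _ (X_ne_zero _), ?_, ?_⟩
  · intro g hg
    have hg' : (X 0 : S K) ^ 3 ∣ X 1 ^ b * g := Ideal.mem_span_singleton.1 hg
    refine Ideal.mem_span_singleton.2 ?_
    refine (X_prime (i := (0 : Fin 3)) (R := K)).pow_dvd_of_dvd_mul_left 3 ?_ hg'
    intro hd
    have := (X_prime (i := (0 : Fin 3)) (R := K)).dvd_of_dvd_pow hd
    exact absurd (X_dvd_X.1 this) (by decide)
  · intro g hg
    have hset : ({X 0 ^ 3, X 1 ^ b} : Set (S K)) =
        (fun s => monomial s (1 : K)) '' ({Finsupp.single 0 3, Finsupp.single 1 b} :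
          Set (Fin 3 →₀ ℕ)) := by
      simp [Set.image_insert_eq, X_pow_eq']
    rw [hset] at hg ⊢
    rw [mem_ideal_span_monomial_image] at hg ⊢
    intro m hm
    have hm2 : (m + Finsupp.single (2 : Fin 3) b) ∈ (X 2 ^ b * g).support := by
      rw [X_pow_eq', MvPolynomial.mem_support_iff, coeff_monomial_mul', if_pos]
      · rw [one_mul, add_tsub_cancel_right]
        exact MvPolynomial.mem_support_iff.1 hm
      · exact le_add_self
    obtain ⟨i, hi, hi2⟩ := hg _ hm2
    refine ⟨i, hi, ?_⟩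
    intro k
    have hk := hi2 k
    rcases (by simpa using hi : i = Finsupp.single 0 3 ∨ i = Finsupp.single 1 b) with rfl | rfl
    · by_cases h2 : k = 2
      · subst h2; simp
      · simpa [Finsupp.single_apply, Ne.symm h2] using hk
    · by_cases h2 : k = 2
      · subst h2; simp
      · simpa [Finsupp.single_apply, Ne.symm h2] using hk

theorem ci_pow (hb : 3 ≤ b) : CIb b (X 0 ^ 3 : S K) (X 1 ^ b) (X 2 ^ b) :=
  ⟨regSeq_pow (by omega), isHomogeneous_X_pow 0 3, isHomogeneous_X_pow 1 b,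
    isHomogeneous_X_pow 2 b, hb⟩

theorem gdim_pow (hb : 3 ≤ b) (d : ℕ) : gdim (powIdeal K b) d = fdim b d :=
  (ci_pow hb).finrank_F_fdim d

/-! ### monomials -/

theorem mono_bump (j : Fin 3) (t : ℕ × ℕ × ℕ) : (mono (bump j t) : S K) = X j * mono t := by
  obtain ⟨a, c, e⟩ := t
  rcases fin3_cases j with rfl | rfl | rfl
  · change X 0 ^ (a + 1) * X 1 ^ c * X 2 ^ e = X 0 * (X 0 ^ a * X 1 ^ c * X 2 ^ e)
    ring
  · change X 0 ^ a * X 1 ^ (c + 1) * X 2 ^ e = X 1 * (X 0 ^ a * X 1 ^ c * X 2 ^ e)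
    ring
  · change X 0 ^ a * X 1 ^ c * X 2 ^ (e + 1) = X 2 * (X 0 ^ a * X 1 ^ c * X 2 ^ e)
    ring

theorem mono_mem_H (t : ℕ × ℕ × ℕ) : (mono t : S K) ∈ H K (t.1 + t.2.1 + t.2.2) :=
  ((isHomogeneous_X_pow _ _).mul (isHomogeneous_X_pow _ _)).mul (isHomogeneous_X_pow _ _)

theorem mono_bad {t : ℕ × ℕ × ℕ} (h : bad b t) : (mono t : S K) ∈ powIdeal K b := by
  obtain ⟨a, c, e⟩ := t
  have h0 : (X 0 ^ 3 : S K) ∈ powIdeal K b := Ideal.subset_span (by simp)
  have h1 : (X 1 ^ b : S K) ∈ powIdeal K b := Ideal.subset_span (by simp)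
  have h2 : (X 2 ^ b : S K) ∈ powIdeal K b := Ideal.subset_span (by simp)
  rcases h with h | h | h
  · have h' : 3 ≤ a := h
    have e' : (mono (a, c, e) : S K) = X 0 ^ 3 * (X 0 ^ (a - 3) * X 1 ^ c * X 2 ^ e) := by
      simp only [mono]
      nth_rewrite 1 [show a = 3 + (a - 3) by omega]
      rw [pow_add]; ring
    rw [e']
    exact Ideal.mul_mem_right _ _ h0
  · have h' : b ≤ c := h
    have e' : (mono (a, c, e) : S K) = X 1 ^ b * (X 0 ^ a * X 1 ^ (c - b) * X 2 ^ e) := by
      simp only [mono]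
      nth_rewrite 1 [show c = b + (c - b) by omega]
      rw [pow_add]; ring
    rw [e']
    exact Ideal.mul_mem_right _ _ h1
  · have h' : b ≤ e := h
    have e' : (mono (a, c, e) : S K) = X 2 ^ b * (X 0 ^ a * X 1 ^ c * X 2 ^ (e - b)) := by
      simp only [mono]
      nth_rewrite 1 [show e = b + (e - b) by omega]
      rw [pow_add]; ring
    rw [e']
    exact Ideal.mul_mem_right _ _ h2

theorem bump_sum (j : Fin 3) (t : ℕ × ℕ × ℕ) :
    (bump j t).1 + (bump j t).2.1 + (bump j t).2.2 = t.1 + t.2.1 + t.2.2 + 1 := by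
  obtain ⟨a, c, e⟩ := t
  rcases fin3_cases j with rfl | rfl | rfl
  · change a + 1 + c + e = a + c + e + 1
    omega
  · change a + (c + 1) + e = a + c + e + 1
    omega
  · change a + c + (e + 1) = a + c + e + 1
    omega

theorem bump_Out {d : ℕ} {t : ℕ × ℕ × ℕ} (ht : t ∈ Out b d) (j : Fin 3) (hg : ¬ bad b (bump j t)) :
    bump j t ∈ Out b (d + 1) := by
  obtain ⟨h1, h2, h3, h4⟩ := mem_Out.1 ht
  refine mem_Out.2 ?_
  have hs := bump_sum j t
  simp only [bad] at hg
  refine ⟨by omega, by omega, by omega, by omega⟩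

/-! ### assembling -/

theorem P_mul (j : Fin 3) {d : ℕ} {p : S K} (hp : p ∈ (powIdeal K b).restrictScalars K ⊓ H K d) :
    X j * p ∈ (powIdeal K b).restrictScalars K ⊓ H K (d + 1) :=
  ⟨Ideal.mul_mem_left _ _ hp.1, mul_mem_H (X_mem_H1 j) hp.2 (by omega)⟩

/-- Under `qd` bounds, `J_d` goes to `J_{d+1}`. -/
theorem Jd_step (I : Ideal (S K)) (hq : ∀ d, G b d (qd b I d) ≤ qd b I (d + 1)) (j : Fin 3) (d : ℕ)
    {p : S K} (hp : p ∈ Jd b I d) : X j * p ∈ Jd b I (d + 1) := by
  have hle : Jd b I d ≤ (Jd b I (d + 1)).comap (LinearMap.mulLeft K (X j : S K)) := by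
    refine sup_le ?_ ?_
    · intro p hp
      exact Submodule.mem_sup_left (P_mul j hp)
    · refine Submodule.span_le.2 ?_
      rintro _ ⟨t, ht, rfl⟩
      show X j * mono t ∈ Jd b I (d + 1)
      rw [← mono_bump]
      obtain ⟨htO, htr⟩ := mem_lexSeg.1 ht
      by_cases hg : bad b (bump j t)
      · refine Submodule.mem_sup_left ⟨mono_bad hg, ?_⟩
        have := mono_mem_H (K := K) (bump j t)
        rwa [bump_sum, (mem_Out.1 htO).2.2.2] at this
      · refine Submodule.mem_sup_right (Submodule.subset_span ⟨_, ?_, rfl⟩)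
        refine mem_lexSeg.2 ⟨bump_Out htO j hg, ?_⟩
        exact lt_of_lt_of_le (rk_bump htO htr j hg) (hq d)
  exact hle hp

/-- `J` is closed under multiplication. -/
theorem J_mul_of_step (I : Ideal (S K)) (hq : ∀ d, G b d (qd b I d) ≤ qd b I (d + 1)) (g : S K)
    {p : S K} (hp : p ∈ lexPlusPowers b I) : g * p ∈ lexPlusPowers b I := by
  have hX : ∀ j : Fin 3, ∀ p ∈ lexPlusPowers b I, X j * p ∈ lexPlusPowers b I := by
    intro j p hp
    have hle : lexPlusPowers b I ≤ (lexPlusPowers b I).comap (LinearMap.mulLeft K (X j : S K)) := by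
      refine iSup_le fun d p hp => ?_
      exact Submodule.mem_iSup_of_mem (d + 1) (Jd_step I hq j d hp)
    exact hle hp
  induction g using MvPolynomial.induction_on generalizing p with
  | C a =>
    have : (C a : S K) * p = a • p := by rw [smul_eq_C_mul]
    rw [this]
    exact Submodule.smul_mem _ _ hp
  | add g1 g2 h1 h2 =>
    rw [add_mul]
    exact add_mem (h1 hp) (h2 hp)
  | mul_X g j h =>
    rw [mul_assoc]
    exact h (hX j p hp)

variable {f1 f2 f3 : S K}

/-- The numerics: growth gives the bound for `qd`. -/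
theorem qd_bounds (I : Ideal (S K)) (h : CIb b f1 f2 f3)
    (h1 : f1 ∈ I) (h2 : f2 ∈ I) (h3 : f3 ∈ I)
    (hgrowth : ∀ {d : ℕ} {V : Submodule K (S K)}, F f1 f2 f3 d ≤ V → V ≤ H K d →
      G b d (finrank K V - fdim b d) + fdim b (d + 1) ≤ finrank K ↥(M V ⊔ F f1 f2 f3 (d + 1)))
    (d : ℕ) : G b d (qd b I d) ≤ qd b I (d + 1) := by
  have hFI : Fid f1 f2 f3 ≤ I := by
    refine Ideal.span_le.2 ?_
    rintro x (rfl | rfl | rfl)
    · exact h1
    · exact h2
    · exact h3
  have hFV : ∀ d, F f1 f2 f3 d ≤ I.restrictScalars K ⊓ H K d := fun d p hp => ⟨hFI hp.1, hp.2⟩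
  have hVH : ∀ d, I.restrictScalars K ⊓ H K d ≤ H K d := fun d => inf_le_right
  have hfinite : ∀ d, FiniteDimensional K ↥(I.restrictScalars K ⊓ H K d) := fun d =>
    fd_of_le inf_le_right
  have hg := hgrowth (hFV d) (hVH d)
  have hle : M (I.restrictScalars K ⊓ H K d) ⊔ F f1 f2 f3 (d + 1) ≤
      I.restrictScalars K ⊓ H K (d + 1) :=
    sup_le (le_inf (M_le_ideal inf_le_left) (M_le_H inf_le_right)) (hFV _)
  have hg2 := Submodule.finrank_mono hle
  simp only [qd, gdim_pow h.hb]
  simp only [gdim]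
  omega

/-! ### the Hilbert function -/

/-- exponent vector -/
noncomputable def expv (t : ℕ × ℕ × ℕ) : Fin 3 →₀ ℕ :=
  Finsupp.single 0 t.1 + Finsupp.single 1 t.2.1 + Finsupp.single 2 t.2.2

theorem expv_apply (t : ℕ × ℕ × ℕ) :
    expv t 0 = t.1 ∧ expv t 1 = t.2.1 ∧ expv t 2 = t.2.2 := by
  simp [expv]

theorem expv_inj : Function.Injective expv := by
  rintro ⟨a, c, e⟩ ⟨a', c', e'⟩ h
  obtain ⟨x1, x2, x3⟩ := expv_apply (a, c, e)
  obtain ⟨y1, y2, y3⟩ := expv_apply (a', c', e')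
  rw [h] at x1 x2 x3
  simp only at x1 x2 x3 y1 y2 y3
  simp only [Prod.mk.injEq]
  omega

theorem mono_eq (t : ℕ × ℕ × ℕ) : (mono t : S K) = monomial (expv t) 1 := by
  obtain ⟨a, c, e⟩ := t
  simp only [mono, expv, X_pow_eq_monomial, monomial_mul, mul_one]

/-- The monomials of a finite set are independent. -/
theorem finrank_span_monos (s : Finset (ℕ × ℕ × ℕ)) :
    finrank K (Submodule.span K {m : S K | ∃ t ∈ s, m = mono t}) = s.card := by
  let v : s → S K := fun t => mono (t : ℕ × ℕ × ℕ)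
  have hv : LinearIndependent K v := by
    have h0 := (basisMonomials (Fin 3) K).linearIndependent
    have h1 : v = (basisMonomials (Fin 3) K) ∘ (expv ∘ Subtype.val) := by
      funext i
      simp [v, mono_eq, coe_basisMonomials]
    rw [h1]
    exact h0.comp _ (expv_inj.comp Subtype.val_injective)
  have hr : {m : S K | ∃ t ∈ s, m = mono t} = Set.range v := by
    ext m
    constructor
    · rintro ⟨t, ht, rfl⟩
      exact ⟨⟨t, ht⟩, rfl⟩
    · rintro ⟨⟨t, ht⟩, rfl⟩
      exact ⟨t, ht, rfl⟩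
  rw [hr, finrank_span_eq_card hv, Fintype.card_coe]

/-- The coefficients of an element of `P` vanish at monomials with small exponents. -/
theorem coeff_pow {p : S K} (hp : p ∈ powIdeal K b) {m : Fin 3 →₀ ℕ}
    (hm : m 0 < 3 ∧ m 1 < b ∧ m 2 < b) : coeff m p = 0 := by
  have hset : ({X 0 ^ 3, X 1 ^ b, X 2 ^ b} : Set (S K)) =
      (fun s => monomial s (1 : K)) '' ({Finsupp.single 0 3, Finsupp.single 1 b,
        Finsupp.single 2 b} : Set (Fin 3 →₀ ℕ)) := by
    simp [Set.image_insert_eq, X_pow_eq']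
  rw [powIdeal, hset, mem_ideal_span_monomial_image] at hp
  by_contra hne
  obtain ⟨s, hs, hle⟩ := hp m (MvPolynomial.mem_support_iff.2 hne)
  rcases (by simpa using hs : s = Finsupp.single 0 3 ∨ s = Finsupp.single 1 b ∨
      s = Finsupp.single 2 b) with rfl | rfl | rfl
  · have := hle 0
    simp at this
    omega
  · have := hle 1
    simp at this
    omega
  · have := hle 2
    simp at this
    omega

/-- The span of monomials with small exponents meets `P` only in zero. -/
theorem inf_span_monos {s : Finset (ℕ × ℕ × ℕ)} {d' : ℕ} (hs : ∀ t ∈ s, t ∈ Out b d') (d : ℕ) :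
    ((powIdeal K b).restrictScalars K ⊓ H K d) ⊓ Submodule.span K {m : S K | ∃ t ∈ s, m = mono t}
      = ⊥ := by
  rw [eq_bot_iff]
  rintro p ⟨⟨hp, -⟩, hY⟩
  rw [Submodule.mem_bot]
  ext m
  rw [coeff_zero]
  by_cases hm : m 0 < 3 ∧ m 1 < b ∧ m 2 < b
  · exact coeff_pow hp hm
  · let L : S K →ₗ[K] K :=
      { toFun := coeff m
        map_add' := coeff_add m
        map_smul' := fun c p => coeff_smul m c p }
    have hle : Submodule.span K {m : S K | ∃ t ∈ s, m = mono t} ≤ LinearMap.ker L := by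
      refine Submodule.span_le.2 ?_
      rintro _ ⟨t, ht, rfl⟩
      obtain ⟨h1, h2, h3, -⟩ := mem_Out.1 (hs t ht)
      obtain ⟨x1, x2, x3⟩ := expv_apply t
      show coeff m (mono t : S K) = 0
      rw [mono_eq, coeff_monomial, if_neg]
      rintro rfl
      apply hm
      rw [x1, x2, x3]
      exact ⟨h1, h2, h3⟩
    exact hle hY

/-- **The Hilbert function of `J`**. -/
theorem finrank_Jd (I : Ideal (S K)) (h : CIb b f1 f2 f3)
    (h1 : f1 ∈ I) (h2 : f2 ∈ I) (h3 : f3 ∈ I) (d : ℕ) : finrank K (Jd b I d) = gdim I d := by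
  have hFI : Fid f1 f2 f3 ≤ I := by
    refine Ideal.span_le.2 ?_
    rintro x (rfl | rfl | rfl)
    · exact h1
    · exact h2
    · exact h3
  have hgP := gdim_pow (K := K) h.hb d
  have hFV : F f1 f2 f3 d ≤ I.restrictScalars K ⊓ H K d := fun p hp => ⟨hFI hp.1, hp.2⟩
  have : FiniteDimensional K ↥(I.restrictScalars K ⊓ H K d) := fd_of_le inf_le_right
  have hge : fdim b d ≤ gdim I d := by
    rw [← h.finrank_F_fdim]
    exact Submodule.finrank_mono hFV
  have hle : gdim I d ≤ (d + 2).choose 2 := by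
    rw [← finrank_H (K := K) d]
    exact Submodule.finrank_mono inf_le_right
  have hfh := h.finrank_F_all d
  have hff := h.finrank_F_fdim d
  have hq : qd b I d = gdim I d - fdim b d := by
    rw [qd, hgP]
  have hcard : (lexSeg b d (qd b I d)).card = qd b I d := card_lexSeg (by omega)
  have hY := finrank_span_monos (K := K) (lexSeg b d (qd b I d))
  have hinf := inf_span_monos (K := K) (s := lexSeg b d (qd b I d)) (b := b) (d' := d)
    (fun t ht => (mem_lexSeg.1 ht).1) d
  have : FiniteDimensional K ↥((powIdeal K b).restrictScalars K ⊓ H K d) := fd_of_le inf_le_right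
  have : FiniteDimensional K (Submodule.span K {m : S K | ∃ t ∈ lexSeg b d (qd b I d),
      m = mono t}) := by
    have hfin : {m : S K | ∃ t ∈ lexSeg b d (qd b I d), m = mono t}.Finite := by
      have : {m : S K | ∃ t ∈ lexSeg b d (qd b I d), m = mono t} =
          mono '' {t | t ∈ lexSeg b d (qd b I d)} := by
        ext m
        constructor
        · rintro ⟨t, ht, rfl⟩
          exact ⟨t, ht, rfl⟩
        · rintro ⟨t, ht, rfl⟩
          exact ⟨t, ht, rfl⟩
      rw [this]
      exact (Finset.finite_toSet _).image _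
    exact FiniteDimensional.span_of_finite K hfin
  have hsum := Submodule.finrank_sup_add_finrank_inf_eq
    ((powIdeal K b).restrictScalars K ⊓ H K d)
    (Submodule.span K {m : S K | ∃ t ∈ lexSeg b d (qd b I d), m = mono t})
  rw [hinf, finrank_bot, hY, hcard] at hsum
  have hP : finrank K ↥((powIdeal K b).restrictScalars K ⊓ H K d) = fdim b d := hgP
  rw [hP] at hsum
  show finrank K ↥(((powIdeal K b).restrictScalars K ⊓ H K d) ⊔
    Submodule.span K {m : S K | ∃ t ∈ lexSeg b d (qd b I d), m = mono t}) = _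
  omega

/-- **EGH for `(3, b, b)`, given a point off the cubic.** -/
theorem egh_of_point (hb4 : 4 ≤ b) (I : Ideal (S K)) (h : CIb b f1 f2 f3) {r : Fin 3 → K}
    (hr : eval r f1 ≠ 0) (h1 : f1 ∈ I) (h2 : f2 ∈ I) (h3 : f3 ∈ I) :
    (∀ g p : S K, p ∈ lexPlusPowers b I → g * p ∈ lexPlusPowers b I) ∧
      (∀ d, finrank K (Jd b I d) = gdim I d) :=
  ⟨fun g p hp => J_mul_of_step I
      (qd_bounds I h h1 h2 h3 (fun hF hV => h.growth_of_point hb4 hr hF hV)) g hp,
    finrank_Jd I h h1 h2 h3⟩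

end Vale.Agent.P200b
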