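import Vale.Agent.Lib.P200b.Assembly

/-!
# P200 family: base change to an infinite field

The growth bound over `K` follows from the growth bound over an extension field.
-/

open MvPolynomial Module
open Vale.Agent.P200

namespace Vale.Agent.P200b

variable {K : Type*} [Field K] {L : Type*} [Field L] [Algebra K L]

/-- The extension of scalars on polynomials. -/
noncomputable abbrev extS (K L : Type*) [Field K] [Field L] [Algebra K L] : S K →+* S L :=
  MvPolynomial.map (algebraMap K L)

theorem coeff_extS (m : Fin 3 →₀ ℕ) (p : S K) :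
    coeff m (extS K L p) = algebraMap K L (coeff m p) := coeff_map _ _ _

/-- Applying a `K`-linear functional to the coefficients. -/
noncomputable def proj (φ : L →ₗ[K] K) (p : S L) : S K :=
  ∑ m ∈ p.support, monomial m (φ (coeff m p))

theorem coeff_proj (φ : L →ₗ[K] K) (p : S L) (m : Fin 3 →₀ ℕ) :
    coeff m (proj φ p) = φ (coeff m p) := by
  classical
  unfold proj
  rw [coeff_sum]
  simp only [coeff_monomial]
  rw [Finset.sum_ite_eq']
  split_ifs with h
  · rfl
  · rw [MvPolynomial.notMem_support_iff.1 h, map_zero]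

theorem proj_extS_mul (φ : L →ₗ[K] K) (a : S K) (p : S L) :
    proj φ (extS K L a * p) = a * proj φ p := by
  ext m
  rw [coeff_proj, coeff_mul, coeff_mul, map_sum]
  refine Finset.sum_congr rfl fun x _ => ?_
  rw [coeff_proj, coeff_extS, ← Algebra.smul_def, map_smul, smul_eq_mul]

theorem proj_add (φ : L →ₗ[K] K) (p q : S L) : proj φ (p + q) = proj φ p + proj φ q := by
  ext m
  simp [coeff_proj]

theorem proj_zero (φ : L →ₗ[K] K) : proj φ (0 : S L) = 0 := by
  ext m
  simp [coeff_proj]

theorem proj_C_mul_extS (φ : L →ₗ[K] K) (c : L) (a : S K) :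
    proj φ (C c * extS K L a) = φ c • a := by
  ext m
  rw [coeff_proj, coeff_C_mul, coeff_extS, coeff_smul, mul_comm, ← Algebra.smul_def, map_smul,
    smul_eq_mul, smul_eq_mul, mul_comm]

/-- A polynomial whose projections all lie in a `K`-ideal lies in the extended ideal. -/
theorem mem_map_of_proj (J : Ideal (S K)) (g : S L) (h : ∀ φ : L →ₗ[K] K, proj φ g ∈ J) :
    g ∈ J.map (extS K L) := by
  classical
  let B := Module.Basis.ofVectorSpace K L
  let s : Finset (Module.Basis.ofVectorSpaceIndex K L) :=
    g.support.biUnion fun m => (B.repr (coeff m g)).support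
  have hg : g = ∑ i ∈ s, C (B i) * extS K L (proj (B.coord i) g) := by
    ext m
    rw [coeff_sum]
    simp only [coeff_C_mul, coeff_extS, coeff_proj, Module.Basis.coord_apply]
    by_cases hm : m ∈ g.support
    · have hsub : (B.repr (coeff m g)).support ⊆ s :=
        Finset.subset_biUnion_of_mem (fun m => (B.repr (coeff m g)).support) hm
      have h1 : coeff m g = (B.repr (coeff m g)).sum fun i a => a • B i := by
        conv_lhs => rw [← B.linearCombination_repr (coeff m g)]
        rfl
      conv_lhs => rw [h1]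
      rw [Finsupp.sum_of_support_subset _ hsub _ (by simp)]
      refine Finset.sum_congr rfl fun i _ => ?_
      rw [Algebra.smul_def, mul_comm]
    · rw [MvPolynomial.notMem_support_iff.1 hm]
      simp
  rw [hg]
  refine Ideal.sum_mem _ fun i _ => ?_
  exact Ideal.mul_mem_left _ _ (Ideal.mem_map_of_mem _ (h _))

theorem extS_smul (c : K) (p : S K) : extS K L (c • p) = algebraMap K L c • extS K L p := by
  rw [smul_eq_C_mul, map_mul, map_C, smul_eq_C_mul]

/-- Independent polynomials stay independent. -/
theorem indep_extS {n : ℕ} {v : Fin n → S K} (hv : LinearIndependent K v) :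
    LinearIndependent L (fun i => extS K L (v i)) := by
  classical
  rw [Fintype.linearIndependent_iff]
  intro c hc i
  have hφ : ∀ φ : L →ₗ[K] K, φ (c i) = 0 := by
    intro φ
    have h1 : proj φ (∑ j, c j • extS K L (v j)) = ∑ j, φ (c j) • v j := by
      have : ∀ t : Finset (Fin n),
          proj φ (∑ j ∈ t, c j • extS K L (v j)) = ∑ j ∈ t, φ (c j) • v j := by
        intro t
        induction t using Finset.induction_on with
        | empty => simp [proj_zero]
        | insert a t ha ih =>
          rw [Finset.sum_insert ha, Finset.sum_insert ha, proj_add, ih, smul_eq_C_mul,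
            proj_C_mul_extS]
      exact this _
    rw [hc, proj_zero] at h1
    exact (Fintype.linearIndependent_iff.1 hv) (fun j => φ (c j)) h1.symm i
  let B := Module.Basis.ofVectorSpace K L
  apply B.repr.injective
  ext j
  rw [map_zero, Finsupp.zero_apply]
  exact hφ (B.coord j)

/-- The extension of a subspace. -/
noncomputable def E (L : Type*) [Field L] [Algebra K L] (V : Submodule K (S K)) :
    Submodule L (S L) := Submodule.span L (extS K L '' V)

theorem E_mono {V W : Submodule K (S K)} (h : V ≤ W) : E L V ≤ E L W :=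
  Submodule.span_mono (Set.image_mono h)

theorem finrank_E (V : Submodule K (S K)) [FiniteDimensional K V] :
    finrank L (E L V) = finrank K V := by
  classical
  let B := Module.finBasis K V
  let v : Fin (finrank K V) → S K := fun i => (B i : S K)
  have hv : LinearIndependent K v := by
    have := B.linearIndependent
    exact this.map' V.subtype (Submodule.ker_subtype V)
  have hspan : E L V = Submodule.span L (Set.range fun i => extS K L (v i)) := by
    apply le_antisymm
    · refine Submodule.span_le.2 ?_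
      rintro _ ⟨x, hx, rfl⟩
      have h1 : x = ∑ i, (B.repr ⟨x, hx⟩ i) • v i := by
        have h3 := congrArg Subtype.val (B.sum_repr ⟨x, hx⟩)
        rw [AddSubmonoidClass.coe_finsetSum] at h3
        exact h3.symm
      rw [h1, map_sum]
      refine Submodule.sum_mem _ fun i _ => ?_
      rw [extS_smul]
      exact Submodule.smul_mem _ _ (Submodule.subset_span ⟨i, rfl⟩)
    · refine Submodule.span_le.2 ?_
      rintro _ ⟨i, rfl⟩
      exact Submodule.subset_span ⟨v i, (B i).2, rfl⟩
  rw [hspan, finrank_span_eq_card (indep_extS hv), Fintype.card_fin]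

theorem extS_mem_H {d : ℕ} {p : S K} (hp : p ∈ H K d) : extS K L p ∈ H L d :=
  IsHomogeneous.map hp _

theorem E_le_H {d : ℕ} {V : Submodule K (S K)} (hV : V ≤ H K d) : E L V ≤ H L d := by
  refine Submodule.span_le.2 ?_
  rintro _ ⟨x, hx, rfl⟩
  exact extS_mem_H (hV hx)

variable {f1 f2 f3 : S K} {b : ℕ}

/-- Regular sequences stay regular. -/
theorem RegSeq.baseCh (h : RegSeq f1 f2 f3) : RegSeq (extS K L f1) (extS K L f2) (extS K L f3) := by
  have hinj : Function.Injective (extS K L) :=
    MvPolynomial.map_injective _ (algebraMap K L).injective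
  refine ⟨fun h0 => h.ne (hinj (by rw [h0, map_zero])), ?_, ?_⟩
  · intro g hg
    obtain ⟨y, hy⟩ := Ideal.mem_span_singleton'.1 hg
    have hm : g ∈ (Ideal.span {f1}).map (extS K L) := by
      refine mem_map_of_proj _ _ fun φ => ?_
      refine h.reg2 _ (Ideal.mem_span_singleton'.2 ⟨proj φ y, ?_⟩)
      have := congrArg (proj φ) hy
      rw [mul_comm y, proj_extS_mul, proj_extS_mul] at this
      rw [mul_comm, this]
    rwa [Ideal.map_span, Set.image_singleton] at hm
  · intro g hg
    obtain ⟨y1, y2, hy⟩ := Ideal.mem_span_pair.1 hg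
    have hm : g ∈ (Ideal.span {f1, f2}).map (extS K L) := by
      refine mem_map_of_proj _ _ fun φ => ?_
      refine h.reg3 _ (Ideal.mem_span_pair.2 ⟨proj φ y1, proj φ y2, ?_⟩)
      have := congrArg (proj φ) hy
      rw [mul_comm y1, mul_comm y2, proj_add, proj_extS_mul, proj_extS_mul, proj_extS_mul] at this
      rw [mul_comm (proj φ y1), mul_comm (proj φ y2), this]
    rwa [Ideal.map_span, Set.image_pair] at hm

theorem CIb.baseCh (h : CIb b f1 f2 f3) : CIb b (extS K L f1) (extS K L f2) (extS K L f3) :=
  ⟨RegSeq.baseCh h.reg, extS_mem_H h.h1, extS_mem_H h.h2, extS_mem_H h.h3, h.hb⟩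

/-- `F` over `L` is the extension of `F` over `K`. -/
theorem F_extS (h : CIb b f1 f2 f3) (d : ℕ) :
    F (extS K L f1) (extS K L f2) (extS K L f3) d = E L (F f1 f2 f3 d) := by
  symm
  have hfd : FiniteDimensional K (F f1 f2 f3 d) := fd_of_le inf_le_right
  have hfd2 : FiniteDimensional L (F (extS K L f1) (extS K L f2)
      (extS K L f3) d) := fd_of_le inf_le_right
  refine Submodule.eq_of_le_of_finrank_eq ?_ ?_
  · refine Submodule.span_le.2 ?_
    rintro _ ⟨x, ⟨hx, hxH⟩, rfl⟩
    refine ⟨?_, extS_mem_H hxH⟩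
    obtain ⟨a, c, e, rfl⟩ := mem_Fid.1 hx
    exact mem_Fid.2 ⟨extS K L a, extS K L c,
      extS K L e, by simp only [map_add, map_mul]⟩
  · rw [finrank_E, h.finrank_F_fdim, (CIb.baseCh h).finrank_F_fdim]

theorem M_E_le (V : Submodule K (S K)) : M (E L V) ≤ E L (M V) := by
  refine iSup_le fun j => ?_
  rintro _ ⟨_, hv, rfl⟩
  simp only [LinearMap.mulLeft_apply]
  induction hv using Submodule.span_induction with
  | mem x hx =>
    obtain ⟨v, hv, rfl⟩ := hx
    refine Submodule.subset_span ⟨X j * v, mem_M_X hv j, ?_⟩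
    simp only [map_mul, map_X]
  | zero => simp
  | add x y _ _ hx hy =>
    rw [mul_add]
    exact add_mem hx hy
  | smul a x _ hx =>
    rw [mul_smul_comm]
    exact Submodule.smul_mem _ _ hx

/-- **The growth bound over any field.** -/
theorem CIb.growth (h : CIb b f1 f2 f3) (hb4 : 4 ≤ b) {d : ℕ} {V : Submodule K (S K)}
    (hFV : F f1 f2 f3 d ≤ V) (hV : V ≤ H K d) :
    G b d (finrank K V - fdim b d) + fdim b (d + 1) ≤ finrank K ↥(M V ⊔ F f1 f2 f3 (d + 1)) := by
  let L := AlgebraicClosure K
  have hL := CIb.baseCh (L := L) h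
  obtain ⟨r, hr⟩ : ∃ r, eval r (extS K L f1) ≠ 0 := by
    by_contra hc
    push Not at hc
    exact hL.reg.ne (MvPolynomial.funext (fun x => by rw [hc x, map_zero]))
  have hfdV : FiniteDimensional K V := fd_of_le hV
  have hT : M V ⊔ F f1 f2 f3 (d + 1) ≤ H K (d + 1) := sup_le (M_le_H hV) (F_le_H' _ _ _ _)
  have hfdT : FiniteDimensional K ↥(M V ⊔ F f1 f2 f3 (d + 1)) := fd_of_le hT
  have h1 := hL.growth_of_point hb4 hr (V := E L V) (d := d)
    (by rw [F_extS h]; exact E_mono hFV) (E_le_H hV)
  rw [finrank_E] at h1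
  have hle : M (E L V) ⊔ F (extS K L f1) (extS K L f2)
      (extS K L f3) (d + 1) ≤ E L (M V ⊔ F f1 f2 f3 (d + 1)) := by
    refine sup_le ((M_E_le V).trans (E_mono le_sup_left)) ?_
    rw [F_extS h]
    exact E_mono le_sup_right
  have hfd3 : FiniteDimensional L ↥(E L (M V ⊔ F f1 f2 f3 (d + 1))) := by
    exact fd_of_le (E_le_H hT)
  have h2 := Submodule.finrank_mono hle
  rw [finrank_E] at h2
  omega

/-- **EGH for `(3, b, b)`, `b ≥ 4`.** -/
theorem egh (hb4 : 4 ≤ b) (I : Ideal (S K)) (h : CIb b f1 f2 f3)
    (h1 : f1 ∈ I) (h2 : f2 ∈ I) (h3 : f3 ∈ I) :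
    (∀ g p : S K, p ∈ lexPlusPowers b I → g * p ∈ lexPlusPowers b I) ∧
      (∀ d, finrank K (Jd b I d) = gdim I d) :=
  ⟨fun g p hp => J_mul_of_step I
      (qd_bounds I h h1 h2 h3 (fun hF hV => h.growth hb4 hF hV)) g hp,
    finrank_Jd I h h1 h2 h3⟩

end Vale.Agent.P200b
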