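import Vale.Agent.Lib.P200.Defs

/-!
# P200 family: the complete intersection of type `(3, b, b)`

The Hilbert function of `S/(f1, f2, f3)`, the socle lemma.
-/

open MvPolynomial Module
open Vale.Agent.P200

namespace Vale.Agent.P200b

variable {K : Type*} [Field K]

/-- A regular sequence of forms of degrees `3, b, b`. -/
structure CIb (b : ℕ) (f1 f2 f3 : S K) : Prop where
  reg : RegSeq f1 f2 f3
  h1 : f1 ∈ H K 3
  h2 : f2 ∈ H K b
  h3 : f3 ∈ H K b
  hb : 3 ≤ b

/-- forms of degree `n - a`, or zero if `n < a`. -/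
noncomputable def Hz (K : Type*) [Field K] (n a : ℕ) : Submodule K (S K) :=
  if a ≤ n then H K (n - a) else ⊥

/-- the component of degree `n - a`, or zero if `n < a`. -/
noncomputable def cmp (n a : ℕ) (x : S K) : S K :=
  if a ≤ n then homogeneousComponent (n - a) x else 0

theorem Hz_of_le {n a : ℕ} (h : a ≤ n) : Hz K n a = H K (n - a) := by
  unfold Hz
  rw [if_pos h]

theorem Hz_of_lt {n a : ℕ} (h : n < a) : Hz K n a = ⊥ := by
  unfold Hz
  rw [if_neg (by omega)]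

theorem cmp_mem (n a : ℕ) (x : S K) : cmp n a x ∈ Hz K n a := by
  unfold cmp
  by_cases h : a ≤ n
  · rw [if_pos h, Hz_of_le h]
    exact hc_mem _ _
  · rw [if_neg h]
    exact zero_mem _

theorem cmp_of_mem {n a : ℕ} {x : S K} (hx : x ∈ Hz K n a) : cmp n a x = x := by
  unfold cmp
  by_cases h : a ≤ n
  · rw [Hz_of_le h] at hx
    rw [if_pos h]
    exact hc_of_mem hx
  · rw [Hz_of_lt (by omega)] at hx
    rw [if_neg h]
    exact ((Submodule.mem_bot K).1 hx).symm

theorem cmp_zero {n a : ℕ} (hn : n < a) (x : S K) : cmp n a x = 0 := by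
  unfold cmp
  rw [if_neg (by omega)]

theorem cmp_mul {e : ℕ} {f : S K} (hf : f ∈ H K e) (n a : ℕ) (x : S K) :
    cmp n a (f * x) = f * cmp n (a + e) x := by
  unfold cmp
  by_cases h1 : a + e ≤ n
  · rw [if_pos h1, if_pos (by omega)]
    have := hc_mul hf x (n - (a + e))
    rw [show n - (a + e) + e = n - a by omega] at this
    exact this
  · rw [if_neg h1, mul_zero]
    by_cases h2 : a ≤ n
    · rw [if_pos h2]
      exact hc_mul_lt hf x (by omega)
    · rw [if_neg h2]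

theorem cmp_add (n a : ℕ) (x y : S K) : cmp n a (x + y) = cmp n a x + cmp n a y := by
  unfold cmp
  split_ifs
  · rw [map_add]
  · simp

theorem cmp_sub (n a : ℕ) (x y : S K) : cmp n a (x - y) = cmp n a x - cmp n a y := by
  unfold cmp
  split_ifs
  · rw [map_sub]
  · simp

theorem cmp_neg (n a : ℕ) (x : S K) : cmp n a (-x) = -cmp n a x := by
  unfold cmp
  split_ifs
  · rw [map_neg]
  · simp

theorem Hz_mul {e n a : ℕ} {f x : S K} (hf : f ∈ H K e) (hx : x ∈ Hz K n (a + e)) :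
    f * x ∈ Hz K n a := by
  by_cases h1 : a + e ≤ n
  · rw [Hz_of_le h1] at hx
    rw [Hz_of_le (by omega : a ≤ n)]
    exact mul_mem_H hf hx (by omega)
  · rw [Hz_of_lt (by omega)] at hx
    rw [(Submodule.mem_bot K).1 hx, mul_zero]
    exact zero_mem _

theorem Hz_X {n a : ℕ} {x : S K} (j : Fin 3) (hx : x ∈ Hz K n a) : X j * x ∈ Hz K (n + 1) a := by
  by_cases h1 : a ≤ n
  · rw [Hz_of_le h1] at hx
    rw [Hz_of_le (by omega : a ≤ n + 1)]
    exact mul_mem_H (X_mem_H1 j) hx (by omega)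
  · rw [Hz_of_lt (by omega)] at hx
    rw [(Submodule.mem_bot K).1 hx, mul_zero]
    exact zero_mem _

theorem Hz_zero {n : ℕ} : Hz K n 0 = H K n := by
  unfold Hz
  simp

instance instFiniteHz (n a : ℕ) : FiniteDimensional K (Hz K n a) := by
  by_cases h : a ≤ n
  · rw [Hz_of_le h]
    infer_instance
  · rw [Hz_of_lt (by omega)]
    infer_instance

/-- dimension of `Hz`. -/
def hzd (n a : ℕ) : ℕ := if a ≤ n then (n - a + 2).choose 2 else 0

theorem finrank_Hz (K : Type*) [Field K] (n a : ℕ) : finrank K (Hz K n a) = hzd n a := by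
  unfold hzd
  by_cases h : a ≤ n
  · rw [Hz_of_le h, if_pos h]
    exact finrank_H _
  · rw [Hz_of_lt (by omega), if_neg h]
    simp

section

variable {f1 f2 f3 : S K} {b : ℕ}

/-- Homogeneous elements of the ideal have homogeneous coefficients. -/
theorem CIb.Fid_repr (h : CIb b f1 f2 f3) {n : ℕ} {p : S K} (hp : p ∈ Fid f1 f2 f3)
    (hph : p ∈ H K n) :
    ∃ u v t : S K, u ∈ Hz K n 3 ∧ v ∈ Hz K n b ∧ t ∈ Hz K n b ∧ p = f1 * u + f2 * v + f3 * t := by
  obtain ⟨u, v, t, rfl⟩ := mem_Fid.1 hp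
  refine ⟨_, _, _, cmp_mem n 3 u, cmp_mem n b v, cmp_mem n b t, ?_⟩
  have e : cmp n 0 (f1 * u + f2 * v + f3 * t) = f1 * u + f2 * v + f3 * t :=
    cmp_of_mem (by rw [Hz_zero]; exact hph)
  rw [← e, cmp_add, cmp_add, cmp_mul h.h1, cmp_mul h.h2, cmp_mul h.h3, zero_add, zero_add]

/-- Homogeneous version of the Koszul lemma. -/
theorem CIb.koszul_z (h : CIb b f1 f2 f3) {n : ℕ} {g1 g2 g3 : S K} (hg1 : g1 ∈ Hz K n 3)
    (hg2 : g2 ∈ Hz K n b) (hg3 : g3 ∈ Hz K n b) (e : f1 * g1 + f2 * g2 + f3 * g3 = 0) :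
    ∃ a b' c : S K, a ∈ Hz K n (b + 3) ∧ b' ∈ Hz K n (b + b) ∧ c ∈ Hz K n (b + 3) ∧
      g1 = -(f2 * c) - f3 * a ∧ g2 = f1 * c - f3 * b' ∧ g3 = f1 * a + f2 * b' := by
  obtain ⟨a, b', c, e1, e2, e3⟩ := koszul h.reg e
  refine ⟨_, _, _, cmp_mem n (b + 3) a, cmp_mem n (b + b) b', cmp_mem n (b + 3) c, ?_, ?_, ?_⟩
  · rw [← cmp_of_mem hg1, e1, cmp_sub, cmp_neg, cmp_mul h.h2, cmp_mul h.h3, add_comm 3 b]
  · rw [← cmp_of_mem hg2, e2, cmp_sub, cmp_mul h.h1, cmp_mul h.h3]
  · rw [← cmp_of_mem hg3, e3, cmp_add, cmp_mul h.h1, cmp_mul h.h2]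

/-- The second syzygy: in degree below `2b + 3` the Koszul map is injective. -/
theorem CIb.koszul_inj (h : CIb b f1 f2 f3) {n : ℕ} (hn : n < 2 * b + 3) {a b' c : S K}
    (ha : a ∈ Hz K n (b + 3))
    (_e1 : -(f2 * c) - f3 * a = 0) (e2 : f1 * c - f3 * b' = 0) (e3 : f1 * a + f2 * b' = 0) :
    a = 0 ∧ b' = 0 ∧ c = 0 := by
  have hb : b' ∈ Ideal.span {f1} := by
    refine h.reg.reg2 b' (Ideal.mem_span_singleton'.2 ⟨-a, ?_⟩)
    linear_combination -e3
  obtain ⟨d, hd⟩ := Ideal.mem_span_singleton'.1 hb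
  have ha2 : a = -(f2 * d) := by
    apply mul_left_cancel₀ h.reg.ne
    rw [← hd] at e3
    linear_combination e3
  have had : a = 0 := by
    rw [← cmp_of_mem ha, ha2, cmp_neg, cmp_mul h.h2, cmp_zero (by omega)]
    simp
  have hd0 : d = 0 := by
    have h2ne := h.reg.f2_ne h.h1
    have : f2 * d = 0 := by
      rw [had] at ha2
      linear_combination ha2
    exact (mul_eq_zero.1 this).resolve_left h2ne
  have hb0 : b' = 0 := by rw [← hd, hd0, zero_mul]
  have hc0 : c = 0 := by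
    apply mul_left_cancel₀ h.reg.ne
    rw [hb0] at e2
    linear_combination e2
  exact ⟨had, hb0, hc0⟩

/-- **Socle lemma**: `S/(f_1,f_2,f_3)` has no socle below degree `2b`. -/
theorem CIb.socle (h : CIb b f1 f2 f3) {d : ℕ} (hd : d < 2 * b) {p : S K} (hp : p ∈ H K d)
    (hx : ∀ j : Fin 3, X j * p ∈ Fid f1 f2 f3) : p ∈ Fid f1 f2 f3 := by
  have hdeg : ∀ j : Fin 3, X j * p ∈ H K (d + 1) := fun j =>
    mul_mem_H (X_mem_H1 j) hp (by omega)
  obtain ⟨u1, u2, u3, hu1, hu2, hu3, hu⟩ := h.Fid_repr (hx 0) (hdeg 0)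
  obtain ⟨v1, v2, v3, hv1, hv2, hv3, hv⟩ := h.Fid_repr (hx 1) (hdeg 1)
  obtain ⟨w1, w2, w3, hw1, hw2, hw3, hw⟩ := h.Fid_repr (hx 2) (hdeg 2)
  have hlin : ∀ {e : ℕ} {a c : S K}, a ∈ Hz K (d + 1) e → c ∈ Hz K (d + 1) e → ∀ i j : Fin 3,
      X i * a - X j * c ∈ Hz K (d + 2) e := by
    intro e a c ha hc i j
    exact sub_mem (Hz_X i ha) (Hz_X j hc)
  -- first layer of syzygies
  obtain ⟨a1, b1, c1, ha1, hb1, hc1, e11, e12, e13⟩ := h.koszul_z
    (hlin hu1 hv1 1 0) (hlin hu2 hv2 1 0) (hlin hu3 hv3 1 0)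
    (by linear_combination (X 1 : S K) * hu.symm - (X 0 : S K) * hv.symm)
  obtain ⟨a2, b2, c2, ha2, hb2, hc2, e21, e22, e23⟩ := h.koszul_z
    (hlin hu1 hw1 2 0) (hlin hu2 hw2 2 0) (hlin hu3 hw3 2 0)
    (by linear_combination (X 2 : S K) * hu.symm - (X 0 : S K) * hw.symm)
  obtain ⟨a3, b3, c3, ha3, hb3, hc3, e31, e32, e33⟩ := h.koszul_z
    (hlin hv1 hw1 2 1) (hlin hv2 hw2 2 1) (hlin hv3 hw3 2 1)
    (by linear_combination (X 2 : S K) * hv.symm - (X 1 : S K) * hw.symm)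
  -- the combination `X2 A - X1 B + X0 C` is killed by the Koszul map, hence vanishes
  have hcomb : (X 2 : S K) * a1 - (X 1 : S K) * a2 + (X 0 : S K) * a3 ∈ Hz K (d + 3) (b + 3) :=
    add_mem (sub_mem (Hz_X 2 ha1) (Hz_X 1 ha2)) (Hz_X 0 ha3)
  obtain ⟨za, zb, zc⟩ := h.koszul_inj (n := d + 3) (by omega) hcomb
    (a := (X 2 : S K) * a1 - (X 1 : S K) * a2 + (X 0 : S K) * a3)
    (b' := (X 2 : S K) * b1 - (X 1 : S K) * b2 + (X 0 : S K) * b3)
    (c := (X 2 : S K) * c1 - (X 1 : S K) * c2 + (X 0 : S K) * c3)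
    (by linear_combination (X 2 : S K) * (-e11) + (X 1 : S K) * e21 - (X 0 : S K) * e31)
    (by linear_combination (X 2 : S K) * (-e12) + (X 1 : S K) * e22 - (X 0 : S K) * e32)
    (by linear_combination (X 2 : S K) * (-e13) + (X 1 : S K) * e23 - (X 0 : S K) * e33)
  -- Koszul for `X0, X1, X2`
  obtain ⟨pa, qa, ra, ea1, ea2, ea3⟩ := koszul (regSeq_X (K := K))
    (g1 := a3) (g2 := -a2) (g3 := a1) (by linear_combination za)
  obtain ⟨pb, qb, rb, eb1, eb2, eb3⟩ := koszul (regSeq_X (K := K))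
    (g1 := b3) (g2 := -b2) (g3 := b1) (by linear_combination zb)
  obtain ⟨pc, qc, rc, ec1, ec2, ec3⟩ := koszul (regSeq_X (K := K))
    (g1 := c3) (g2 := -c2) (g3 := c1) (by linear_combination zc)
  -- corrected coefficients
  set U1 := u1 - (-(f2 * qc) - f3 * qa) with hU1
  set U2 := u2 - (f1 * qc - f3 * qb) with hU2
  set U3 := u3 - (f1 * qa + f2 * qb) with hU3
  set V1 := v1 + (-(f2 * pc) - f3 * pa) with hV1
  set V2 := v2 + (f1 * pc - f3 * pb) with hV2
  set V3 := v3 + (f1 * pa + f2 * pb) with hV3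
  set W1 := w1 - (-(f2 * rc) - f3 * ra) with hW1
  set W2 := w2 - (f1 * rc - f3 * rb) with hW2
  set W3 := w3 - (f1 * ra + f2 * rb) with hW3
  have r11 : (X 1 : S K) * U1 = (X 0 : S K) * V1 := by
    simp only [hU1, hV1]; linear_combination e11 - f2 * ec3 - f3 * ea3
  have r12 : (X 1 : S K) * U2 = (X 0 : S K) * V2 := by
    simp only [hU2, hV2]; linear_combination e12 + f1 * ec3 - f3 * eb3
  have r13 : (X 1 : S K) * U3 = (X 0 : S K) * V3 := by
    simp only [hU3, hV3]; linear_combination e13 + f1 * ea3 + f2 * eb3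
  have r21 : (X 2 : S K) * U1 = (X 0 : S K) * W1 := by
    simp only [hU1, hW1]; linear_combination e21 + f2 * ec2 + f3 * ea2
  have r22 : (X 2 : S K) * U2 = (X 0 : S K) * W2 := by
    simp only [hU2, hW2]; linear_combination e22 - f1 * ec2 + f3 * eb2
  have r23 : (X 2 : S K) * U3 = (X 0 : S K) * W3 := by
    simp only [hU3, hW3]; linear_combination e23 - f1 * ea2 - f2 * eb2
  obtain ⟨t1, ht1, -, -⟩ := lin_triple r11 r21
  obtain ⟨t2, ht2, -, -⟩ := lin_triple r12 r22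
  obtain ⟨t3, ht3, -, -⟩ := lin_triple r13 r23
  refine mem_Fid.2 ⟨t1, t2, t3, ?_⟩
  apply mul_left_cancel₀ (X_ne_zero (0 : Fin 3) : (X 0 : S K) ≠ 0)
  have hUsum : f1 * U1 + f2 * U2 + f3 * U3 = f1 * u1 + f2 * u2 + f3 * u3 := by
    simp only [hU1, hU2, hU3]; ring
  rw [ht1, ht2, ht3] at hUsum
  linear_combination hu - hUsum

/-! ### dimensions -/

/-- The map `(a,b,c) ↦ f1 a + f2 b + f3 c` on graded pieces. -/
noncomputable def Phi (f1 f2 f3 : S K) (b n : ℕ) : (Hz K n 3 × Hz K n b × Hz K n b) →ₗ[K] S K :=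
  ((LinearMap.mulLeft K f1).comp (Hz K n 3).subtype).coprod
    (((LinearMap.mulLeft K f2).comp (Hz K n b).subtype).coprod
      ((LinearMap.mulLeft K f3).comp (Hz K n b).subtype))

theorem Phi_apply (f1 f2 f3 : S K) (b n : ℕ) (x : Hz K n 3) (y z : Hz K n b) :
    Phi f1 f2 f3 b n (x, y, z) = f1 * x + f2 * y + f3 * z := by
  simp [Phi, add_assoc]

theorem CIb.range_Phi (h : CIb b f1 f2 f3) (n : ℕ) :
    LinearMap.range (Phi f1 f2 f3 b n) = F f1 f2 f3 n := by
  ext p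
  constructor
  · rintro ⟨⟨x, y, z⟩, rfl⟩
    rw [Phi_apply]
    refine ⟨mem_Fid.2 ⟨_, _, _, rfl⟩, ?_⟩
    have key : ∀ {e : ℕ} {f t : S K}, f ∈ H K e → t ∈ Hz K n e → f * t ∈ H K n := by
      intro e f t hf ht
      have : f * t ∈ Hz K n 0 := Hz_mul hf (by rwa [zero_add])
      rwa [Hz_zero] at this
    exact add_mem (add_mem (key h.h1 x.2) (key h.h2 y.2)) (key h.h3 z.2)
  · rintro ⟨hp, hph⟩
    obtain ⟨u, v, t, hu, hv, ht, rfl⟩ := h.Fid_repr hp hph
    exact ⟨(⟨u, hu⟩, ⟨v, hv⟩, ⟨t, ht⟩), Phi_apply _ _ _ _ _ _ _ _⟩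

/-- The kernel of `Phi` in degree below `2b + 3` is a sum of graded pieces. -/
theorem CIb.finrank_F (h : CIb b f1 f2 f3) {n : ℕ} (hn : n < 2 * b + 3) :
    finrank K (F f1 f2 f3 n) + (hzd n (b + 3) + (hzd n (b + b) + hzd n (b + 3))) =
      hzd n 3 + (hzd n b + hzd n b) := by
  have h1 := LinearMap.finrank_range_add_finrank_ker (Phi f1 f2 f3 b n)
  rw [h.range_Phi, Module.finrank_prod, Module.finrank_prod, finrank_Hz, finrank_Hz] at h1
  rw [← h1]
  congr 1
  -- the Koszul map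
  let Θ : (Hz K n (b + 3) × Hz K n (b + b) × Hz K n (b + 3)) →ₗ[K]
      (Hz K n 3 × Hz K n b × Hz K n b) :=
    let m : ∀ (p : S K) (e e' : ℕ), p ∈ H K e → Hz K n (e' + e) →ₗ[K] Hz K n e' := fun p e e' hp =>
      LinearMap.codRestrict (Hz K n e')
        ((LinearMap.mulLeft K p).comp (Hz K n (e' + e)).subtype) (fun a => Hz_mul hp a.2)
    let hc3 : b + 3 = 3 + b := add_comm _ _
    let π1 : (Hz K n (b + 3) × Hz K n (b + b) × Hz K n (b + 3)) →ₗ[K] Hz K n (b + 3) :=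
      LinearMap.fst K _ _
    let π2 : (Hz K n (b + 3) × Hz K n (b + b) × Hz K n (b + 3)) →ₗ[K] Hz K n (b + b) :=
      (LinearMap.fst K _ _).comp (LinearMap.snd K _ _)
    let π3 : (Hz K n (b + 3) × Hz K n (b + b) × Hz K n (b + 3)) →ₗ[K] Hz K n (b + 3) :=
      (LinearMap.snd K _ _).comp (LinearMap.snd K _ _)
    let m2 : Hz K n (b + 3) →ₗ[K] Hz K n 3 := LinearMap.codRestrict (Hz K n 3)
      ((LinearMap.mulLeft K f2).comp (Hz K n (b + 3)).subtype)
      (fun a => Hz_mul h.h2 (by rw [add_comm 3 b]; exact a.2))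
    let m3 : Hz K n (b + 3) →ₗ[K] Hz K n 3 := LinearMap.codRestrict (Hz K n 3)
      ((LinearMap.mulLeft K f3).comp (Hz K n (b + 3)).subtype)
      (fun a => Hz_mul h.h3 (by rw [add_comm 3 b]; exact a.2))
    -- `(a, b', c) ↦ (-f2 c - f3 a, f1 c - f3 b', f1 a + f2 b')`
    LinearMap.prod (-(m2.comp π3) - m3.comp π1)
      (LinearMap.prod ((m f1 3 b h.h1).comp π3 - (m f3 b b h.h3).comp π2)
        ((m f1 3 b h.h1).comp π1 + (m f2 b b h.h2).comp π2))
  have hΘ : ∀ (a : Hz K n (b + 3)) (b' : Hz K n (b + b)) (c : Hz K n (b + 3)),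
      ((Θ (a, b', c)).1 : S K) = -(f2 * c) - f3 * a ∧
      ((Θ (a, b', c)).2.1 : S K) = f1 * c - f3 * b' ∧
      ((Θ (a, b', c)).2.2 : S K) = f1 * a + f2 * b' := by
    intro a b' c
    refine ⟨?_, ?_, ?_⟩ <;> simp [Θ, LinearMap.codRestrict]
  have hinj : Function.Injective Θ := by
    rw [injective_iff_map_eq_zero]
    rintro ⟨a, b', c⟩ hz
    obtain ⟨e1, e2, e3⟩ := hΘ a b' c
    rw [hz] at e1 e2 e3
    simp only [Prod.fst_zero, Prod.snd_zero, ZeroMemClass.coe_zero] at e1 e2 e3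
    obtain ⟨ha, hb', hc⟩ := h.koszul_inj hn a.2 e1.symm e2.symm e3.symm
    exact Prod.ext (Subtype.ext ha) (Prod.ext (Subtype.ext hb') (Subtype.ext hc))
  have hker : LinearMap.ker (Phi f1 f2 f3 b n) = LinearMap.range Θ := by
    ext ⟨x, y, z⟩
    rw [LinearMap.mem_ker, Phi_apply]
    constructor
    · intro hz
      obtain ⟨a, b', c, ha, hb', hc, e1, e2, e3⟩ := h.koszul_z x.2 y.2 z.2 hz
      refine ⟨(⟨a, ha⟩, ⟨b', hb'⟩, ⟨c, hc⟩), ?_⟩
      obtain ⟨k1, k2, k3⟩ := hΘ ⟨a, ha⟩ ⟨b', hb'⟩ ⟨c, hc⟩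
      ext1
      · apply Subtype.ext
        rw [k1]; exact e1.symm
      · ext1
        · apply Subtype.ext
          rw [k2]; exact e2.symm
        · apply Subtype.ext
          rw [k3]; exact e3.symm
    · rintro ⟨⟨a, b', c⟩, hk⟩
      obtain ⟨k1, k2, k3⟩ := hΘ a b' c
      rw [hk] at k1 k2 k3
      simp only at k1 k2 k3
      rw [k1, k2, k3]
      ring
  rw [hker, LinearMap.finrank_range_of_inj hinj, Module.finrank_prod, Module.finrank_prod,
    finrank_Hz, finrank_Hz]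

end

/-! ### the numerical Hilbert function -/

/-- The Hilbert function of `K[y, z]/(y^b, z^b)`. -/
def T (b m : ℕ) : ℕ := if m < b then m + 1 else 2 * b - 1 - m

/-- The same, shifted by `i`. -/
def Tz (b d i : ℕ) : ℕ := if d < i then 0 else T b (d - i)

/-- The Hilbert function of `S/(f1, f2, f3)`. -/
def hilb (b d : ℕ) : ℕ := Tz b d 0 + Tz b d 1 + Tz b d 2

theorem tri_add3 (m : ℕ) : (m + 3 + 2).choose 2 = (m + 2).choose 2 + 3 * m + 9 := by
  have e1 : (m + 5).choose 2 = (m + 4).choose 1 + (m + 4).choose 2 := Nat.choose_succ_succ _ _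
  have e2 : (m + 4).choose 2 = (m + 3).choose 1 + (m + 3).choose 2 := Nat.choose_succ_succ _ _
  have e3 : (m + 3).choose 2 = (m + 2).choose 1 + (m + 2).choose 2 := Nat.choose_succ_succ _ _
  simp only [Nat.choose_one_right] at e1 e2 e3
  show (m + 5).choose 2 = _
  omega

theorem hzd_lt {n a : ℕ} (h : n < a) : hzd n a = 0 := if_neg (by omega)

theorem hzd_le {n a : ℕ} (h : a ≤ n) : hzd n a = (n - a + 2).choose 2 := if_pos h

/-- The numerical identity for the Hilbert function. -/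
theorem hilb_identity {b n : ℕ} (hb : 3 ≤ b) (hn : n < 2 * b + 2) :
    hzd n 3 + (hzd n b + hzd n b) + hilb b n =
      (n + 2).choose 2 + (hzd n (b + 3) + (hzd n (b + b) + hzd n (b + 3))) := by
  have hT : hilb b n = Tz b n 0 + Tz b n 1 + Tz b n 2 := rfl
  by_cases h3 : n < 3
  · rw [hzd_lt h3, hzd_lt (by omega : n < b), hzd_lt (by omega : n < b + 3),
      hzd_lt (by omega : n < b + b)]
    have hv : hilb b n = (n + 2).choose 2 := by
      rw [hT]
      simp only [Tz, T]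
      clear hT
      interval_cases n <;> simp [Nat.choose] <;> (try intros) <;> first | omega | (split_ifs <;> omega)
    omega
  have e3 : (n + 2).choose 2 = (n - 3 + 2).choose 2 + 3 * (n - 3) + 9 := by
    have := tri_add3 (n - 3)
    rwa [show n - 3 + 3 = n by omega] at this
  rw [hzd_le (by omega : 3 ≤ n)]
  by_cases h4 : n < b
  · rw [hzd_lt h4, hzd_lt (by omega : n < b + 3), hzd_lt (by omega : n < b + b)]
    have hv : hilb b n = 3 * (n - 3) + 9 := by
      rw [hT]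
      simp only [Tz, T]
      split_ifs <;> omega
    omega
  rw [hzd_le (by omega : b ≤ n)]
  by_cases h5 : n < b + 3
  · rw [hzd_lt h5, hzd_lt (by omega : n < b + b)]
    have hk : n - b < 3 := by omega
    have hv : hilb b n + 2 * (n - b + 2).choose 2 = 3 * (n - 3) + 9 := by
      rw [hT]
      simp only [Tz, T]
      have e : (n - b + 2).choose 2 = (n - b) * 2 + 1 + (if n - b = 2 then 1 else 0) := by
        generalize n - b = k at hk
        interval_cases k <;> rfl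
      rw [e]
      split_ifs <;> omega
    omega
  have e4 : (n - b + 2).choose 2 = (n - (b + 3) + 2).choose 2 + 3 * (n - (b + 3)) + 9 := by
    have := tri_add3 (n - (b + 3))
    rwa [show n - (b + 3) + 3 = n - b by omega] at this
  rw [hzd_le (by omega : b + 3 ≤ n)]
  by_cases h6 : n < b + b
  · rw [hzd_lt h6]
    have hv : hilb b n + 2 * (3 * (n - (b + 3)) + 9) = 3 * (n - 3) + 9 := by
      rw [hT]
      simp only [Tz, T]
      split_ifs <;> omega
    omega
  · rw [hzd_le (by omega : b + b ≤ n)]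
    have hk : n - (b + b) < 2 := by omega
    have hv : hilb b n + 2 * (3 * (n - (b + 3)) + 9) = 3 * (n - 3) + 9 + (n - (b + b) + 2).choose 2 := by
      rw [hT]
      simp only [Tz, T]
      have e : (n - (b + b) + 2).choose 2 = (n - (b + b)) * 2 + 1 := by
        generalize n - (b + b) = k at hk
        interval_cases k <;> rfl
      rw [e]
      split_ifs <;> omega
    omega

section

variable {f1 f2 f3 : S K} {b : ℕ}

/-- **The Hilbert function**: `dim F_n + hilb b n = dim H_n`. -/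
theorem CIb.finrank_F_eq (h : CIb b f1 f2 f3) {n : ℕ} (hn : n < 2 * b + 2) :
    finrank K (F f1 f2 f3 n) + hilb b n = (n + 2).choose 2 := by
  have h1 := h.finrank_F (n := n) (by omega)
  have h2 := hilb_identity h.hb hn
  omega

theorem F_le_H' (f1 f2 f3 : S K) (d : ℕ) : F f1 f2 f3 d ≤ H K d := inf_le_right

instance instFiniteF' (f1 f2 f3 : S K) (d : ℕ) : FiniteDimensional K (F f1 f2 f3 d) :=
  fd_of_le (F_le_H' f1 f2 f3 d)

theorem hilb_top {b : ℕ} (hb : 3 ≤ b) : hilb b (2 * b + 1) = 0 := by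
  simp only [hilb, Tz, T]
  split_ifs <;> omega

/-- In degree at least `2b + 1` every form lies in `(f1, f2, f3)`. -/
theorem CIb.H_mem_high (h : CIb b f1 f2 f3) {d : ℕ} (hd : 2 * b + 1 ≤ d) {p : S K}
    (hp : p ∈ H K d) : p ∈ Fid f1 f2 f3 := by
  induction d, hd using Nat.le_induction generalizing p with
  | base =>
    have h1 := h.finrank_F_eq (n := 2 * b + 1) (by omega)
    rw [hilb_top h.hb, add_zero, ← finrank_H (K := K)] at h1
    have : F f1 f2 f3 (2 * b + 1) = H K (2 * b + 1) :=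
      Submodule.eq_of_le_of_finrank_eq (F_le_H' _ _ _ _) h1
    rw [← this] at hp
    exact hp.1
  | succ d _ ih =>
    have hle : H K d ≤ (Fid f1 f2 f3).restrictScalars K := fun q hq => ih hq
    have := M_le_ideal hle
    rw [M_H] at this
    exact this hp

/-- The hilbert function vanishes above the socle degree. -/
theorem hilb_high {b d : ℕ} (hd : 2 * b + 1 ≤ d) (hb : 3 ≤ b) : hilb b d = 0 := by
  simp only [hilb, Tz, T]
  split_ifs <;> omega

/-- The Hilbert function in all degrees. -/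
theorem CIb.finrank_F_all (h : CIb b f1 f2 f3) (n : ℕ) :
    finrank K (F f1 f2 f3 n) + hilb b n = (n + 2).choose 2 := by
  by_cases hn : n < 2 * b + 2
  · exact h.finrank_F_eq hn
  · rw [hilb_high (by omega) h.hb, add_zero, ← finrank_H (K := K)]
    have : F f1 f2 f3 n = H K n :=
      le_antisymm (F_le_H' _ _ _ _) fun p hp => ⟨h.H_mem_high (by omega) hp, hp⟩
    rw [this]

end

end Vale.Agent.P200b
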