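import Vale.Agent.Lib.P200b.Numeric

/-!
# P200 family: Gorenstein duality for `S/(f1, f2, f3)`
-/

open MvPolynomial Module
open Vale.Agent.P200

namespace Vale.Agent.P200b

variable {K : Type*} [Field K] {f1 f2 f3 : S K} {b : ℕ}

/-- A socle functional: zero exactly on `F s` in degree `s`. -/
structure IsTau (f1 f2 f3 : S K) (s : ℕ) (τ : S K →ₗ[K] K) : Prop where
  zero : ∀ p ∈ F f1 f2 f3 s, τ p = 0
  ne : ∀ p ∈ H K s, p ∉ F f1 f2 f3 s → τ p ≠ 0

theorem CIb.exists_tau (h : CIb b f1 f2 f3) : ∃ τ : S K →ₗ[K] K, IsTau f1 f2 f3 (2 * b) τ := by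
  have hr := h.finrank_F_all (2 * b)
  rw [hilb_2b h.hb, ← finrank_H (K := K)] at hr
  have hlt : F f1 f2 f3 (2 * b) < H K (2 * b) := by
    refine lt_of_le_of_ne (F_le_H' _ _ _ _) ?_
    intro e
    rw [e] at hr
    omega
  obtain ⟨v, hv, hvn⟩ := SetLike.exists_of_lt hlt
  obtain ⟨τ, hτv, hτ⟩ := Submodule.exists_dual_map_eq_bot_of_notMem hvn inferInstance
  have hz : ∀ p ∈ F f1 f2 f3 (2 * b), τ p = 0 := by
    intro p hp
    have : τ p ∈ Submodule.map τ (F f1 f2 f3 (2 * b)) := Submodule.mem_map_of_mem hp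
    rw [hτ] at this
    simpa using this
  refine ⟨τ, hz, ?_⟩
  intro a ha han
  have hle : F f1 f2 f3 (2 * b) ⊔ Submodule.span K {a} ≤ H K (2 * b) :=
    sup_le (F_le_H' _ _ _ _) ((Submodule.span_singleton_le_iff_mem _ _).2 ha)
  have hlt2 : F f1 f2 f3 (2 * b) < F f1 f2 f3 (2 * b) ⊔ Submodule.span K {a} := by
    refine lt_of_le_of_ne le_sup_left ?_
    intro e
    apply han
    rw [e]
    exact Submodule.mem_sup_right (Submodule.mem_span_singleton_self a)
  have : FiniteDimensional K ↥(F f1 f2 f3 (2 * b) ⊔ Submodule.span K {a}) := fd_of_le hle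
  have h1 := Submodule.finrank_lt_finrank_of_lt hlt2
  have h2 : F f1 f2 f3 (2 * b) ⊔ Submodule.span K {a} = H K (2 * b) := by
    refine Submodule.eq_of_le_of_finrank_le hle ?_
    omega
  have hv2 : v ∈ F f1 f2 f3 (2 * b) ⊔ Submodule.span K {a} := by rw [h2]; exact hv
  obtain ⟨u, hu, w, hw, rfl⟩ := Submodule.mem_sup.1 hv2
  obtain ⟨c, rfl⟩ := Submodule.mem_span_singleton.1 hw
  intro h0
  apply hτv
  simp [hz u hu, h0]

variable {τ : S K →ₗ[K] K}

/-- The pairing is non degenerate modulo `(f1, f2, f3)`. -/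
theorem CIb.pairing (h : CIb b f1 f2 f3) (hτ : IsTau f1 f2 f3 (2 * b) τ) (n : ℕ) :
    ∀ {i : ℕ}, i + n = 2 * b → ∀ {a : S K}, a ∈ H K i → a ∉ Fid f1 f2 f3 →
      ∃ c ∈ H K n, τ (a * c) ≠ 0 := by
  induction n with
  | zero =>
    intro i hi a ha han
    have hi6 : i = 2 * b := by omega
    subst hi6
    refine ⟨1, isHomogeneous_one _ _, ?_⟩
    rw [mul_one]
    exact hτ.ne a ha (fun hh => han hh.1)
  | succ n ih =>
    intro i hi a ha han
    have hex : ∃ j : Fin 3, X j * a ∉ Fid f1 f2 f3 := by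
      by_contra hh
      push Not at hh
      exact han (h.socle (by omega) ha hh)
    obtain ⟨j, hj⟩ := hex
    obtain ⟨c, hc, hτb⟩ := ih (i := i + 1) (by omega)
      (mul_mem_H (X_mem_H1 j) ha (by omega)) hj
    refine ⟨X j * c, mul_mem_H (X_mem_H1 j) hc (by omega), ?_⟩
    have e : a * (X j * c) = X j * a * c := by ring
    rw [e]
    exact hτb

/-- Orthogonal complement of `V` in degree `n`. -/
noncomputable def Perp (τ : S K →ₗ[K] K) (n : ℕ) (V : Submodule K (S K)) : Submodule K (S K) where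
  carrier := {c | c ∈ H K n ∧ ∀ a ∈ V, τ (a * c) = 0}
  add_mem' := by
    rintro x y ⟨hx, hx'⟩ ⟨hy, hy'⟩
    refine ⟨add_mem hx hy, fun a ha => ?_⟩
    rw [mul_add, map_add, hx' a ha, hy' a ha, add_zero]
  zero_mem' := ⟨zero_mem _, fun a _ => by simp⟩
  smul_mem' := by
    rintro c x ⟨hx, hx'⟩
    refine ⟨Submodule.smul_mem _ _ hx, fun a ha => ?_⟩
    rw [mul_smul_comm, map_smul, hx' a ha, smul_zero]

theorem Perp_le_H (n : ℕ) (V : Submodule K (S K)) : Perp τ n V ≤ H K n := fun _ hb => hb.1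

instance instFinitePerp (n : ℕ) (V : Submodule K (S K)) : FiniteDimensional K (Perp τ n V) :=
  fd_of_le (Perp_le_H n V)

theorem mem_F_of_mul {f1 f2 f3 a c : S K} {d n m : ℕ} (hdn : d + n = m) (ha : a ∈ H K d)
    (hb : c ∈ F f1 f2 f3 n) : a * c ∈ F f1 f2 f3 m :=
  ⟨Ideal.mul_mem_left _ a hb.1, mul_mem_H ha hb.2 hdn⟩

theorem mem_F_of_mul' {f1 f2 f3 a c : S K} {d n m : ℕ} (hdn : d + n = m) (ha : a ∈ F f1 f2 f3 d)
    (hb : c ∈ H K n) : a * c ∈ F f1 f2 f3 m :=
  ⟨Ideal.mul_mem_right _ _ ha.1, mul_mem_H ha.2 hb hdn⟩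

/-- `F n` is orthogonal to everything in complementary degree. -/
theorem F_le_Perp (hτ : IsTau f1 f2 f3 (2 * b) τ) {d n : ℕ} (hdn : d + n = 2 * b)
    {V : Submodule K (S K)} (hV : V ≤ H K d) : F f1 f2 f3 n ≤ Perp τ n V := by
  intro c hc
  exact ⟨hc.2, fun a ha => hτ.zero _ (mem_F_of_mul hdn (hV ha) hc)⟩

/-- The main dimension formula. -/
theorem CIb.finrank_Perp (h : CIb b f1 f2 f3) (hτ : IsTau f1 f2 f3 (2 * b) τ) {d n : ℕ}
    (hdn : d + n = 2 * b) {V : Submodule K (S K)} (hFV : F f1 f2 f3 d ≤ V) (hV : V ≤ H K d) :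
    finrank K (Perp τ n V) + finrank K V = (n + 2).choose 2 + finrank K (F f1 f2 f3 d) := by
  have : FiniteDimensional K V := fd_of_le hV
  -- the map to the dual
  let Ψ : S K →ₗ[K] Dual K (H K n) :=
    ((LinearMap.mul K (S K)).compr₂ τ).compl₂ (H K n).subtype
  have hΨ : ∀ a : S K, ∀ c : H K n, Ψ a c = τ (a * c) := fun a c => rfl
  let D : Submodule K (Dual K (H K n)) := V.map Ψ
  have h1 := Subspace.finrank_add_finrank_dualCoannihilator_eq D
  rw [finrank_H] at h1
  -- `Perp` is the coannihilator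
  have h2 : Perp τ n V = (Submodule.dualCoannihilator D).map (H K n).subtype := by
    ext c
    constructor
    · rintro ⟨hc, hc'⟩
      refine ⟨⟨c, hc⟩, ?_, rfl⟩
      rw [SetLike.mem_coe, Submodule.mem_dualCoannihilator]
      rintro φ ⟨a, ha, rfl⟩
      exact hc' a ha
    · rintro ⟨⟨c', hc⟩, hc2, rfl⟩
      rw [SetLike.mem_coe, Submodule.mem_dualCoannihilator] at hc2
      refine ⟨hc, fun a ha => ?_⟩
      exact hc2 (Ψ a) ⟨a, ha, rfl⟩
  have h3 : finrank K (Perp τ n V) = finrank K (Submodule.dualCoannihilator D) := by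
    rw [h2]
    exact Submodule.finrank_map_subtype_eq _ _
  -- rank nullity on `V`
  have h4 := LinearMap.finrank_range_add_finrank_ker (Ψ.domRestrict V)
  rw [LinearMap.range_domRestrict] at h4
  have h5 : LinearMap.ker (Ψ.domRestrict V) = Submodule.comap V.subtype (F f1 f2 f3 d) := by
    ext ⟨a, ha⟩
    rw [LinearMap.mem_ker, Submodule.mem_comap]
    constructor
    · intro hz
      refine ⟨?_, hV ha⟩
      by_contra han
      obtain ⟨c, hc, hab⟩ := h.pairing hτ n hdn (hV ha) han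
      apply hab
      have := congrArg (fun φ : Dual K (H K n) => φ ⟨c, hc⟩) hz
      simpa [Ψ] using this
    · intro hz
      refine LinearMap.ext fun c => ?_
      exact hτ.zero _ (mem_F_of_mul' hdn hz c.2)
  have h6 : finrank K (Submodule.comap V.subtype (F f1 f2 f3 d)) = finrank K (F f1 f2 f3 d) :=
    (Submodule.comapSubtypeEquivOfLe hFV).finrank_eq
  rw [h5, h6] at h4
  rw [h3]
  change finrank K D + finrank K (Submodule.dualCoannihilator D) = (n + 2).choose 2 at h1
  change finrank K D + finrank K (F f1 f2 f3 d) = finrank K V at h4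
  omega

/-- `fd n` is the dimension of the degree `n` part of `(f1, f2, f3)`. -/
def fdim (b n : ℕ) : ℕ := (n + 2).choose 2 - hilb b n

theorem CIb.finrank_F_fdim (h : CIb b f1 f2 f3) (n : ℕ) :
    finrank K (F f1 f2 f3 n) = fdim b n := by
  have := h.finrank_F_all n
  unfold fdim
  omega

/-- The duality step. -/
theorem CIb.dual_step (h : CIb b f1 f2 f3) (hτ : IsTau f1 f2 f3 (2 * b) τ) {d e : ℕ}
    (hde : d + e + 1 = 2 * b) (he : e < b) {V : Submodule K (S K)} (hFV : F f1 f2 f3 d ≤ V)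
    (hV : V ≤ H K d)
    (ih : ∀ W : Submodule K (S K), F f1 f2 f3 e ≤ W → W ≤ H K e →
      G b e (finrank K W - fdim b e) + fdim b (e + 1) ≤ finrank K ↥(M W ⊔ F f1 f2 f3 (e + 1))) :
    G b d (finrank K V - fdim b d) + fdim b (d + 1) ≤ finrank K ↥(M V ⊔ F f1 f2 f3 (d + 1)) := by
  have hfdV : FiniteDimensional K V := fd_of_le hV
  set T' := M V ⊔ F f1 f2 f3 (d + 1) with hT
  have hTle : T' ≤ H K (d + 1) := sup_le (M_le_H hV) (F_le_H' _ _ _ _)
  have hfdT : FiniteDimensional K T' := fd_of_le hTle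
  have hFT : F f1 f2 f3 (d + 1) ≤ T' := le_sup_right
  set W := Perp τ e T' with hW
  have hWle : W ≤ H K e := Perp_le_H _ _
  have hFW : F f1 f2 f3 e ≤ W := F_le_Perp hτ (by omega) hTle
  have r1 : finrank K W + finrank K T' = (e + 2).choose 2 + finrank K (F f1 f2 f3 (d + 1)) :=
    h.finrank_Perp hτ (d := d + 1) (n := e) (by omega) hFT hTle
  have r2 := h.finrank_Perp hτ (d := d) (n := e + 1) (by omega) hFV hV
  have hle : M W ⊔ F f1 f2 f3 (e + 1) ≤ Perp τ (e + 1) V := by
    refine sup_le ?_ (F_le_Perp hτ (by omega) hV)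
    refine iSup_le fun j => ?_
    rintro _ ⟨c, hc, rfl⟩
    refine ⟨mul_mem_H (X_mem_H1 j) (hWle hc) (by omega), fun a ha => ?_⟩
    have e1 : a * (LinearMap.mulLeft K (X j : S K)) c = (X j * a) * c := by
      simp only [LinearMap.mulLeft_apply]; ring
    rw [e1]
    exact hc.2 _ (Submodule.mem_sup_left (mem_M_X ha j))
  have r3 := ih W hFW hWle
  have r4 := Submodule.finrank_mono hle
  have f1e := h.finrank_F_all e
  have f2e := h.finrank_F_all (e + 1)
  have f3e := h.finrank_F_all d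
  have f4e := h.finrank_F_all (d + 1)
  have g1 := h.finrank_F_fdim e
  have g2 := h.finrank_F_fdim (e + 1)
  have g3 := h.finrank_F_fdim d
  have g4 := h.finrank_F_fdim (d + 1)
  have u1 := Submodule.finrank_mono hFV
  have u2 := Submodule.finrank_mono hFT
  have u3 := Submodule.finrank_mono hV
  have u4 := Submodule.finrank_mono hTle
  rw [finrank_H] at u3 u4
  have e5 : (e + 1 + 2) = e + 3 := rfl
  rw [e5] at r2 f2e
  have e6 : finrank K W - fdim b e = hilb b e - (finrank K T' - fdim b (d + 1)) := by omega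
  rw [e6] at r3
  have key := adj (q := finrank K V - fdim b d) (r := finrank K T' - fdim b (d + 1)) h.hb hde he
    (by omega) (by omega) (by omega)
  omega

/-- Growth in degree at least `b` follows from growth in degree at most `b - 1`. -/
theorem CIb.growth_of_low (h : CIb b f1 f2 f3)
    (hlow : ∀ e < b, ∀ W : Submodule K (S K), F f1 f2 f3 e ≤ W → W ≤ H K e →
      G b e (finrank K W - fdim b e) + fdim b (e + 1) ≤ finrank K ↥(M W ⊔ F f1 f2 f3 (e + 1)))
    {d : ℕ} {V : Submodule K (S K)} (hFV : F f1 f2 f3 d ≤ V) (hV : V ≤ H K d) :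
    G b d (finrank K V - fdim b d) + fdim b (d + 1) ≤ finrank K ↥(M V ⊔ F f1 f2 f3 (d + 1)) := by
  have hfdV : FiniteDimensional K V := fd_of_le hV
  by_cases hd : d < b
  · exact hlow d hd V hFV hV
  by_cases hd2 : d < 2 * b
  · obtain ⟨τ, hτ⟩ := h.exists_tau
    exact h.dual_step hτ (e := 2 * b - 1 - d) (by omega) (by omega) hFV hV
      (hlow _ (by omega))
  · have hTle : M V ⊔ F f1 f2 f3 (d + 1) ≤ H K (d + 1) := sup_le (M_le_H hV) (F_le_H' _ _ _ _)
    have hfdT : FiniteDimensional K ↥(M V ⊔ F f1 f2 f3 (d + 1)) := fd_of_le hTle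
    have u1 := h.finrank_F_all d
    have g3 := h.finrank_F_fdim d
    have u3 := Submodule.finrank_mono hV
    rw [finrank_H] at u3
    rw [G_top h.hb (by omega) (by omega)]
    have := Submodule.finrank_mono (le_sup_right : F f1 f2 f3 (d + 1) ≤ M V ⊔ F f1 f2 f3 (d + 1))
    have g4 := h.finrank_F_fdim (d + 1)
    omega

end Vale.Agent.P200b
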