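import Vale.Agent.Lib.P200b.Inst3

/-!
# P200 family: the growth bound in normal position
-/

open MvPolynomial Module
open Vale.Agent.P200

namespace Vale.Agent.P200b

variable {K : Type*} [Field K] {f1 f2 f3 : S K} {b : ℕ}

theorem K1_le_F (f1 f2 f3 : S K) (n : ℕ) : K1 f1 n ≤ F f1 f2 f3 n := by
  rintro p ⟨hp, hn⟩
  refine ⟨?_, hn⟩
  obtain ⟨y, rfl⟩ := Ideal.mem_span_singleton'.1 hp
  exact Ideal.mul_mem_left _ _ f1_mem_Fid

theorem CIb.F_low (h : CIb b f1 f2 f3) {n : ℕ} (hn : n < b) : F f1 f2 f3 n = K1 f1 n := by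
  refine le_antisymm ?_ (K1_le_F _ _ _ _)
  rintro p ⟨hp, hpH⟩
  obtain ⟨u, v, t, _, hv, ht, rfl⟩ := h.Fid_repr hp hpH
  rw [Hz_of_lt hn] at hv ht
  rw [(Submodule.mem_bot K).1 hv, (Submodule.mem_bot K).1 ht, mul_zero, mul_zero, add_zero,
    add_zero] at hpH ⊢
  exact ⟨Ideal.mem_span_singleton'.2 ⟨u, mul_comm _ _⟩, hpH⟩

theorem CIb.fdim_low (h : CIb b f1 f2 f3) (hnp : NP f1) {n : ℕ} (hn : n < b) :
    fdim b n = hzd n 3 := by
  rw [← h.finrank_F_fdim, h.F_low hn, finrank_K1 hnp]

theorem CIb.fdim_b (h : CIb b f1 f2 f3) : fdim b b = hzd b 3 + 2 := by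
  have hb := h.hb
  rw [← h.finrank_F_fdim]
  have h1 := h.finrank_F (n := b) (by omega)
  rw [hzd_lt (by omega : b < b + 3), hzd_lt (by omega : b < b + b), hzd_le (le_refl b)] at h1
  simp only [Nat.sub_self] at h1
  have : (0 + 2).choose 2 = 1 := rfl
  omega

/-- **Growth in degree at most `b - 1`**, in normal position. -/
theorem CIb.growth_low_np (h : CIb b f1 f2 f3) (hnp : NP f1) (hb4 : 4 ≤ b) {e : ℕ} (he : e < b)
    {W : Submodule K (S K)} (hFW : F f1 f2 f3 e ≤ W) (hW : W ≤ H K e) :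
    G b e (finrank K W - fdim b e) + fdim b (e + 1) ≤ finrank K ↥(M W ⊔ F f1 f2 f3 (e + 1)) := by
  have hMS := h.ms hnp hb4
  have hG := hMS.toGT
  have hK1W : K1 f1 e ≤ W := (K1_le_F f1 f2 f3 e).trans hFW
  set V : Submodule K (Qt f1) := W.map (mkQ f1).toLinearMap with hV
  have hVQ : V ≤ QDt f1 e := Submodule.map_mono hW
  have hfdV := hG.fd_of_le hVQ
  have hq : finrank K V + hzd e 3 = finrank K W := finrank_map_mk hnp hK1W hW
  have hfe := h.fdim_low hnp he
  have hqe : finrank K W - fdim b e = finrank K V := by omega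
  rw [hqe]
  set T' := M W ⊔ F f1 f2 f3 (e + 1) with hT'
  have hTH : T' ≤ H K (e + 1) := sup_le (M_le_H hW) (F_le_H' _ _ _ _)
  have hK1T : K1 f1 (e + 1) ≤ T' := (K1_le_F f1 f2 f3 (e + 1)).trans le_sup_right
  have hT := finrank_map_mk hnp hK1T hTH
  have hFT : fdim b (e + 1) ≤ finrank K T' := by
    rw [← h.finrank_F_fdim]
    have : FiniteDimensional K T' := fd_of_le hTH
    exact Submodule.finrank_mono le_sup_right
  have hMV : MM (m1Q f1) (m2Q f1) (wQ f1) V ≤ T'.map (mkQ f1).toLinearMap := by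
    refine MM_le ?_ ?_ ?_
    · rintro _ ⟨p, hp, rfl⟩
      exact ⟨X 1 * p, Submodule.mem_sup_left (mem_M_X hp 1), map_mul (mkQ f1) _ _⟩
    · rintro _ ⟨p, hp, rfl⟩
      exact ⟨X 2 * p, Submodule.mem_sup_left (mem_M_X hp 2), map_mul (mkQ f1) _ _⟩
    · rintro _ ⟨p, hp, rfl⟩
      exact ⟨X 0 * p, Submodule.mem_sup_left (mem_M_X hp 0), map_mul (mkQ f1) _ _⟩
  have hfdT : FiniteDimensional K ↥(T'.map (mkQ f1).toLinearMap) := by
    have : FiniteDimensional K T' := fd_of_le hTH
    infer_instance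
  have hMVle := Submodule.finrank_mono hMV
  have hdimV : finrank K V ≤ finrank K (QDt f1 e) := by
    have := hG.fd e
    exact Submodule.finrank_mono hVQ
  -- `V` everything gives everything
  have hall : V = QDt f1 e → QDt f1 (e + 1) ≤ MM (m1Q f1) (m2Q f1) (wQ f1) V := by
    intro hVe x hx
    obtain ⟨a, ha, c, hc, u, hu, rfl⟩ := hG.gen hx
    rw [← hVe] at ha hc hu
    exact add_mem (add_mem (D2_le_MM _ (mul_mem_D2_left ha)) (D2_le_MM _ (mul_mem_D2_right hc)))
      (mul_mem_MM_w hu)
  have hallf : finrank K V = finrank K (QDt f1 e) → V = QDt f1 e := by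
    intro hf
    have := hG.fd e
    exact Submodule.eq_of_le_of_finrank_eq hVQ hf
  have hMQ := hG.fd_of_le (hG.MM_le_QD hVQ)
  have hfd1 := hG.fd (e + 1)
  by_cases he1 : e + 1 < b
  · rw [h.fdim_low hnp he1]
    have key : G b e (finrank K V) ≤ finrank K (MM (m1Q f1) (m2Q f1) (wQ f1) V) := by
      cases e with
      | zero =>
        rw [finrank_QDt_zero hnp] at hdimV
        by_cases hq0 : finrank K V = 0
        · rw [hq0, G_zero]
          omega
        · rw [G_base h.hb (by omega)]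
          have h1 := Submodule.finrank_mono (hall (hallf (by rw [finrank_QDt_zero hnp]; omega)))
          rw [finrank_QDt_succ hnp 0] at h1
          omega
      | succ d =>
        rw [finrank_QDt_succ hnp d] at hdimV
        rw [G_low (by omega) (by omega) hdimV]
        split_ifs with h0 h1 h2
        · omega
        · have := hG.part1 hVQ (by omega)
          omega
        · have := hG.part2 hVQ (by omega) (by omega)
          omega
        · have := hG.part3 d hVQ (by omega)
          omega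
    omega
  · have heb : e + 1 = b := by omega
    rw [heb] at hT hFT ⊢
    by_cases hq0 : finrank K V = 0
    · rw [hq0, G_zero, zero_add]
      exact hFT
    · rw [h.fdim_b]
      have hTt : MM (m1Q f1) (m2Q f1) (wQ f1) V ⊔ Submodule.span K {mkQ f1 f2, mkQ f1 f3} ≤
          T'.map (mkQ f1).toLinearMap := by
        refine sup_le hMV ?_
        refine Submodule.span_le.2 ?_
        have hFmem : ∀ {p : S K}, p ∈ Fid f1 f2 f3 → p ∈ H K b → mkQ f1 p ∈ T'.map (mkQ f1).toLinearMap := by
          intro p hp hpH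
          refine ⟨p, Submodule.mem_sup_right ⟨hp, ?_⟩, rfl⟩
          rw [heb]
          exact hpH
        rintro x (rfl | hx)
        · exact hFmem f2_mem_Fid h.h2
        · have hx' : x = mkQ f1 f3 := hx
          rw [hx']
          exact hFmem f3_mem_Fid h.h3
      have hfdTt : FiniteDimensional K ↥(MM (m1Q f1) (m2Q f1) (wQ f1) V ⊔
          Submodule.span K {mkQ f1 f2, mkQ f1 f3}) := Submodule.finiteDimensional_of_le hTt
      have hTtle := Submodule.finrank_mono hTt
      have hed : 3 ≤ e := by omega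
      obtain ⟨d, rfl⟩ : ∃ d, e = d + 1 := ⟨e - 1, by omega⟩
      rw [finrank_QDt_succ hnp d] at hdimV
      rw [G_mid (by omega) heb hdimV]
      by_cases hq3 : finrank K V < 3 * (d + 1)
      · obtain ⟨m1, m2⟩ := hMS.main_step heb hVQ (by omega) hq3
        rw [if_neg hq0, if_pos hq3]
        split_ifs with h1
        · omega
        · have := m2 (by omega)
          omega
      · have hVe : V = QDt f1 (d + 1) := hallf (by rw [finrank_QDt_succ hnp d]; omega)
        have h2 := Submodule.finrank_mono (hall hVe)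
        rw [finrank_QDt_succ hnp (d + 1)] at h2
        have h3 := Submodule.finrank_mono
          (le_sup_left : MM (m1Q f1) (m2Q f1) (wQ f1) V ≤ MM (m1Q f1) (m2Q f1) (wQ f1) V ⊔
            Submodule.span K {mkQ f1 f2, mkQ f1 f3})
        rw [if_neg hq0, if_neg hq3]
        split_ifs with h1
        · omega
        · omega

/-- **Growth in all degrees**, in normal position. -/
theorem CIb.growth_np (h : CIb b f1 f2 f3) (hnp : NP f1) (hb4 : 4 ≤ b) {d : ℕ}
    {V : Submodule K (S K)} (hFV : F f1 f2 f3 d ≤ V) (hV : V ≤ H K d) :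
    G b d (finrank K V - fdim b d) + fdim b (d + 1) ≤ finrank K ↥(M V ⊔ F f1 f2 f3 (d + 1)) :=
  h.growth_of_low (fun _ he _ hFW hW => h.growth_low_np hnp hb4 he hFW hW) hFV hV

end Vale.Agent.P200b
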