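import Vale.Agent.Lib.P200b.Poly

/-!
# P200 family: `S/(f1)` in normal position satisfies the hypotheses of the main step
-/

open MvPolynomial Module
open Vale.Agent.P200

namespace Vale.Agent.P200b

variable {K : Type*} [Field K] {f1 f2 f3 : S K} {b : ℕ}

/-- The quotient `S/(f1)`. -/
abbrev Qt (f1 : S K) := S K ⧸ Ideal.span {f1}

/-- The projection. -/
noncomputable def mkQ (f1 : S K) : S K →ₐ[K] Qt f1 := Ideal.Quotient.mkₐ K _

theorem mkQ_eq_zero {p : S K} : mkQ f1 p = 0 ↔ p ∈ Ideal.span {f1} := Ideal.Quotient.eq_zero_iff_mem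

theorem mkQ_surj : Function.Surjective (mkQ f1) := Ideal.Quotient.mkₐ_surjective _ _

/-- graded pieces of `S/(f1)`. -/
noncomputable def QDt (f1 : S K) (D : ℕ) : Submodule K (Qt f1) :=
  (H K D).map (mkQ f1).toLinearMap

theorem mem_QDt {D : ℕ} {x : Qt f1} : x ∈ QDt f1 D ↔ ∃ p ∈ H K D, mkQ f1 p = x := by
  simp [QDt, Submodule.mem_map]

/-- The map from `K[y,z]`. -/
noncomputable def iQ (f1 : S K) : R2 K →ₐ[K] Qt f1 := (mkQ f1).comp (iS K)

theorem iQ_apply (t : R2 K) : iQ f1 t = mkQ f1 (iS K t) := rfl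

/-- The degree `n` part of `(f1)`. -/
noncomputable def K1 (f1 : S K) (n : ℕ) : Submodule K (S K) :=
  (Ideal.span {f1}).restrictScalars K ⊓ H K n

theorem mem_span_f1_H (h : NP f1) {n : ℕ} {p : S K} (hp : p ∈ Ideal.span {f1}) (hn : p ∈ H K n) :
    ∃ y ∈ Hz K n 3, p = f1 * y := by
  obtain ⟨y, rfl⟩ := Ideal.mem_span_singleton'.1 hp
  refine ⟨cmp n 3 y, cmp_mem _ _ _, ?_⟩
  have e : cmp n 0 (y * f1) = y * f1 := cmp_of_mem (by rw [Hz_zero]; exact hn)
  rw [← e, mul_comm y f1, cmp_mul h.h1, zero_add]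

theorem finrank_K1 (h : NP f1) (n : ℕ) : finrank K (K1 f1 n) = hzd n 3 := by
  rw [← finrank_Hz K n 3]
  have hinj : Function.Injective ((LinearMap.mulLeft K f1).comp (Hz K n 3).subtype) := by
    rw [injective_iff_map_eq_zero]
    rintro ⟨y, hy⟩ h0
    have : f1 * y = 0 := h0
    exact Subtype.ext ((mul_eq_zero.1 this).resolve_left h.ne)
  rw [← LinearMap.finrank_range_of_inj hinj]
  have e : K1 f1 n = LinearMap.range ((LinearMap.mulLeft K f1).comp (Hz K n 3).subtype) := by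
    ext p
    constructor
    · rintro ⟨hp, hn⟩
      obtain ⟨y, hy, rfl⟩ := mem_span_f1_H h hp hn
      exact ⟨⟨y, hy⟩, rfl⟩
    · rintro ⟨⟨y, hy⟩, rfl⟩
      refine ⟨Ideal.mem_span_singleton'.2 ⟨y, mul_comm _ _⟩, ?_⟩
      have : f1 * y ∈ Hz K n 0 := Hz_mul h.h1 (by rwa [zero_add])
      rwa [Hz_zero] at this
  rw [e]

/-- General rank formula. -/
theorem finrank_map_add {V V' : Type*} [AddCommGroup V] [AddCommGroup V'] [Module K V] [Module K V']
    (L : V →ₗ[K] V') (W : Submodule K V) [FiniteDimensional K W] :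
    finrank K (W.map L) + finrank K ↥(W ⊓ LinearMap.ker L) = finrank K W := by
  have h := LinearMap.finrank_range_add_finrank_ker (L.domRestrict W)
  rw [LinearMap.range_domRestrict, LinearMap.ker_domRestrict] at h
  have e : Submodule.comap W.subtype (LinearMap.ker L) =
      Submodule.comap W.subtype (W ⊓ LinearMap.ker L) := by
    ext x
    simp
  rw [e, (Submodule.comapSubtypeEquivOfLe (inf_le_left : W ⊓ LinearMap.ker L ≤ W)).finrank_eq] at h
  exact h

/-- Passing to the quotient. -/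
theorem finrank_map_mk (h : NP f1) {n : ℕ} {W : Submodule K (S K)} (hK : K1 f1 n ≤ W)
    (hW : W ≤ H K n) : finrank K (W.map (mkQ f1).toLinearMap) + hzd n 3 = finrank K W := by
  have : FiniteDimensional K W := fd_of_le hW
  have h1 := finrank_map_add (mkQ f1).toLinearMap W
  have h2 : W ⊓ LinearMap.ker (mkQ f1).toLinearMap = K1 f1 n := by
    ext p
    constructor
    · rintro ⟨hp, hk⟩
      exact ⟨mkQ_eq_zero.1 hk, hW hp⟩
    · intro hp
      exact ⟨hK hp, mkQ_eq_zero.2 hp.1⟩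
  rw [h2, finrank_K1 h] at h1
  exact h1

theorem K1_le_H (f1 : S K) (n : ℕ) : K1 f1 n ≤ H K n := inf_le_right

theorem finrank_QDt (h : NP f1) (n : ℕ) : finrank K (QDt f1 n) + hzd n 3 = (n + 2).choose 2 := by
  have := finrank_map_mk h (K1_le_H f1 n) le_rfl
  rwa [finrank_H] at this

theorem finrank_QDt_succ (h : NP f1) (D : ℕ) : finrank K (QDt f1 (D + 1)) = 3 * (D + 1) := by
  have h1 := finrank_QDt h (D + 1)
  by_cases hD : D + 1 < 3
  · rw [hzd_lt hD] at h1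
    have hD' : D < 2 := by omega
    interval_cases D
    · simpa using h1
    · simpa [Nat.choose] using h1
  · obtain ⟨m, hm⟩ : ∃ m, D + 1 = m + 3 := ⟨D + 1 - 3, by omega⟩
    rw [hm] at h1 ⊢
    rw [hzd_le (by omega), tri_add3, show m + 3 - 3 = m by omega] at h1
    omega

theorem finrank_QDt_zero (h : NP f1) : finrank K (QDt f1 0) = 1 := by
  have h1 := finrank_QDt h 0
  rw [hzd_lt (by omega)] at h1
  simpa using h1

theorem H_decomp {D : ℕ} {x : S K} (hx : x ∈ H K (D + 1)) :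
    ∃ a ∈ H K D, ∃ c ∈ H K D, ∃ e ∈ H K D, x = X 1 * a + X 2 * c + X 0 * e := by
  have hle : M (H K D) ≤ MM (X 1) (X 2) (X 0) (H K D) := by
    refine iSup_le fun j => ?_
    rintro _ ⟨v, hv, rfl⟩
    simp only [LinearMap.mulLeft_apply]
    fin_cases j
    · exact mul_mem_MM_w hv
    · exact D2_le_MM _ (mul_mem_D2_left hv)
    · exact D2_le_MM _ (mul_mem_D2_right hv)
  have hx2 : x ∈ MM (X 1) (X 2) (X 0) (H K D) := by
    apply hle
    rw [M_H]
    exact hx
  obtain ⟨y, hy, _, ⟨e, he, rfl⟩, rfl⟩ := Submodule.mem_sup.1 hx2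
  obtain ⟨a, ha, c, hc, rfl⟩ := mem_D2.1 hy
  exact ⟨a, ha, c, hc, e, he, rfl⟩

/-- The specialization `y, z ↦ 0`. -/
noncomputable def pi0 (K : Type*) [Field K] : S K →ₐ[K] S K := aeval ![X 0, 0, 0]

theorem pi0_X1 : pi0 K (X 1) = 0 := by simp [pi0]

theorem pi0_X2 : pi0 K (X 2) = 0 := by simp [pi0]

theorem pi0_X0 : pi0 K (X 0) = X 0 := by simp [pi0]

theorem pi0_iS (t : R2 K) : pi0 K (iS K t) = C (constantCoeff t) := by
  induction t using MvPolynomial.induction_on with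
  | C a =>
    have e1 : iS K (C a) = C a := by
      rw [← algebraMap_eq, AlgHom.commutes]
      rfl
    have e2 : pi0 K (C a) = C a := by
      rw [← algebraMap_eq, AlgHom.commutes]
    rw [e1, e2, constantCoeff_C]
  | add p q hp hq =>
    rw [map_add, map_add, hp, hq, map_add, map_add]
  | mul_X p i hp =>
    have : pi0 K (iS K (X i)) = 0 := by
      fin_cases i
      · show pi0 K (iS K (X 0)) = 0
        rw [iS_X0, pi0_X1]
      · show pi0 K (iS K (X 1)) = 0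
        rw [iS_X1, pi0_X2]
    rw [map_mul, map_mul, this, mul_zero, map_mul, constantCoeff_X, mul_zero, C_0]

theorem pi0_decomp (p : S K) : ∃ y₁ y₂ : S K, p = pi0 K p + X 1 * y₁ + X 2 * y₂ := by
  induction p using MvPolynomial.induction_on with
  | C a =>
    refine ⟨0, 0, ?_⟩
    have e2 : pi0 K (C a) = C a := by
      rw [← algebraMap_eq, AlgHom.commutes]
    rw [e2]; ring
  | add p q hp hq =>
    obtain ⟨a, c, ha⟩ := hp
    obtain ⟨a', c', ha'⟩ := hq
    refine ⟨a + a', c + c', ?_⟩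
    rw [map_add]
    linear_combination ha + ha'
  | mul_X p i hp =>
    obtain ⟨a, c, ha⟩ := hp
    fin_cases i
    · refine ⟨a * X 0, c * X 0, ?_⟩
      show p * X 0 = pi0 K (p * X 0) + _ + _
      rw [map_mul, pi0_X0]
      linear_combination (X 0 : S K) * ha
    · refine ⟨p, 0, ?_⟩
      show p * X 1 = pi0 K (p * X 1) + _ + _
      rw [map_mul, pi0_X1]
      ring
    · refine ⟨0, p, ?_⟩
      show p * X 2 = pi0 K (p * X 2) + _ + _
      rw [map_mul, pi0_X2]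
      ring

theorem constantCoeff_hom {k : ℕ} (hk : 0 < k) {t : R2 K} (ht : t.IsHomogeneous k) :
    constantCoeff t = 0 := by
  rw [constantCoeff_eq]
  exact ht.coeff_eq_zero (by simp; omega)

theorem NP.pi0_f1 (h : NP f1) : pi0 K f1 = C (coeff (Finsupp.single 0 3) f1) * X 0 ^ 3 := by
  obtain ⟨c₁, c₂, c₃, h1, h2, h3, e⟩ := h.f1_form
  conv_lhs => rw [e]
  have e2 : pi0 K (C (coeff (Finsupp.single 0 3) f1)) = C (coeff (Finsupp.single 0 3) f1) := by
    rw [← algebraMap_eq, AlgHom.commutes]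
  rw [map_mul, e2]
  simp only [map_add, map_mul, map_pow, pi0_iS, pi0_X0, constantCoeff_hom (by omega) h1,
    constantCoeff_hom (by omega) h2, constantCoeff_hom (by omega) h3, C_0, zero_mul, add_zero]

theorem NP.X0_pow_ne (h : NP f1) : pi0 K f1 ≠ 0 := by
  rw [h.pi0_f1]
  refine mul_ne_zero ?_ (pow_ne_zero _ (X_ne_zero _))
  simpa using h.hc

theorem mk_X1 (a : S K) : mkQ f1 (X 1) * mkQ f1 a = mkQ f1 (X 1 * a) := (map_mul _ _ _).symm

/-- the operators -/
noncomputable abbrev m1Q (f1 : S K) : Qt f1 := mkQ f1 (X 1)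
noncomputable abbrev m2Q (f1 : S K) : Qt f1 := mkQ f1 (X 2)
noncomputable abbrev wQ (f1 : S K) : Qt f1 := mkQ f1 (X 0)

theorem NP.tfQ (h : NP f1) {t : R2 K} {g : Qt f1} (ht : t ≠ 0) (hg : iQ f1 t * g = 0) : g = 0 := by
  obtain ⟨g', rfl⟩ := mkQ_surj g
  rw [iQ_apply, ← map_mul, mkQ_eq_zero] at hg
  exact mkQ_eq_zero.2 (h.tf ht hg)

theorem iQ_X0 : iQ f1 (X 0) = m1Q f1 := by rw [iQ_apply, iS_X0]

theorem iQ_X1 : iQ f1 (X 1) = m2Q f1 := by rw [iQ_apply, iS_X1]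

theorem mk_zero_low (h : NP f1) {n : ℕ} (hn : n < 3) {p : S K} (hp : p ∈ H K n)
    (h0 : mkQ f1 p = 0) : p = 0 := by
  obtain ⟨y, hy, rfl⟩ := mem_span_f1_H h (mkQ_eq_zero.1 h0) hp
  rw [Hz_of_lt hn] at hy
  rw [(Submodule.mem_bot K).1 hy, mul_zero]

/-- **Regularity** of `m1, m2` on the quotient. -/
theorem NP.regQ (h : NP f1) {D : ℕ} {a c : Qt f1} (ha : a ∈ QDt f1 (D + 1)) (hc : c ∈ QDt f1 (D + 1))
    (e : m1Q f1 * a = m2Q f1 * c) : ∃ u ∈ QDt f1 D, a = m2Q f1 * u ∧ c = m1Q f1 * u := by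
  obtain ⟨a', ha', rfl⟩ := mem_QDt.1 ha
  obtain ⟨c', hc', rfl⟩ := mem_QDt.1 hc
  have hmem : X 1 * a' - X 2 * c' ∈ Ideal.span {f1} := by
    rw [← mkQ_eq_zero, map_sub, map_mul, map_mul]
    exact sub_eq_zero.2 e
  have hH : X 1 * a' - X 2 * c' ∈ H K (D + 2) :=
    sub_mem (mul_mem_H (X_mem_H1 1) ha' (by omega)) (mul_mem_H (X_mem_H1 2) hc' (by omega))
  obtain ⟨y, hy, ey⟩ := mem_span_f1_H h hmem hH
  have hpi : pi0 K y = 0 := by
    have := congrArg (pi0 K) ey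
    rw [map_sub, map_mul, map_mul, pi0_X1, pi0_X2, zero_mul, zero_mul, sub_zero, map_mul] at this
    exact (mul_eq_zero.1 this.symm).resolve_left h.X0_pow_ne
  obtain ⟨y₁, y₂, ey2⟩ := pi0_decomp y
  rw [hpi, zero_add] at ey2
  -- homogeneous coefficients
  set Y₁ := cmp (D + 2) 4 y₁ with hY₁
  set Y₂ := cmp (D + 2) 4 y₂ with hY₂
  have ey3 : y = X 1 * Y₁ + X 2 * Y₂ := by
    have e0 := cmp_of_mem hy
    rw [ey2, cmp_add, cmp_mul (X_mem_H1 1), cmp_mul (X_mem_H1 2)] at e0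
    rw [ey2]
    exact e0.symm.trans (by rw [hY₁, hY₂])
  have hf1Y : ∀ {Y : S K}, Y ∈ Hz K (D + 2) 4 → f1 * Y ∈ H K (D + 1) := by
    intro Y hY
    have : f1 * Y ∈ Hz K (D + 2) 1 := Hz_mul h.h1 hY
    rw [Hz_of_le (by omega)] at this
    exact this
  have hY1H := hf1Y (cmp_mem (D + 2) 4 y₁)
  have hY2H := hf1Y (cmp_mem (D + 2) 4 y₂)
  have erel : X 1 * (a' - f1 * Y₁) = X 2 * (c' + f1 * Y₂) := by
    rw [ey3] at ey
    linear_combination ey
  have hdvd : (X 1 : S K) ∣ X 2 * (c' + f1 * Y₂) := ⟨_, erel.symm⟩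
  rcases (X_prime (R := K) (i := (1 : Fin 3))).dvd_or_dvd hdvd with hh | hh
  · exact absurd (X_dvd_X.1 hh) (by decide)
  obtain ⟨u, hu⟩ := hh
  have hA : a' - f1 * Y₁ = X 2 * u := by
    apply mul_left_cancel₀ (X_ne_zero (R := K) (1 : Fin 3))
    rw [erel, hu]
    ring
  have hAH : a' - f1 * Y₁ ∈ H K (D + 1) := sub_mem ha' hY1H
  have hA2 := dvd_factor (X_mem_H1 2) hAH hA
  have hu0 : u = homogeneousComponent D u :=
    mul_left_cancel₀ (X_ne_zero (R := K) (2 : Fin 3)) (hA.symm.trans hA2)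
  have hmk : mkQ f1 f1 = 0 := mkQ_eq_zero.2 (Ideal.mem_span_singleton_self _)
  refine ⟨mkQ f1 u, mem_QDt.2 ⟨u, by rw [hu0]; exact hc_mem _ _, rfl⟩, ?_, ?_⟩
  · have : a' = X 2 * u + f1 * Y₁ := by linear_combination hA
    rw [this, map_add, map_mul, map_mul, hmk, zero_mul, add_zero]
  · have : c' = X 1 * u - f1 * Y₂ := by linear_combination hu
    rw [this, map_sub, map_mul, map_mul, hmk, zero_mul, sub_zero]

/-- `S/(f1)` is a graded algebra with `m1, m2` regular. -/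
theorem NP.gq (h : NP f1) : GQ (QDt f1) (m1Q f1) (m2Q f1) (wQ f1) where
  fd := fun D => by unfold QDt; infer_instance
  m1_mem := by
    intro D a ha
    obtain ⟨a', ha', rfl⟩ := mem_QDt.1 ha
    exact mem_QDt.2 ⟨_, mul_mem_H (X_mem_H1 1) ha' (by omega), map_mul _ _ _⟩
  m2_mem := by
    intro D a ha
    obtain ⟨a', ha', rfl⟩ := mem_QDt.1 ha
    exact mem_QDt.2 ⟨_, mul_mem_H (X_mem_H1 2) ha' (by omega), map_mul _ _ _⟩
  w_mem := by
    intro D a ha
    obtain ⟨a', ha', rfl⟩ := mem_QDt.1 ha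
    exact mem_QDt.2 ⟨_, mul_mem_H (X_mem_H1 0) ha' (by omega), map_mul _ _ _⟩
  inj1 := by
    intro a ha
    exact h.tfQ (t := X 0) (X_ne_zero _) (by rw [iQ_X0]; exact ha)
  inj2 := by
    intro a ha
    exact h.tfQ (t := X 1) (X_ne_zero _) (by rw [iQ_X1]; exact ha)
  reg := h.regQ
  reg0 := by
    intro a c ha hc e
    obtain ⟨a', ha', rfl⟩ := mem_QDt.1 ha
    obtain ⟨c', hc', rfl⟩ := mem_QDt.1 hc
    have hmem : mkQ f1 (X 1 * a' - X 2 * c') = 0 := by
      rw [map_sub, map_mul, map_mul]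
      exact sub_eq_zero.2 e
    have hH : X 1 * a' - X 2 * c' ∈ H K 1 :=
      sub_mem (mul_mem_H (X_mem_H1 1) ha' (by omega)) (mul_mem_H (X_mem_H1 2) hc' (by omega))
    have h0 := mk_zero_low h (by omega) hH hmem
    obtain ⟨s, rfl⟩ := H0_eq ha'
    obtain ⟨t, rfl⟩ := H0_eq hc'
    have e1 : C 0 * X 0 + C s * X 1 + C (-t) * X 2 = (0 : S K) := by
      rw [C_0, C_neg]
      linear_combination h0
    obtain ⟨-, h2, h3⟩ := X_indep e1
    have ht : t = 0 := neg_eq_zero.1 h3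
    rw [h2, ht, C_0, map_zero]
    exact ⟨rfl, rfl⟩

end Vale.Agent.P200b
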