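import Vale.Agent.Lib.P200b.Inst
import Vale.Agent.Lib.P200.Base3

/-!
# P200 family: `S/(f1)` in normal position satisfies the hypotheses of the main step, continued
-/

open MvPolynomial Module
open Vale.Agent.P200

namespace Vale.Agent.P200b

variable {K : Type*} [Field K] {f1 f2 f3 : S K} {b : ℕ}

/-- Homogeneous components of products in two variables. -/
theorem hc_mul2 {f : R2 K} {a : ℕ} (hf : f.IsHomogeneous a) (g : R2 K) (n : ℕ) :
    homogeneousComponent (n + a) (f * g) = f * homogeneousComponent n g := by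
  classical
  conv_lhs => rw [← sum_homogeneousComponent g]
  conv_rhs => rw [← sum_homogeneousComponent g]
  rw [Finset.mul_sum, map_sum, map_sum, Finset.mul_sum]
  refine Finset.sum_congr rfl fun i _ => ?_
  have hh : (f * homogeneousComponent i g).IsHomogeneous (a + i) :=
    hf.mul (homogeneousComponent_isHomogeneous i g)
  rw [homogeneousComponent_of_mem hh, homogeneousComponent_of_mem (homogeneousComponent_isHomogeneous i g)]
  by_cases hnm : n = i
  · subst hnm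
    simp [add_comm]
  · have : n + a ≠ a + i := by omega
    simp [this, hnm]

/-- Forms of degree one in two variables. -/
theorem R2_linear {l : R2 K} (hl : l.IsHomogeneous 1) : ∃ a c : K, l = C a * X 0 + C c * X 1 := by
  have h : l ∈ Submodule.span K (Set.range (X : Fin 2 → R2 K)) := by
    rw [← homogeneousSubmodule_one_eq_span_X]
    exact hl
  obtain ⟨f, hf⟩ := (Submodule.mem_span_range_iff_exists_fun K).1 h
  refine ⟨f 0, f 1, ?_⟩
  rw [← hf, Fin.sum_univ_two]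
  simp [C_mul']

/-- The cubic relation. -/
theorem NP.cubicQ (h : NP f1) : CubicRel (wQ f1) (iQ f1) := by
  obtain ⟨c₁, c₂, c₃, h1, h2, h3, e⟩ := h.f1_form
  refine ⟨c₁, c₂, c₃, h1, h2, h3, ?_⟩
  have hmk : mkQ f1 f1 = 0 := mkQ_eq_zero.2 (Ideal.mem_span_singleton_self _)
  have e2 := congrArg (mkQ f1) e
  rw [hmk] at e2
  simp only [map_mul, map_add, map_pow] at e2
  have hc : mkQ f1 (C (coeff (Finsupp.single 0 3) f1)⁻¹) * mkQ f1 (C (coeff (Finsupp.single 0 3) f1)) = 1 := by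
    rw [← map_mul, ← C_mul, inv_mul_cancel₀ h.hc, C_1, map_one]
  simp only [iQ_apply]
  linear_combination (-(mkQ f1 (C (coeff (Finsupp.single 0 3) f1)⁻¹))) * e2 -
    (mkQ f1 (X 0) ^ 3 + mkQ f1 (iS K c₁) * mkQ f1 (X 0) ^ 2 + mkQ f1 (iS K c₂) * mkQ f1 (X 0) +
      mkQ f1 (iS K c₃)) * hc

theorem root_aux {F : Type*} [Field F] {a c C₁ C₂ C₃ : F} (ha : a ≠ 0)
    (h : c ^ 3 + C₁ * a * c ^ 2 + C₂ * a ^ 2 * c + C₃ * a ^ 3 = 0) :
    (c / a) ^ 3 + (C₁ * (c / a) ^ 2 + C₂ * (c / a) + C₃) = 0 := by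
  field_simp
  linear_combination h

theorem mul_div_aux {F : Type*} [Field F] {a c : F} (ha : a ≠ 0) : a * (c / a) = c := by
  field_simp

/-- **Eigenvectors over the field of fractions**. -/
theorem NP.eigQ (h : NP f1) {r : ℕ} {t₁ t₂ : R2 K} {g : Qt f1} (h1 : t₁.IsHomogeneous r)
    (h2 : t₂.IsHomogeneous (r + 1)) (ht : t₁ ≠ 0) (hg : g ≠ 0)
    (e : iQ f1 t₁ * (wQ f1 * g) = iQ f1 t₂ * g) :
    ∃ α β : K, wQ f1 * g = (α • m1Q f1 + β • m2Q f1) * g := by
  obtain ⟨c₁, c₂, c₃, -, -, -, cub⟩ := h.cubicQ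
  set ρ : R2 K := t₂ ^ 3 + c₁ * t₁ * t₂ ^ 2 + c₂ * t₁ ^ 2 * t₂ + c₃ * t₁ ^ 3 with hρdef
  have hρ : iQ f1 ρ * g = 0 := by
    simp only [hρdef, map_add, map_mul, map_pow]
    linear_combination (iQ f1 t₁ ^ 3 * g) * cub -
      ((iQ f1 t₁ * wQ f1) ^ 2 + iQ f1 t₁ * wQ f1 * iQ f1 t₂ + iQ f1 t₂ ^ 2 +
        iQ f1 c₁ * iQ f1 t₁ * (iQ f1 t₁ * wQ f1 + iQ f1 t₂) + iQ f1 c₂ * iQ f1 t₁ ^ 2) * e
  have hρ0 : ρ = 0 := by
    by_contra hne
    exact hg (h.tfQ hne hρ)
  -- integrality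
  let F' := FractionRing (R2 K)
  let p : Polynomial (R2 K) := Polynomial.X ^ 3 +
    (Polynomial.C c₁ * Polynomial.X ^ 2 + Polynomial.C c₂ * Polynomial.X + Polynomial.C c₃)
  have hp : p.Monic := by
    refine Polynomial.monic_X_pow_add ?_
    compute_degree <;> norm_num
  have ht' : algebraMap (R2 K) F' t₁ ≠ 0 := by
    intro h0
    exact ht (IsFractionRing.injective (R2 K) F' (by rw [h0, map_zero]))
  have hρ' := congrArg (algebraMap (R2 K) F') hρ0
  simp only [hρdef, map_add, map_mul, map_pow, map_zero] at hρ'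
  have haeval : Polynomial.aeval (algebraMap (R2 K) F' t₂ / algebraMap (R2 K) F' t₁) p = 0 := by
    simp only [p, map_add, map_mul, map_pow, Polynomial.aeval_X, Polynomial.aeval_C]
    exact root_aux ht' hρ'
  obtain ⟨l, hl⟩ := isInteger_of_is_root_of_monic hp haeval
  have ht₂ : t₂ = t₁ * l := by
    apply IsFractionRing.injective (R2 K) F'
    rw [map_mul, hl]
    exact (mul_div_aux ht').symm
  -- the linear part
  have e1 := hc_mul2 h1 l 1
  rw [← ht₂, show 1 + r = r + 1 by omega, homogeneousComponent_of_mem h2, if_pos rfl] at e1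
  obtain ⟨α, β, hab⟩ := R2_linear (homogeneousComponent_isHomogeneous 1 l)
  refine ⟨α, β, ?_⟩
  have hιl : iQ f1 (homogeneousComponent 1 l) = α • m1Q f1 + β • m2Q f1 := by
    rw [hab, map_add, map_mul, map_mul, iQ_X0, iQ_X1]
    have : ∀ c : K, iQ f1 (C c) = algebraMap K (Qt f1) c := fun c => by
      rw [← algebraMap_eq, AlgHom.commutes]
    have hsm : ∀ (c : K) (x : Qt f1), c • x = algebraMap K (Qt f1) c * x := fun c x =>
      Algebra.smul_def c x
    rw [this, this, hsm, hsm]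
  rw [← hιl]
  have e2 : iQ f1 t₁ * (wQ f1 * g - iQ f1 (homogeneousComponent 1 l) * g) = 0 := by
    have e3 : iQ f1 t₂ = iQ f1 t₁ * iQ f1 (homogeneousComponent 1 l) := by
      conv_lhs => rw [e1]
      rw [map_mul]
    rw [e3] at e
    linear_combination e
  exact sub_eq_zero.1 (h.tfQ ht e2)

/-- The eigenvector factorization. -/
theorem NP.eig_factor (h : NP f1) {e : ℕ} {g' : S K} (hg' : g' ∈ H K e)
    (hg0 : g' ∉ Ideal.span {f1}) {α β : K}
    (hab : wQ f1 * mkQ f1 g' = (α • m1Q f1 + β • m2Q f1) * mkQ f1 g') :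
    ∃ l h₂ y : S K, h₂ ∈ H K 2 ∧ h₂ ≠ 0 ∧ f1 = l * h₂ ∧ g' = h₂ * y := by
  set l : S K := X 0 - C α * X 1 - C β * X 2 with hl
  have hCX : ∀ (t : K) (j : Fin 3), (C t * X j : S K) ∈ H K 1 := fun t j => by
    have := (isHomogeneous_C (Fin 3) t).mul (isHomogeneous_X K j)
    rwa [zero_add] at this
  have hl1 : l ∈ H K 1 := sub_mem (sub_mem (X_mem_H1 0) (hCX _ _)) (hCX _ _)
  have hl0 : l ≠ 0 := by
    intro h0
    have e1 : C 1 * X 0 + C (-α) * X 1 + C (-β) * X 2 = (0 : S K) := by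
      rw [C_1, C_neg, C_neg]
      linear_combination h0
    exact one_ne_zero (X_indep e1).1
  have hmem : l * g' ∈ Ideal.span {f1} := by
    rw [← mkQ_eq_zero, hl]
    simp only [map_mul, map_sub]
    have e2 : ∀ c : K, mkQ f1 (C c) = algebraMap K (Qt f1) c := fun c => by
      rw [← algebraMap_eq, AlgHom.commutes]
    rw [e2, e2]
    have hsm : ∀ (c : K) (x : Qt f1), c • x = algebraMap K (Qt f1) c * x := fun c x =>
      Algebra.smul_def c x
    rw [hsm, hsm] at hab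
    linear_combination hab
  obtain ⟨y, hy⟩ := Ideal.mem_span_singleton'.1 hmem
  have hprime := prime_of_H1 hl1 hl0
  have hd : l ∣ f1 * y := ⟨g', by rw [← hy]; ring⟩
  rcases hprime.dvd_or_dvd hd with ⟨q, hq⟩ | ⟨y', hy'⟩
  · have hf : f1 = l * homogeneousComponent 2 q := dvd_factor (n := 2) hl1 h.h1 hq
    have hq2 : q = homogeneousComponent 2 q :=
      mul_left_cancel₀ hl0 (hq.symm.trans hf)
    refine ⟨l, homogeneousComponent 2 q, y, hc_mem _ _, ?_, hf, ?_⟩
    · intro h0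
      rw [h0, mul_zero] at hf
      exact h.ne hf
    · apply mul_left_cancel₀ hl0
      rw [← hy, ← hq2, hq]
      ring
  · exfalso
    apply hg0
    refine Ideal.mem_span_singleton'.2 ⟨y', ?_⟩
    apply mul_left_cancel₀ hl0
    rw [← hy, hy']
    ring

/-- `c3`: eigenvectors have degree at least two. -/
theorem NP.c3Q (h : NP f1) {e : ℕ} {g : Qt f1} {α β : K} (hg : g ∈ QDt f1 e) (hg0 : g ≠ 0)
    (hab : wQ f1 * g = (α • m1Q f1 + β • m2Q f1) * g) : 2 ≤ e := by
  obtain ⟨g', hg', rfl⟩ := mem_QDt.1 hg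
  have hn : g' ∉ Ideal.span {f1} := fun hh => hg0 (mkQ_eq_zero.2 hh)
  obtain ⟨l, h₂, y, hh2, -, -, ey⟩ := h.eig_factor hg' hn hab
  by_contra hlt
  have hc0 : homogeneousComponent e (h₂ * y) = 0 := hc_mul_lt hh2 y (by omega)
  rw [← ey, hc_of_mem hg'] at hc0
  exact hn (by rw [hc0]; exact zero_mem _)

/-- The map `H → Q` is injective in degree at most `2`; base case of the growth. -/
theorem NP.base1Q (h : NP f1) {V : Submodule K (Qt f1)} (hV : V ≤ QDt f1 1)
    (hq : 2 ≤ finrank K V) :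
    finrank K V + 3 ≤ finrank K (MM (m1Q f1) (m2Q f1) (wQ f1) V) := by
  have hfd := (h.gq).fd_of_le hV
  have hMQ := (h.gq).D2_le_QD hV
  have hMM : MM (m1Q f1) (m2Q f1) (wQ f1) V ≤ QDt f1 2 :=
    MM_le (fun _ ha => (h.gq).m1_mem (hV ha)) (fun _ ha => (h.gq).m2_mem (hV ha))
      (fun _ ha => (h.gq).w_mem (hV ha))
  have hfdM := (h.gq).fd_of_le hMM
  set Vs : Submodule K (S K) := V.comap (mkQ f1).toLinearMap ⊓ H K 1 with hVs
  have hVsH : Vs ≤ H K 1 := inf_le_right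
  have hK1 : ∀ {n}, n < 3 → K1 f1 n = ⊥ := by
    intro n hn
    rw [eq_bot_iff]
    rintro p ⟨hp, hpH⟩
    exact mk_zero_low h hn hpH (mkQ_eq_zero.2 hp)
  have hmap : Vs.map (mkQ f1).toLinearMap = V := by
    ext x
    constructor
    · rintro ⟨p, hp, rfl⟩
      exact hp.1
    · intro hx
      obtain ⟨p, hp, rfl⟩ := mem_QDt.1 (hV hx)
      exact ⟨p, ⟨hx, hp⟩, rfl⟩
  have h1 := finrank_map_mk h (n := 1) (W := Vs) (by rw [hK1 (by omega)]; exact bot_le) hVsH
  rw [hmap, hzd_lt (by omega), add_zero] at h1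
  have h2 := growth1 hVsH
  have hMs : M Vs ≤ H K 2 := M_le_H hVsH
  have h3 := finrank_map_mk h (n := 2) (W := M Vs) (by rw [hK1 (by omega)]; exact bot_le) hMs
  rw [hzd_lt (by omega), add_zero] at h3
  have hle : (M Vs).map (mkQ f1).toLinearMap ≤ MM (m1Q f1) (m2Q f1) (wQ f1) V := by
    rw [Submodule.map_le_iff_le_comap]
    refine iSup_le fun j => ?_
    rintro _ ⟨v, hv, rfl⟩
    have hv' : mkQ f1 v ∈ V := hv.1
    simp only [LinearMap.mulLeft_apply, Submodule.mem_comap]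
    change mkQ f1 (X j * v) ∈ _
    rw [map_mul]
    fin_cases j
    · exact mul_mem_MM_w hv'
    · exact D2_le_MM _ (mul_mem_D2_left hv')
    · exact D2_le_MM _ (mul_mem_D2_right hv')
  have h4 := Submodule.finrank_mono hle
  have h5 : finrank K V ≤ 3 := by
    have := (h.gq).fd 1
    have := Submodule.finrank_mono hV
    rwa [finrank_QDt_succ h 0] at this
  rw [← h1] at h2
  generalize finrank K V = v at *
  interval_cases v <;> simp [gT] at h2 <;> omega

/-- `S/(f1)` satisfies the hypotheses for the low degree growth. -/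
theorem NP.gt (h : NP f1) : GT (QDt f1) (m1Q f1) (m2Q f1) (wQ f1) (iQ f1) where
  toGQ := h.gq
  ι0 := iQ_X0
  ι1 := iQ_X1
  tf := h.tfQ
  eig := h.eigQ
  gen := by
    intro D x hx
    obtain ⟨p, hp, rfl⟩ := mem_QDt.1 hx
    obtain ⟨a, ha, c, hc, e, he, rfl⟩ := H_decomp hp
    refine ⟨mkQ f1 a, mem_QDt.2 ⟨a, ha, rfl⟩, mkQ f1 c, mem_QDt.2 ⟨c, hc, rfl⟩, mkQ f1 e,
      mem_QDt.2 ⟨e, he, rfl⟩, ?_⟩
    simp only [map_add, map_mul]
  qd0 := by
    intro x hx
    obtain ⟨p, hp, rfl⟩ := mem_QDt.1 hx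
    obtain ⟨t, rfl⟩ := H0_eq hp
    refine ⟨t, ?_⟩
    rw [← algebraMap_eq, AlgHom.commutes, Algebra.smul_def, mul_one]
  one_mem := mem_QDt.2 ⟨1, isHomogeneous_one _ _, map_one _⟩
  dim0 := finrank_QDt_zero h
  dimS := finrank_QDt_succ h
  c3 := h.c3Q
  base1 := h.base1Q

end Vale.Agent.P200b
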