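import Vale.Agent.Lib.P200b.Inst2

/-!
# P200 family: the hypotheses of the main step for `S/(f1)`, and the growth in low degree
-/

open MvPolynomial Module
open Vale.Agent.P200

namespace Vale.Agent.P200b

variable {K : Type*} [Field K] {f1 f2 f3 : S K} {b : ℕ}

/-- `f3` is a non zero divisor modulo `f1` on forms. -/
theorem CIb.reg3_hom (h : CIb b f1 f2 f3) (n : ℕ) :
    ∀ {g : S K}, g ∈ H K n → f3 * g ∈ Ideal.span {f1} → g ∈ Ideal.span {f1} := by
  induction n using Nat.strong_induction_on with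
  | _ n ih =>
    intro g hg hm
    have hm2 : f3 * g ∈ Ideal.span {f1, f2} :=
      Ideal.span_mono (by simp) hm
    obtain ⟨a, c, hac⟩ := Ideal.mem_span_pair.1 (h.reg.reg3 g hm2)
    have e0 : cmp n 0 g = g := cmp_of_mem (by rw [Hz_zero]; exact hg)
    have eg : g = f1 * cmp n 3 a + f2 * cmp n b c := by
      rw [← e0, ← hac, cmp_add, mul_comm a, mul_comm c, cmp_mul h.h1, cmp_mul h.h2, zero_add,
        zero_add]
    set u := cmp n b c with hu
    set a' := cmp n 3 a with ha'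
    have hf1 : f1 ∈ Ideal.span {f1} := Ideal.mem_span_singleton_self _
    by_cases hn : n < b
    · have : u = 0 := cmp_zero hn c
      rw [eg, this, mul_zero, add_zero]
      exact Ideal.mul_mem_right _ _ hf1
    · obtain ⟨y, hy⟩ := Ideal.mem_span_singleton'.1 hm
      have h1 : f2 * (f3 * u) ∈ Ideal.span {f1} := by
        refine Ideal.mem_span_singleton'.2 ⟨y - f3 * a', ?_⟩
        rw [eg] at hy
        linear_combination hy
      have h2 := h.reg.reg2 _ h1
      have hb : 1 ≤ b := by have := h.hb; omega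
      have hu2 : u ∈ H K (n - b) := by
        have := cmp_mem n b c
        rwa [Hz_of_le (by omega)] at this
      have h3 := ih (n - b) (by omega) hu2 h2
      rw [eg]
      exact add_mem (Ideal.mul_mem_right _ _ hf1) (Ideal.mul_mem_left _ _ h3)

/-- Numerics for the obstruction. -/
theorem tri_convex (c e e' : ℕ) (he : 1 ≤ e) (he' : 1 ≤ e') :
    (c + e' + 2).choose 2 + (c + e + 2).choose 2 < (c + e + e' + 2).choose 2 + (c + 2).choose 2 := by
  have hh : ∀ n : ℕ, 2 * ((n + 2).choose 2 : ℤ) = ((n : ℤ) + 2) * ((n : ℤ) + 1) := by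
    intro n
    have h2 : 2 * (n + 2).choose 2 = (n + 2) * (n + 1) := by
      induction n with
      | zero => rfl
      | succ n ih =>
        have e1 : (n + 1 + 2).choose 2 = (n + 2).choose 1 + (n + 2).choose 2 := Nat.choose_succ_succ _ _
        rw [e1, Nat.choose_one_right]
        nlinarith
    exact_mod_cast h2
  have a1 := hh (c + e')
  have a2 := hh (c + e)
  have a3 := hh (c + e + e')
  have a4 := hh c
  push_cast at a1 a2 a3 a4
  have h5 : (1 : ℤ) ≤ e := by exact_mod_cast he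
  have h6 : (1 : ℤ) ≤ e' := by exact_mod_cast he'
  have h7 : (0 : ℤ) < (e : ℤ) * e' := by positivity
  have : (((c + e' + 2).choose 2 : ℤ) + (c + e + 2).choose 2) <
      ((c + e + e' + 2).choose 2 : ℤ) + (c + 2).choose 2 := by
    nlinarith
  exact_mod_cast this

/-- Two forms of positive degree cannot generate an ideal containing `(f1, f2, f3)`. -/
theorem CIb.obstruct (h : CIb b f1 f2 f3) {p p' : S K} {e e' : ℕ}
    (hp : p ∈ H K e) (hp' : p' ∈ H K e') (hp0 : p ≠ 0) (he : 1 ≤ e) (he' : 1 ≤ e')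
    (hf1 : f1 ∈ Ideal.span {p, p'}) (hf2 : f2 ∈ Ideal.span {p, p'})
    (hf3 : f3 ∈ Ideal.span {p, p'}) : False := by
  set c := 2 * b + 1 with hc
  set D := c + e + e' with hD
  let mul1 : H K (c + e') →ₗ[K] S K := (LinearMap.mulLeft K p).comp (H K (c + e')).subtype
  let mul2 : H K (c + e) →ₗ[K] S K := (LinearMap.mulLeft K p').comp (H K (c + e)).subtype
  let Ψ : (H K (c + e') × H K (c + e)) →ₗ[K] S K := mul1.coprod mul2
  have hΨ : ∀ (u : H K (c + e')) (w : H K (c + e)), Ψ (u, w) = p * u + p' * w := fun u w => by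
    simp [Ψ, mul1, mul2]
  have hFid : Fid f1 f2 f3 ≤ Ideal.span {p, p'} := by
    refine Ideal.span_le.2 ?_
    rintro x (rfl | rfl | rfl)
    · exact hf1
    · exact hf2
    · exact hf3
  have hrange : H K D ≤ LinearMap.range Ψ := by
    intro q hq
    obtain ⟨u, w, huw⟩ := Ideal.mem_span_pair.1 (hFid (h.H_mem_high (by omega) hq))
    refine ⟨(⟨_, hc_mem u (c + e')⟩, ⟨_, hc_mem w (c + e)⟩), ?_⟩
    rw [hΨ]
    rw [← hc_of_mem hq, ← huw, map_add]
    congr 1
    · have := hc_mul hp u (c + e')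
      rw [show c + e' + e = D by omega] at this
      rw [mul_comm u p, this]
    · have := hc_mul hp' w (c + e)
      rw [show c + e + e' = D by omega] at this
      rw [mul_comm w p', this]
  let θ : H K c →ₗ[K] (H K (c + e') × H K (c + e)) :=
    LinearMap.prod
      (LinearMap.codRestrict (H K (c + e')) ((LinearMap.mulLeft K p').comp (H K c).subtype)
        (fun t => mul_mem_H hp' t.2 (by omega)))
      (-(LinearMap.codRestrict (H K (c + e)) ((LinearMap.mulLeft K p).comp (H K c).subtype)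
        (fun t => mul_mem_H hp t.2 (by omega))))
  have hθ1 : ∀ t : H K c, ((θ t).1 : S K) = p' * t := fun t => rfl
  have hθ2 : ∀ t : H K c, ((θ t).2 : S K) = -(p * t) := fun t => rfl
  have hθinj : Function.Injective θ := by
    rw [injective_iff_map_eq_zero]
    intro t ht
    have h2 : ((θ t).2 : S K) = 0 := by rw [ht]; rfl
    rw [hθ2, neg_eq_zero] at h2
    exact Subtype.ext ((mul_eq_zero.1 h2).resolve_left hp0)
  have hθker : LinearMap.range θ ≤ LinearMap.ker Ψ := by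
    rintro _ ⟨t, rfl⟩
    rw [LinearMap.mem_ker]
    have e1 : Ψ (θ t) = p * ((θ t).1 : S K) + p' * ((θ t).2 : S K) := hΨ _ _
    rw [e1, hθ1, hθ2]
    ring
  have hr := LinearMap.finrank_range_add_finrank_ker Ψ
  rw [Module.finrank_prod, finrank_H, finrank_H] at hr
  have h1 : finrank K (H K D) ≤ finrank K (LinearMap.range Ψ) := Submodule.finrank_mono hrange
  rw [finrank_H] at h1
  have h2 : finrank K (LinearMap.range θ) ≤ finrank K (LinearMap.ker Ψ) :=
    Submodule.finrank_mono hθker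
  rw [LinearMap.finrank_range_of_inj hθinj, finrank_H] at h2
  have h3 := tri_convex c e e' he he'
  rw [show c + e + e' = D from rfl] at h3
  omega

theorem mem_span_of_mk {f1 : S K} {p g' : S K} (hp : mkQ f1 p ∈ Ideal.span {mkQ f1 g'}) :
    ∃ y z : S K, p = y * g' + z * f1 := by
  obtain ⟨y, hy⟩ := Ideal.mem_span_singleton'.1 hp
  obtain ⟨y', rfl⟩ := mkQ_surj y
  rw [← map_mul, ← sub_eq_zero, ← map_sub, mkQ_eq_zero] at hy
  obtain ⟨z, hz⟩ := Ideal.mem_span_singleton'.1 hy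
  exact ⟨y', -z, by linear_combination hz⟩

theorem mem_span2_of_mk {f1 : S K} {p g' v' : S K}
    (hp : mkQ f1 p ∈ Ideal.span {mkQ f1 g', mkQ f1 v'}) :
    ∃ y y' z : S K, p = y * g' + y' * v' + z * f1 := by
  obtain ⟨A, B, hy⟩ := Ideal.mem_span_pair.1 hp
  obtain ⟨A', rfl⟩ := mkQ_surj A
  obtain ⟨B', rfl⟩ := mkQ_surj B
  rw [← map_mul, ← map_mul, ← map_add, ← sub_eq_zero, ← map_sub, mkQ_eq_zero] at hy
  obtain ⟨z, hz⟩ := Ideal.mem_span_singleton'.1 hy
  exact ⟨A', B', -z, by linear_combination hz⟩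

/-- **The hypotheses of the main step.** -/
theorem CIb.ms (h : CIb b f1 f2 f3) (hnp : NP f1) (hb4 : 4 ≤ b) :
    MS (QDt f1) (m1Q f1) (m2Q f1) (wQ f1) (iQ f1) (mkQ f1 f2) (mkQ f1 f3) b where
  toGT := hnp.gt
  hb := hb4
  φ2_mem := mem_QDt.2 ⟨f2, h.h2, rfl⟩
  φ3_mem := mem_QDt.2 ⟨f3, h.h3, rfl⟩
  nzd2 := by
    intro D a ha h0
    obtain ⟨a', -, rfl⟩ := mem_QDt.1 ha
    rw [← map_mul, mkQ_eq_zero] at h0
    exact mkQ_eq_zero.2 (h.reg.reg2 _ h0)
  nzd3 := by
    intro D a ha h0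
    obtain ⟨a', ha', rfl⟩ := mem_QDt.1 ha
    rw [← map_mul, mkQ_eq_zero] at h0
    exact mkQ_eq_zero.2 (h.reg3_hom D ha' h0)
  fill := by
    intro x hx
    obtain ⟨p, hp, rfl⟩ := mem_QDt.1 hx
    obtain ⟨u, v, t, hu, hv, ht, e⟩ := h.Fid_repr (h.H_mem_high (by omega) hp) hp
    rw [Hz_of_le (by omega), show b + (b + 1) - b = b + 1 by omega] at hv ht
    refine ⟨mkQ f1 v, mem_QDt.2 ⟨v, hv, rfl⟩, mkQ f1 t, mem_QDt.2 ⟨t, ht, rfl⟩, ?_⟩
    have hmk : mkQ f1 f1 = 0 := mkQ_eq_zero.2 (Ideal.mem_span_singleton_self _)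
    rw [e]
    simp only [map_add, map_mul, hmk, zero_mul, zero_add]
  c1 := by
    intro e g he hg hg0 h2 h3
    obtain ⟨g', hg', rfl⟩ := mem_QDt.1 hg
    obtain ⟨y, z, e2⟩ := mem_span_of_mk h2
    obtain ⟨y', z', e3⟩ := mem_span_of_mk h3
    have hne : g' ≠ 0 := by
      rintro rfl
      exact hg0 (map_zero _)
    exact h.obstruct (p := f1) (p' := g') h.h1 hg' h.reg.ne (by omega) he
      (Ideal.subset_span (by simp))
      (Ideal.mem_span_pair.2 ⟨z, y, by rw [e2]; ring⟩)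
      (Ideal.mem_span_pair.2 ⟨z', y', by rw [e3]; ring⟩)
  c2 := by
    intro e e' g v α β he' hg hg0 hab hv h2 h3
    obtain ⟨g', hg', rfl⟩ := mem_QDt.1 hg
    obtain ⟨v', hv', rfl⟩ := mem_QDt.1 hv
    have hn : g' ∉ Ideal.span {f1} := fun hh => hg0 (mkQ_eq_zero.2 hh)
    obtain ⟨l, h₂, y₀, hh2, hh0, ef, eg⟩ := hnp.eig_factor hg' hn hab
    obtain ⟨A, B, z, e2⟩ := mem_span2_of_mk h2
    obtain ⟨A', B', z', e3⟩ := mem_span2_of_mk h3
    exact h.obstruct (p := h₂) (p' := v') hh2 hv' hh0 (by omega) he'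
      (Ideal.mem_span_pair.2 ⟨l, 0, by rw [ef]; ring⟩)
      (Ideal.mem_span_pair.2 ⟨A * y₀ + z * l, B, by rw [e2, eg, ef]; ring⟩)
      (Ideal.mem_span_pair.2 ⟨A' * y₀ + z' * l, B', by rw [e3, eg, ef]; ring⟩)
  cubic := hnp.cubicQ

end Vale.Agent.P200b
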