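import Vale.Agent.Lib.P200b.Abstract2

/-!
# P200 family: the main step, growth from degree `b - 1` to degree `b`
-/

open Module MvPolynomial

namespace Vale.Agent.P200b

variable {K : Type*} [Field K] {Q : Type*} [CommRing Q] [Algebra K Q]
variable {QD : ℕ → Submodule K Q} {m1 m2 w : Q} {ι : R2 K →ₐ[K] Q}

/-! ### linear algebra helpers -/

theorem finrank_sup_singleton_le {A : Submodule K Q} [FiniteDimensional K A] (y : Q) :
    finrank K ↥(A ⊔ Submodule.span K {y}) ≤ finrank K A + 1 := by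
  have h := Submodule.finrank_sup_add_finrank_inf_eq A (Submodule.span K {y})
  have h1 : finrank K (Submodule.span K {y}) ≤ 1 := by
    simpa using finrank_span_le_card (R := K) ({y} : Set Q)
  omega

theorem finrank_sup_singleton {A : Submodule K Q} [FiniteDimensional K A] {y : Q} (hy : y ∉ A) :
    finrank K ↥(A ⊔ Submodule.span K {y}) = finrank K A + 1 := by
  have h := Submodule.finrank_sup_add_finrank_inf_eq A (Submodule.span K {y})
  have hy0 : y ≠ 0 := by
    rintro rfl
    exact hy (zero_mem _)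
  have h1 : finrank K (Submodule.span K {y}) = 1 := finrank_span_singleton hy0
  have h2 : A ⊓ Submodule.span K {y} = ⊥ := by
    rw [eq_bot_iff]
    rintro x ⟨hx, hx'⟩
    obtain ⟨c, rfl⟩ := Submodule.mem_span_singleton.1 hx'
    by_cases hc : c = 0
    · simp [hc]
    · exfalso
      apply hy
      have := Submodule.smul_mem A c⁻¹ hx
      rwa [smul_smul, inv_mul_cancel₀ hc, one_smul] at this
  rw [h2, finrank_bot] at h
  omega

theorem mem_sup_singleton {A : Submodule K Q} {y x : Q} :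
    x ∈ A ⊔ Submodule.span K {y} ↔ ∃ c : K, x - c • y ∈ A := by
  constructor
  · intro hx
    obtain ⟨a, ha, _, hb, rfl⟩ := Submodule.mem_sup.1 hx
    obtain ⟨c, rfl⟩ := Submodule.mem_span_singleton.1 hb
    exact ⟨c, by simpa using ha⟩
  · rintro ⟨c, hc⟩
    have : x = (x - c • y) + c • y := by abel
    rw [this]
    exact add_mem (Submodule.mem_sup_left hc)
      (Submodule.mem_sup_right (Submodule.smul_mem _ _ (Submodule.mem_span_singleton_self y)))

/-- `w` moves `D2`. -/
theorem w_D2 {X Y : Submodule K Q} (h : ∀ a ∈ X, w * a ∈ Y) {x : Q} (hx : x ∈ D2 m1 m2 X) :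
    w * x ∈ D2 m1 m2 Y := by
  obtain ⟨a, ha, c, hc, rfl⟩ := mem_D2.1 hx
  have e : w * (m1 * a + m2 * c) = m1 * (w * a) + m2 * (w * c) := by ring
  rw [e]
  exact add_mem (mul_mem_D2_left (h a ha)) (mul_mem_D2_right (h c hc))

/-- A sequence of subspaces closed under the variables is closed under `QD`. -/
theorem GT.seq_stable (h : GT QD m1 m2 w ι) {Z : ℕ → Submodule K Q}
    (h1 : ∀ i, ∀ a ∈ Z i, m1 * a ∈ Z (i + 1)) (h2 : ∀ i, ∀ a ∈ Z i, m2 * a ∈ Z (i + 1))
    (h3 : ∀ i, ∀ a ∈ Z i, w * a ∈ Z (i + 1)) (j : ℕ) :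
    ∀ {i : ℕ} {x z : Q}, x ∈ QD j → z ∈ Z i → x * z ∈ Z (i + j) := by
  induction j with
  | zero =>
    intro i x z hx hz
    obtain ⟨c, rfl⟩ := h.qd0 hx
    have : c • (1 : Q) * z = c • z := by rw [smul_mul_assoc, one_mul]
    rw [this]
    exact Submodule.smul_mem _ _ hz
  | succ j ih =>
    intro i x z hx hz
    obtain ⟨a, ha, c, hc, e, he, rfl⟩ := h.gen hx
    have e1 : (m1 * a + m2 * c + w * e) * z = m1 * (a * z) + m2 * (c * z) + w * (e * z) := by ring
    rw [e1]
    exact add_mem (add_mem (h1 _ _ (ih ha hz)) (h2 _ _ (ih hc hz))) (h3 _ _ (ih he hz))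

theorem iterD2_mono {X Y : Submodule K Q} (hXY : X ≤ Y) (k : ℕ) :
    iterD2 m1 m2 X k ≤ iterD2 m1 m2 Y k := by
  induction k with
  | zero => exact hXY
  | succ k ih => exact D2_mono ih

/-- A binary form of degree `k` times an element of `X` lies in the `k`-th iterate. -/
theorem GT.hom_mem (h : GT QD m1 m2 w ι) {X : Submodule K Q} {x : Q} (hx : x ∈ X) {k : ℕ}
    {t : R2 K} (ht : t.IsHomogeneous k) : ι t * x ∈ iterD2 m1 m2 X k := by
  classical
  have hmono : ∀ (a b : ℕ), m1 ^ a * (m2 ^ b * x) ∈ iterD2 m1 m2 X (a + b) := by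
    intro a b
    induction a with
    | zero =>
      induction b with
      | zero => simpa [iterD2] using hx
      | succ b ih =>
        have : (m1 ^ 0 * (m2 ^ (b + 1) * x)) = m2 * (m1 ^ 0 * (m2 ^ b * x)) := by ring
        rw [this]
        exact mul_mem_D2_right ih
    | succ a ih =>
      have : (m1 ^ (a + 1) * (m2 ^ b * x)) = m1 * (m1 ^ a * (m2 ^ b * x)) := by ring
      rw [this, show a + 1 + b = (a + b) + 1 by omega]
      exact mul_mem_D2_left ih
  rw [t.as_sum, map_sum, Finset.sum_mul]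
  refine Submodule.sum_mem _ fun m hm => ?_
  have hm2 : m 0 + m 1 = k := by
    have := ht (MvPolynomial.mem_support_iff.1 hm)
    simpa [Finsupp.degree_eq_sum, Finsupp.weight_apply, Finsupp.sum_fintype, Fin.sum_univ_two]
      using this
  have e : (monomial m (coeff m t) : R2 K) =
      C (coeff m t) * (MvPolynomial.X 0 ^ m 0 * MvPolynomial.X 1 ^ m 1) := by
    rw [monomial_eq, Finsupp.prod_fintype _ _ (by simp), Fin.prod_univ_two]
  rw [e, map_mul, map_mul, map_pow, map_pow, h.ι0, h.ι1, ← algebraMap_eq, AlgHom.commutes]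
  have e2 : algebraMap K Q (coeff m t) * (m1 ^ m 0 * m2 ^ m 1) * x =
      (coeff m t) • (m1 ^ m 0 * (m2 ^ m 1 * x)) := by
    rw [Algebra.smul_def]; ring
  rw [e2, ← hm2]
  exact Submodule.smul_mem _ _ (hmono _ _)

theorem GT.pow_mem_Bg (h : GT QD m1 m2 w ι) {g : Q} (k : ℕ) (i : Fin 2) :
    ι (X i ^ k) * g ∈ Bg (K := K) m1 m2 g k :=
  h.hom_mem (Submodule.mem_span_singleton_self g) (isHomogeneous_X_pow i k)

/-! ### the stable case -/

theorem iterD2_w {V : Submodule K Q} (hw : ∀ v ∈ V, w * v ∈ D2 m1 m2 V) (i : ℕ) :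
    ∀ n ∈ iterD2 m1 m2 V (i + 1), w * n ∈ iterD2 m1 m2 V (i + 2) := by
  induction i with
  | zero =>
    intro n hn
    exact w_D2 hw hn
  | succ i ih =>
    intro n hn
    exact w_D2 ih hn

/-- The stable sequence. -/
theorem GT.stable_mul (h : GT QD m1 m2 w ι) {V : Submodule K Q}
    (hw : ∀ v ∈ V, w * v ∈ D2 m1 m2 V) {i j : ℕ} {x z : Q} (hx : x ∈ QD j)
    (hz : z ∈ iterD2 m1 m2 V (i + 1)) : x * z ∈ iterD2 m1 m2 V (i + j + 1) :=
  h.seq_stable (Z := fun i => iterD2 m1 m2 V (i + 1))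
    (fun _ _ ha => mul_mem_D2_left ha) (fun _ _ ha => mul_mem_D2_right ha)
    (fun i a ha => iterD2_w hw i a ha) j hx hz

/-- **Case A1**: if `w V ⊂ D2 V`, the forms `φ2, φ3` lie in `D2 V`, and `dim D2 V ≤ q + 3`, then
`3 d ≤ q`. -/
theorem GT.caseA1 (h : GT QD m1 m2 w ι) {φ2 φ3 : Q} {b d : ℕ} (hdb : d + 1 = b)
    (fill : ∀ {x}, x ∈ QD (b + (b + 1)) → ∃ y ∈ QD (b + 1), ∃ z ∈ QD (b + 1), x = φ2 * y + φ3 * z)
    {V : Submodule K Q} (hV : V ≤ QD d) (hw : ∀ v ∈ V, w * v ∈ D2 m1 m2 V)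
    (h2 : φ2 ∈ D2 m1 m2 V) (h3 : φ3 ∈ D2 m1 m2 V)
    (ha : finrank K (D2 m1 m2 V) ≤ finrank K V + 3) : 3 * d ≤ finrank K V := by
  have hle : QD (b + (b + 1)) ≤ iterD2 m1 m2 V (b + 1 + 1) := by
    intro x hx
    obtain ⟨y, hy, z, hz, rfl⟩ := fill hx
    have m2' : y * φ2 ∈ iterD2 m1 m2 V (0 + (b + 1) + 1) := h.stable_mul hw hy h2
    have m3' : z * φ3 ∈ iterD2 m1 m2 V (0 + (b + 1) + 1) := h.stable_mul hw hz h3
    rw [zero_add] at m2' m3'
    rw [mul_comm φ2, mul_comm φ3]
    exact add_mem m2' m3'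
  have hfd := h.fd_of_le (h.iterD2_le hV (b + 1 + 1))
  have h1 := Submodule.finrank_mono hle
  have h4 := h.iterD2_bound hV ha (b + 1 + 1)
  have h5 := h.dimS (b + b)
  rw [show b + b + 1 = b + (b + 1) by omega] at h5
  rw [h5] at h1
  have : 3 * (b + 1 + 1) = 3 * b + 6 := by ring
  omega

/-- **Case A2**: if `w V ⊂ D2 V`, the forms `φ2, φ3` lie in `D2 V + K φ`, with `φ` a non zero
divisor, then `dim D2 V ≥ q + 3`. -/
theorem GT.caseA2 (h : GT QD m1 m2 w ι) {φ2 φ3 φ : Q} {b d : ℕ} (hdb : d + 1 = b)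
    (fill : ∀ {x}, x ∈ QD (b + (b + 1)) → ∃ y ∈ QD (b + 1), ∃ z ∈ QD (b + 1), x = φ2 * y + φ3 * z)
    (hφ : φ ∈ QD b) (nzd : ∀ {D a}, a ∈ QD D → φ * a = 0 → a = 0)
    {V : Submodule K Q} (hV : V ≤ QD d) (hw : ∀ v ∈ V, w * v ∈ D2 m1 m2 V)
    (h2 : φ2 ∈ D2 m1 m2 V ⊔ Submodule.span K {φ}) (h3 : φ3 ∈ D2 m1 m2 V ⊔ Submodule.span K {φ})
    (ha : finrank K (D2 m1 m2 V) ≤ finrank K V + 2) (hb0 : 1 ≤ b) : False := by
  set N := iterD2 m1 m2 V (b + 1 + 1) with hN
  set N' := iterD2 m1 m2 V 2 with hN'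
  have hfdN := h.fd_of_le (h.iterD2_le hV (b + 1 + 1))
  have hfdN' := h.fd_of_le (h.iterD2_le hV 2)
  have hfdQ := h.fd (b + 1)
  set P : Submodule K Q := (QD (b + 1)).map (LinearMap.mulLeft K φ) with hP
  have hfdP : FiniteDimensional K P := inferInstance
  have hPdim : finrank K P = 3 * (b + 1) := by
    rw [hP, finrank_map_mul (fun a ha h0 => nzd ha h0), h.dimS]
  have hall : QD (b + (b + 1)) ≤ N ⊔ P := by
    intro x hx
    obtain ⟨y, hy, z, hz, rfl⟩ := fill hx
    obtain ⟨c2, hc2⟩ := mem_sup_singleton.1 h2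
    obtain ⟨c3, hc3⟩ := mem_sup_singleton.1 h3
    have m2' : y * (φ2 - c2 • φ) ∈ iterD2 m1 m2 V (0 + (b + 1) + 1) := h.stable_mul hw hy hc2
    have m3' : z * (φ3 - c3 • φ) ∈ iterD2 m1 m2 V (0 + (b + 1) + 1) := h.stable_mul hw hz hc3
    rw [zero_add] at m2' m3'
    have e : φ2 * y + φ3 * z = (y * (φ2 - c2 • φ) + z * (φ3 - c3 • φ)) +
        φ * (c2 • y + c3 • z) := by
      simp only [Algebra.smul_def]; ring
    rw [e]
    exact add_mem (Submodule.mem_sup_left (add_mem m2' m3'))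
      (Submodule.mem_sup_right ⟨_, add_mem (Submodule.smul_mem _ _ hy) (Submodule.smul_mem _ _ hz), rfl⟩)
  have hinf : N'.map (LinearMap.mulLeft K φ) ≤ N ⊓ P := by
    rintro _ ⟨n, hn, rfl⟩
    refine ⟨?_, ?_⟩
    · have : φ * n ∈ iterD2 m1 m2 V (1 + b + 1) := h.stable_mul (i := 1) hw hφ hn
      rw [show 1 + b + 1 = b + 1 + 1 by omega] at this
      exact this
    · refine ⟨n, ?_, rfl⟩
      have := h.iterD2_le hV 2 hn
      rwa [show d + 2 = b + 1 by omega] at this
  have hN'Q : N' ≤ QD (b + 1) := by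
    have := h.iterD2_le hV 2
    rwa [show d + 2 = b + 1 by omega] at this
  have h1 := Submodule.finrank_mono hall
  have h5 := h.dimS (b + b)
  rw [show b + b + 1 = b + (b + 1) by omega] at h5
  rw [h5] at h1
  have h6 := Submodule.finrank_sup_add_finrank_inf_eq N P
  have h7 := Submodule.finrank_mono hinf
  rw [finrank_map_mul (fun a ha h0 => nzd (hN'Q ha) h0)] at h7
  have h8 := h.iterD2_diff hV ha 2 b
  rw [show 2 + b = b + 1 + 1 by omega] at h8
  change finrank K N ≤ finrank K N' + 2 * b at h8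
  omega

/-! ### minimal growth and `w` not stable -/

/-- **Case B1**: `dim D2 V = q + 1`, `w V ⊄ D2 V`. -/
theorem GT.caseB1 (h : GT QD m1 m2 w ι) {d : ℕ} {V : Submodule K Q} (hV : V ≤ QD d)
    (hq : 1 ≤ finrank K V) (ha : finrank K (D2 m1 m2 V) = finrank K V + 1)
    (hnot : ¬ ∀ v ∈ V, w * v ∈ D2 m1 m2 V) :
    2 * finrank K V + 1 ≤ finrank K (MM m1 m2 w V) := by
  obtain ⟨n, hn⟩ : ∃ n, finrank K V = n + 1 := ⟨finrank K V - 1, by omega⟩
  obtain ⟨e, g, he, hg, hg0, hVg⟩ := h.L2 n hV hn (by omega)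
  have key : ∀ v ∈ V, w * v ∈ D2 m1 m2 V → v = 0 := by
    intro v hv hwv
    by_contra hv0
    apply hnot
    rw [hVg] at hv hwv ⊢
    obtain ⟨α, β, hab⟩ := h.eigen_of_mem hg0 hv hv0 hwv
    exact fun u hu => h.stable_of_eigen hab hu
  have hfd1 := h.fd_of_le (h.D2_le_QD hV)
  have hfd2 := h.fd_of_le hV
  have hsum := Submodule.finrank_sup_add_finrank_inf_eq (D2 m1 m2 V) (V.map (LinearMap.mulLeft K w))
  have hinf : D2 m1 m2 V ⊓ V.map (LinearMap.mulLeft K w) = ⊥ := by
    rw [eq_bot_iff]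
    rintro x ⟨hx, v, hv, rfl⟩
    simp only [LinearMap.mulLeft_apply] at hx
    rw [Submodule.mem_bot, LinearMap.mulLeft_apply, key v hv hx, mul_zero]
  rw [hinf, finrank_bot, finrank_map_mul (fun a ha h0 => key a ha (by rw [h0]; exact zero_mem _)),
    add_zero] at hsum
  have : finrank K (MM m1 m2 w V) =
      finrank K ↥(D2 m1 m2 V ⊔ V.map (LinearMap.mulLeft K w)) := rfl
  omega

/-! ### slope two -/

/-- The key step for the slope: one more generator, killed by a linear form modulo the second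
iterate, does not increase the slope. -/
theorem GT.kappa_step (h : GT QD m1 m2 w ι) {D : ℕ} {X : Submodule K Q} (hX : X ≤ QD D) {y : Q}
    (hy : y ∈ QD (D + 1)) (hκ : finrank K (D2 m1 m2 X) ≤ finrank K X + 2) {α β : K}
    (hne : α ≠ 0 ∨ β ≠ 0) (hℓ : (α • m1 + β • m2) * y ∈ D2 m1 m2 (D2 m1 m2 X)) :
    finrank K (D2 m1 m2 (D2 m1 m2 X ⊔ Submodule.span K {y})) ≤
      finrank K ↥(D2 m1 m2 X ⊔ Submodule.span K {y}) + 2 := by
  have hX1 := h.D2_le_QD hX
  have hX2 := h.D2_le_QD hX1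
  have hfdX := h.fd_of_le hX
  have hfd1 := h.fd_of_le hX1
  have hfd2 := h.fd_of_le hX2
  have hconc := h.concave hX
  by_cases hyX : y ∈ D2 m1 m2 X
  · have e : D2 m1 m2 X ⊔ Submodule.span K {y} = D2 m1 m2 X :=
      sup_eq_left.2 ((Submodule.span_singleton_le_iff_mem _ _).2 hyX)
    rw [e]
    omega
  · rw [finrank_sup_singleton hyX]
    have hYle : D2 m1 m2 X ⊔ Submodule.span K {y} ≤ QD (D + 1) :=
      sup_le hX1 ((Submodule.span_singleton_le_iff_mem _ _).2 hy)
    -- the bound for `D2 Y`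
    have hbound : ∃ z, D2 m1 m2 (D2 m1 m2 X ⊔ Submodule.span K {y}) ≤
        D2 m1 m2 (D2 m1 m2 X) ⊔ Submodule.span K {z} := by
      have hm1 : ∀ a ∈ D2 m1 m2 X ⊔ Submodule.span K {y}, ∃ n ∈ D2 m1 m2 (D2 m1 m2 X), ∃ c : K,
          m1 * a = n + c • (m1 * y) ∧ m2 * a = (m2 * (a - c • y) + c • (m2 * y)) ∧
          m2 * (a - c • y) ∈ D2 m1 m2 (D2 m1 m2 X) := by
        intro a ha
        obtain ⟨c, hc⟩ := mem_sup_singleton.1 ha
        refine ⟨m1 * (a - c • y), mul_mem_D2_left hc, c, ?_, ?_, mul_mem_D2_right hc⟩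
        · simp only [Algebra.smul_def]; ring
        · simp only [Algebra.smul_def]; ring
      rcases hne with hα | hβ
      · -- `m1 y` is a combination of `m2 y` and `ℓ y`
        refine ⟨m2 * y, D2_le ?_ ?_⟩
        · intro a ha
          obtain ⟨c, hc⟩ := mem_sup_singleton.1 ha
          have e : m1 * a = m1 * (a - c • y) + (c / α) • ((α • m1 + β • m2) * y) +
              (-(c / α * β)) • (m2 * y) := by
            have hαα : (c / α) * α = c := by field_simp
            simp only [Algebra.smul_def, map_neg, map_mul]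
            have e3 : algebraMap K Q (c / α) * algebraMap K Q α = algebraMap K Q c := by
              rw [← map_mul, hαα]
            linear_combination (-(m1 * y)) * e3
          rw [e]
          exact add_mem (add_mem (Submodule.mem_sup_left (mul_mem_D2_left hc))
            (Submodule.mem_sup_left (Submodule.smul_mem _ _ hℓ)))
            (Submodule.mem_sup_right (Submodule.smul_mem _ _ (Submodule.mem_span_singleton_self _)))
        · intro a ha
          obtain ⟨c, hc⟩ := mem_sup_singleton.1 ha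
          have e : m2 * a = m2 * (a - c • y) + c • (m2 * y) := by
            simp only [Algebra.smul_def]; ring
          rw [e]
          exact add_mem (Submodule.mem_sup_left (mul_mem_D2_right hc))
            (Submodule.mem_sup_right (Submodule.smul_mem _ _ (Submodule.mem_span_singleton_self _)))
      · refine ⟨m1 * y, D2_le ?_ ?_⟩
        · intro a ha
          obtain ⟨c, hc⟩ := mem_sup_singleton.1 ha
          have e : m1 * a = m1 * (a - c • y) + c • (m1 * y) := by
            simp only [Algebra.smul_def]; ring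
          rw [e]
          exact add_mem (Submodule.mem_sup_left (mul_mem_D2_left hc))
            (Submodule.mem_sup_right (Submodule.smul_mem _ _ (Submodule.mem_span_singleton_self _)))
        · intro a ha
          obtain ⟨c, hc⟩ := mem_sup_singleton.1 ha
          have e : m2 * a = m2 * (a - c • y) + (c / β) • ((α • m1 + β • m2) * y) +
              (-(c / β * α)) • (m1 * y) := by
            have hββ : (c / β) * β = c := by field_simp
            simp only [Algebra.smul_def, map_neg, map_mul]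
            have e3 : algebraMap K Q (c / β) * algebraMap K Q β = algebraMap K Q c := by
              rw [← map_mul, hββ]
            linear_combination (-(m2 * y)) * e3
          rw [e]
          exact add_mem (add_mem (Submodule.mem_sup_left (mul_mem_D2_right hc))
            (Submodule.mem_sup_left (Submodule.smul_mem _ _ hℓ)))
            (Submodule.mem_sup_right (Submodule.smul_mem _ _ (Submodule.mem_span_singleton_self _)))
    obtain ⟨z, hz⟩ := hbound
    have hfd3 : FiniteDimensional K ↥(D2 m1 m2 (D2 m1 m2 X) ⊔ Submodule.span K {z}) := inferInstance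
    have h1 := Submodule.finrank_mono hz
    have h2 := finrank_sup_singleton_le (A := D2 m1 m2 (D2 m1 m2 X)) z
    omega

end Vale.Agent.P200b
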