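import Vale.Agent.Lib.P200b.MainStep

/-!
# P200 family: the main step, growth from degree `b - 1` to degree `b`, continued
-/

open Module MvPolynomial

namespace Vale.Agent.P200b

variable {K : Type*} [Field K] {Q : Type*} [CommRing Q] [Algebra K Q]
variable {QD : ℕ → Submodule K Q} {m1 m2 w : Q} {ι : R2 K →ₐ[K] Q}

/-- The cubic relation of `w` over `K[m1, m2]`. -/
def CubicRel (w : Q) (ι : R2 K →ₐ[K] Q) : Prop :=
  ∃ c₁ c₂ c₃ : R2 K, c₁.IsHomogeneous 1 ∧ c₂.IsHomogeneous 2 ∧ c₃.IsHomogeneous 3 ∧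
    w ^ 3 + ι c₁ * w ^ 2 + ι c₂ * w + ι c₃ = 0

/-- The ideal generated by `V` in successive degrees. -/
noncomputable def Tp (m1 m2 w v₁ : Q) (V : Submodule K Q) : ℕ → Submodule K Q
  | 0 => V
  | j + 1 => D2 m1 m2 (Tp m1 m2 w v₁ V j) ⊔ Submodule.span K {w ^ (j + 1) * v₁}

/-- **Slope two**. -/
theorem GT.slope2 (h : GT QD m1 m2 w ι) (cubic : CubicRel w ι) {d : ℕ}
    {V V₀ : Submodule K Q} {v₁ : Q} (hV : V ≤ QD d) (hv₁ : v₁ ∈ V)
    (hdec : ∀ v ∈ V, ∃ c : K, v - c • v₁ ∈ V₀)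
    (hwV₀ : ∀ v ∈ V₀, w * v ∈ D2 m1 m2 V)
    {α β : K} (hne : α ≠ 0 ∨ β ≠ 0) (hℓ : (α • m1 + β • m2) * v₁ ∈ D2 m1 m2 V₀)
    (ha : finrank K (D2 m1 m2 V) ≤ finrank K V + 2)
    {φ : Q} (hφ : φ ∈ MM m1 m2 w V) (nzd : ∀ {D a}, a ∈ QD D → φ * a = 0 → a = 0) : False := by
  set T := Tp m1 m2 w v₁ V with hT
  have T0 : T 0 = V := rfl
  have Tsucc : ∀ j, T (j + 1) = D2 m1 m2 (T j) ⊔ Submodule.span K {w ^ (j + 1) * v₁} := fun j => rfl
  have hyQ : ∀ j, w ^ j * v₁ ∈ QD (d + j) := by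
    intro j
    induction j with
    | zero => simpa using hV hv₁
    | succ j ih =>
      rw [pow_succ', mul_assoc]
      exact h.w_mem ih
  have hTQ : ∀ j, T j ≤ QD (d + j) := by
    intro j
    induction j with
    | zero => exact hV
    | succ j ih =>
      rw [Tsucc]
      exact sup_le (h.D2_le_QD ih) ((Submodule.span_singleton_le_iff_mem _ _).2 (hyQ _))
  have hfdT : ∀ j, FiniteDimensional K (T j) := fun j => h.fd_of_le (hTQ j)
  have hD2T : ∀ j, D2 m1 m2 (T j) ≤ T (j + 1) := fun j => by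
    rw [Tsucc]; exact le_sup_left
  have hyT : ∀ j, w ^ (j + 1) * v₁ ∈ T (j + 1) := fun j => by
    rw [Tsucc]
    exact Submodule.mem_sup_right (Submodule.mem_span_singleton_self _)
  -- `w` moves `T`
  have hwT : ∀ j, ∀ a ∈ T j, w * a ∈ T (j + 1) := by
    intro j
    induction j with
    | zero =>
      intro a ha'
      obtain ⟨c, hc⟩ := hdec a ha'
      have e : w * a = w * (a - c • v₁) + c • (w ^ (0 + 1) * v₁) := by
        simp only [Algebra.smul_def]; ring
      rw [e]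
      exact add_mem (hD2T 0 (hwV₀ _ hc)) (Submodule.smul_mem _ _ (hyT 0))
    | succ j ih =>
      intro a ha'
      rw [Tsucc] at ha'
      obtain ⟨c, hc⟩ := mem_sup_singleton.1 ha'
      have e : w * a = w * (a - c • (w ^ (j + 1) * v₁)) + c • (w ^ (j + 1 + 1) * v₁) := by
        simp only [Algebra.smul_def]; ring
      rw [e]
      exact add_mem (hD2T _ (w_D2 ih hc)) (Submodule.smul_mem _ _ (hyT _))
  -- powers of `w` on `D2 V₀`
  have hpow : ∀ j, ∀ x ∈ D2 m1 m2 V₀, w ^ (j + 1) * x ∈ D2 m1 m2 (D2 m1 m2 (T j)) := by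
    intro j
    induction j with
    | zero =>
      intro x hx
      rw [zero_add, pow_one]
      exact w_D2 hwV₀ hx
    | succ j ih =>
      intro x hx
      rw [pow_succ', mul_assoc]
      exact w_D2 (fun a ha' => w_D2 (hwT j) ha') (ih x hx)
  -- the slope
  have hκ : ∀ j, finrank K (D2 m1 m2 (T j)) ≤ finrank K (T j) + 2 := by
    intro j
    induction j with
    | zero => exact ha
    | succ j ih =>
      rw [Tsucc]
      refine h.kappa_step (hTQ j) ?_ ih hne ?_
      · have := hyQ (j + 1)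
        rwa [show d + (j + 1) = d + j + 1 by omega] at this
      · have e : (α • m1 + β • m2) * (w ^ (j + 1) * v₁) =
            w ^ (j + 1) * ((α • m1 + β • m2) * v₁) := by ring
        rw [e]
        exact hpow j _ hℓ
  -- after three steps no new generators
  obtain ⟨c₁, c₂, c₃, hc₁, hc₂, hc₃, hcub⟩ := cubic
  have hy3 : ∀ j, w ^ (j + 3 + 1) * v₁ ∈ D2 m1 m2 (T (j + 3)) := by
    intro j
    have e : w ^ (j + 3 + 1) * v₁ = -(ι c₁ * (w ^ (j + 2 + 1) * v₁)) - ι c₂ * (w ^ (j + 1 + 1) * v₁) -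
        ι c₃ * (w ^ (j + 1) * v₁) := by
      have : w ^ 3 = -(ι c₁ * w ^ 2) - ι c₂ * w - ι c₃ := by linear_combination hcub
      calc w ^ (j + 3 + 1) * v₁ = w ^ 3 * (w ^ (j + 1) * v₁) := by ring
        _ = _ := by rw [this]; ring
    rw [e]
    have t1 : ι c₁ * (w ^ (j + 2 + 1) * v₁) ∈ D2 m1 m2 (T (j + 3)) :=
      h.hom_mem (k := 1) (hyT (j + 2)) hc₁
    have t2 : ι c₂ * (w ^ (j + 1 + 1) * v₁) ∈ D2 m1 m2 (T (j + 3)) := by
      have : ι c₂ * (w ^ (j + 1 + 1) * v₁) ∈ D2 m1 m2 (D2 m1 m2 (T (j + 2))) :=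
        h.hom_mem (k := 2) (hyT (j + 1)) hc₂
      exact D2_mono (hD2T (j + 2)) this
    have t3 : ι c₃ * (w ^ (j + 1) * v₁) ∈ D2 m1 m2 (T (j + 3)) := by
      have : ι c₃ * (w ^ (j + 1) * v₁) ∈ D2 m1 m2 (D2 m1 m2 (D2 m1 m2 (T (j + 1)))) :=
        h.hom_mem (k := 3) (hyT j) hc₃
      exact D2_mono (hD2T (j + 2)) (D2_mono (D2_mono (hD2T (j + 1))) this)
    exact sub_mem (sub_mem (neg_mem t1) t2) t3
  have hTeq : ∀ j, T (j + 3 + 1) = D2 m1 m2 (T (j + 3)) := by
    intro j
    rw [Tsucc]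
    exact sup_eq_left.2 ((Submodule.span_singleton_le_iff_mem _ _).2 (hy3 j))
  have hdim : ∀ j, finrank K (T (j + 3)) ≤ finrank K (T 3) + 2 * j := by
    intro j
    induction j with
    | zero => simp
    | succ j ih =>
      have e := hκ (j + 3)
      rw [show j + 1 + 3 = j + 3 + 1 by omega, hTeq]
      omega
  -- `φ` generates too much
  have hφ1 : φ ∈ T 1 := by
    have : MM m1 m2 w V ≤ T 1 :=
      MM_le (fun a ha' => hD2T 0 (mul_mem_D2_left ha')) (fun a ha' => hD2T 0 (mul_mem_D2_right ha'))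
        (fun a ha' => hwT 0 a ha')
    exact this hφ
  set C := finrank K (T 3) with hC
  have hle : (QD (C + 1 + 1)).map (LinearMap.mulLeft K φ) ≤ T (C + 3) := by
    rintro _ ⟨x, hx, rfl⟩
    have := h.seq_stable (Z := T) (fun i a ha' => hD2T i (mul_mem_D2_left ha'))
      (fun i a ha' => hD2T i (mul_mem_D2_right ha')) hwT (C + 2) (i := 1) hx hφ1
    rw [show 1 + (C + 2) = C + 3 by omega, mul_comm] at this
    exact this
  have := h.fd (C + 1 + 1)
  have h1 := Submodule.finrank_mono hle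
  rw [finrank_map_mul (fun a ha' h0 => nzd ha' h0), h.dimS (C + 1)] at h1
  have h2 := hdim C
  omega

/-- The standing hypotheses of the main step. -/
structure MS (QD : ℕ → Submodule K Q) (m1 m2 w : Q) (ι : R2 K →ₐ[K] Q) (φ2 φ3 : Q) (b : ℕ) : Prop
    extends GT QD m1 m2 w ι where
  hb : 4 ≤ b
  φ2_mem : φ2 ∈ QD b
  φ3_mem : φ3 ∈ QD b
  nzd2 : ∀ {D a}, a ∈ QD D → φ2 * a = 0 → a = 0
  nzd3 : ∀ {D a}, a ∈ QD D → φ3 * a = 0 → a = 0
  fill : ∀ {x}, x ∈ QD (b + (b + 1)) → ∃ y ∈ QD (b + 1), ∃ z ∈ QD (b + 1), x = φ2 * y + φ3 * z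
  c1 : ∀ {e g}, 1 ≤ e → g ∈ QD e → g ≠ 0 → φ2 ∈ Ideal.span {g} → φ3 ∈ Ideal.span {g} → False
  c2 : ∀ {e e' g v} {α β : K}, 1 ≤ e' → g ∈ QD e → g ≠ 0 → w * g = (α • m1 + β • m2) * g →
    v ∈ QD e' → φ2 ∈ Ideal.span {g, v} → φ3 ∈ Ideal.span {g, v} → False
  cubic : CubicRel w ι

variable {φ2 φ3 : Q} {b : ℕ}

/-- No linear form moves `v₁` into `D2 V₀`. -/
theorem MS.caseB2x0 (h : MS QD m1 m2 w ι φ2 φ3 b) {d : ℕ} {V V₀ : Submodule K Q} {v₁ : Q}
    (hd : 2 ≤ d) (hV : V ≤ QD d) (hV₀ : V₀ ≤ V) (hv₁ : v₁ ∈ V)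
    (hdec : ∀ v ∈ V, ∃ c : K, v - c • v₁ ∈ V₀)
    (hwV₀ : ∀ v ∈ V₀, w * v ∈ D2 m1 m2 V) (hwv₁ : w * v₁ ∉ D2 m1 m2 V)
    (hq : 3 ≤ finrank K V) (hV₀dim : finrank K V₀ + 1 = finrank K V)
    (hno : ∀ α β : K, (α ≠ 0 ∨ β ≠ 0) → (α • m1 + β • m2) * v₁ ∉ D2 m1 m2 V₀)
    (ha : finrank K (D2 m1 m2 V) ≤ finrank K V + 2)
    (hφ2 : φ2 ∈ MM m1 m2 w V) (hφ3 : φ3 ∈ MM m1 m2 w V) : False := by
  have hG := h.toGT
  have hfdV := hG.fd_of_le hV
  have hV₀Q : V₀ ≤ QD d := hV₀.trans hV
  have hfdV₀ := hG.fd_of_le hV₀Q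
  have hfdD2 := hG.fd_of_le (hG.D2_le_QD hV)
  have hfdD20 := hG.fd_of_le (hG.D2_le_QD hV₀Q)
  have hv₁0 : v₁ ≠ 0 := by
    rintro rfl
    apply hwv₁
    rw [mul_zero]
    exact zero_mem _
  -- the dimension of `D2 V₀`
  have hm1 : m1 * v₁ ∉ D2 m1 m2 V₀ := by
    have := hno 1 0 (Or.inl one_ne_zero)
    simpa using this
  have hm2 : m2 * v₁ ∉ D2 m1 m2 V₀ ⊔ Submodule.span K {m1 * v₁} := by
    intro hmem
    obtain ⟨c, hc⟩ := mem_sup_singleton.1 hmem
    apply hno (-c) 1 (Or.inr one_ne_zero)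
    have e : ((-c) • m1 + (1 : K) • m2) * v₁ = m2 * v₁ - c • (m1 * v₁) := by
      simp only [Algebra.smul_def, map_neg, map_one]; ring
    rw [e]
    exact hc
  have hdim2 : finrank K ↥(D2 m1 m2 V₀ ⊔ Submodule.span K {m1 * v₁} ⊔ Submodule.span K {m2 * v₁}) =
      finrank K (D2 m1 m2 V₀) + 2 := by
    rw [finrank_sup_singleton hm2, finrank_sup_singleton hm1]
  have hle2 : D2 m1 m2 V₀ ⊔ Submodule.span K {m1 * v₁} ⊔ Submodule.span K {m2 * v₁} ≤
      D2 m1 m2 V :=
    sup_le (sup_le (D2_mono hV₀) ((Submodule.span_singleton_le_iff_mem _ _).2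
      (mul_mem_D2_left hv₁))) ((Submodule.span_singleton_le_iff_mem _ _).2 (mul_mem_D2_right hv₁))
  have h3 := Submodule.finrank_mono hle2
  have hV₀ne : V₀ ≠ ⊥ := by
    rintro rfl
    rw [finrank_bot] at hV₀dim
    omega
  have hlt := hG.lt_finrank_D2 d hV₀Q hV₀ne
  obtain ⟨k, hk⟩ : ∃ k, finrank K V₀ = k + 1 := ⟨finrank K V₀ - 1, by omega⟩
  have hk1 : 1 ≤ k := by omega
  obtain ⟨e, g, he, hg, hg0, hVg⟩ := hG.L2 k hV₀Q hk (by omega)
  -- decomposition of `D2 V`
  have hdecomp : ∀ y ∈ D2 m1 m2 V, ∃ A : R2 K, A.IsHomogeneous (k + 1) ∧ ∃ α β : K,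
      y = ι A * g + (α • m1 + β • m2) * v₁ := by
    intro y hy
    obtain ⟨a, ha', c, hc, rfl⟩ := mem_D2.1 hy
    obtain ⟨ca, hca⟩ := hdec a ha'
    obtain ⟨cc, hcc⟩ := hdec c hc
    have hmem : m1 * (a - ca • v₁) + m2 * (c - cc • v₁) ∈ Bg (K := K) m1 m2 g (k + 1) := by
      have : m1 * (a - ca • v₁) + m2 * (c - cc • v₁) ∈ D2 m1 m2 V₀ :=
        mem_D2.2 ⟨_, hca, _, hcc, rfl⟩
      rw [hVg] at this
      exact this
    obtain ⟨A, hA, eA⟩ := hG.mem_Bg (k + 1) hmem
    refine ⟨A, hA, ca, cc, ?_⟩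
    rw [← eA]
    simp only [Algebra.smul_def]
    ring
  -- the two elements
  have hx : ∀ i : Fin 2, ι (X i ^ k) * g ∈ V₀ := fun i => by
    rw [hVg]
    exact hG.pow_mem_Bg k i
  obtain ⟨A₁, hA₁, α₁, β₁, E1⟩ := hdecomp _ (hwV₀ _ (hx 0))
  obtain ⟨A₂, hA₂, α₂, β₂, E2⟩ := hdecomp _ (hwV₀ _ (hx 1))
  have hι0 : ι (X 0) = m1 := hG.ι0
  have hι1 : ι (X 1) = m2 := hG.ι1
  -- the linear forms as polynomials
  set L₁ : R2 K := C α₁ * X 0 + C β₁ * X 1 with hL₁
  set L₂ : R2 K := C α₂ * X 0 + C β₂ * X 1 with hL₂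
  have hιC : ∀ c : K, ι (C c) = algebraMap K Q c := fun c => by
    rw [← algebraMap_eq, AlgHom.commutes]
  have hιL₁ : ι L₁ = α₁ • m1 + β₁ • m2 := by
    simp only [hL₁, map_add, map_mul, hιC, hι0, hι1, Algebra.smul_def]
  have hιL₂ : ι L₂ = α₂ • m1 + β₂ • m2 := by
    simp only [hL₂, map_add, map_mul, hιC, hι0, hι1, Algebra.smul_def]
  have hL₁h : L₁.IsHomogeneous 1 := by
    have h0 := (isHomogeneous_C (Fin 2) α₁).mul (isHomogeneous_X K (0 : Fin 2))
    have h1 := (isHomogeneous_C (Fin 2) β₁).mul (isHomogeneous_X K (1 : Fin 2))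
    rw [zero_add] at h0 h1
    exact h0.add h1
  rw [← hιL₁] at E1
  rw [← hιL₂] at E2
  -- the relation between `g` and `v₁`
  set A : R2 K := X 1 ^ k * A₁ - X 0 ^ k * A₂ with hA
  set B : R2 K := X 0 ^ k * L₂ - X 1 ^ k * L₁ with hB
  have hrel : ι A * g = ι B * v₁ := by
    simp only [hA, hB, map_sub, map_mul, map_pow]
    have e1 : ι (X 1) ^ k * (w * (ι (X 0) ^ k * g)) = ι (X 0) ^ k * (w * (ι (X 1) ^ k * g)) := by
      ring
    rw [map_pow] at E1 E2
    rw [E1, E2] at e1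
    linear_combination e1
  have hAh : A.IsHomogeneous (k + (k + 1)) := by
    exact ((isHomogeneous_X_pow (1 : Fin 2) k).mul hA₁).sub ((isHomogeneous_X_pow (0 : Fin 2) k).mul hA₂)
  have hL₂h : L₂.IsHomogeneous 1 := by
    have h0 := (isHomogeneous_C (Fin 2) α₂).mul (isHomogeneous_X K (0 : Fin 2))
    have h1 := (isHomogeneous_C (Fin 2) β₂).mul (isHomogeneous_X K (1 : Fin 2))
    rw [zero_add] at h0 h1
    exact h0.add h1
  have hBh : B.IsHomogeneous (k + 1) :=
    ((isHomogeneous_X_pow (0 : Fin 2) k).mul hL₂h).sub ((isHomogeneous_X_pow (1 : Fin 2) k).mul hL₁h)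
  have hVideal : ∀ u ∈ V, u ∈ Ideal.span {g, v₁} := by
    intro u hu
    obtain ⟨c, hc⟩ := hdec u hu
    rw [hVg] at hc
    obtain ⟨t, -, et⟩ := hG.mem_Bg k hc
    have e : u = ι t * g + (c • (1 : Q)) * v₁ := by
      rw [← et]
      simp only [Algebra.smul_def]
      ring
    rw [e]
    exact Ideal.mem_span_pair.2 ⟨_, _, rfl⟩
  -- the contradiction from an eigenvector
  have heigen : ∀ α β : K, w * g = (α • m1 + β • m2) * g → False := by
    intro α β hab
    exact h.c2 (e' := d) (by omega) hg hg0 hab (hV hv₁) (MM_le_ideal hVideal hφ2)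
      (MM_le_ideal hVideal hφ3)
  by_cases hA0 : A = 0
  · by_cases hB0 : B = 0
    · -- both vanish
      have evB : ∀ x : Fin 2 → K, eval x B = 0 := fun x => by rw [hB0]; simp
      have e01 := evB ![0, 1]
      have e10 := evB ![1, 0]
      simp only [hB, hL₁, hL₂, map_sub, map_add, map_mul, map_pow, eval_X, eval_C,
        Matrix.cons_val_zero, Matrix.cons_val_one, zero_pow (by omega : k ≠ 0), one_pow,
        mul_zero, mul_one, zero_mul, one_mul, add_zero, zero_add, sub_eq_zero] at e01 e10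
      have hβ₁ : β₁ = 0 := e01.symm
      have hα₂ : α₂ = 0 := e10
      obtain ⟨k', rfl⟩ : ∃ k', k = k' + 1 := ⟨k - 1, by omega⟩
      have hB1 : (X 0 : R2 K) * X 1 * (X 0 ^ k' * C β₂) = X 0 * X 1 * (X 1 ^ k' * C α₁) := by
        have : B = 0 := hB0
        simp only [hB, hL₁, hL₂, hβ₁, hα₂, map_zero, zero_mul, zero_add, add_zero] at this
        linear_combination this
      have hB2 := mul_left_cancel₀ (mul_ne_zero (X_ne_zero (R := K) (0 : Fin 2)) (X_ne_zero (1 : Fin 2))) hB1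
      -- either the first linear form vanishes, or `k = 1`
      by_cases hα₁ : α₁ = 0
      · have hι : ι L₁ = 0 := by
          rw [hιL₁, hα₁, hβ₁]; simp
        rw [hι, zero_mul, add_zero] at E1
        have hinv : ι (X 0 ^ (k' + 1)) * (w * g) = ι A₁ * g := by
          rw [← E1]; ring
        obtain ⟨α, β, hab⟩ := hG.eig (isHomogeneous_X_pow (0 : Fin 2) (k' + 1)) hA₁
          (pow_ne_zero _ (X_ne_zero _)) hg0 hinv
        exact heigen α β hab
      · cases k' with
        | succ k'' =>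
          exfalso
          apply hα₁
          have := congrArg (eval ![0, 1]) hB2
          simpa [eval_X, eval_C] using this.symm
        | zero =>
          -- `k = 1`
          have hd1 : (X 0 : R2 K) ∣ A₁ := by
            have hA' : (X 1 : R2 K) * A₁ = X 0 * A₂ := by
              have : A = 0 := hA0
              simp only [hA, zero_add, pow_one] at this
              linear_combination this
            have hdv : (X 0 : R2 K) ∣ X 1 * A₁ := ⟨A₂, hA'⟩
            rcases (X_prime (R := K) (i := (0 : Fin 2))).dvd_or_dvd hdv with hh | hh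
            · exact absurd (X_dvd_X.1 hh) (by decide)
            · exact hh
          obtain ⟨μ, rfl⟩ := hd1
          -- `w g - μ g = α₁ v₁`
          have hι2 : ι L₁ = α₁ • m1 := by
            rw [hιL₁, hβ₁]; simp
          have e3 : m1 * (w * g - ι μ * g - α₁ • v₁) = 0 := by
            rw [zero_add, pow_one, hι0, hι2] at E1
            rw [map_mul, hι0] at E1
            simp only [Algebra.smul_def] at E1 ⊢
            linear_combination E1
          have e4 := hG.inj1 e3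
          have e5 : v₁ = (α₁⁻¹ • (w - ι μ)) * g := by
            have e6 : α₁ • v₁ = (w - ι μ) * g := by linear_combination -e4
            have : v₁ = α₁⁻¹ • (α₁ • v₁) := by
              rw [smul_smul, inv_mul_cancel₀ hα₁, one_smul]
            rw [this, e6, smul_mul_assoc]
          have hVg2 : ∀ u ∈ V, u ∈ Ideal.span {g} := by
            intro u hu
            refine (Ideal.span_le.2 ?_) (hVideal u hu)
            rintro x (hx | hx)
            · rw [hx]
              exact Ideal.mem_span_singleton_self _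
            · have hx' : x = v₁ := hx
              show x ∈ Ideal.span {g}
              rw [hx', e5]
              exact Ideal.mem_span_singleton'.2 ⟨_, rfl⟩
          exact h.c1 (e := e) (by omega) hg hg0 (MM_le_ideal hVg2 hφ2) (MM_le_ideal hVg2 hφ3)
    · -- `ι B` kills `v₁`
      rw [hA0, map_zero, zero_mul] at hrel
      exact hv₁0 (hG.tf hB0 hrel.symm)
  · by_cases hB0 : B = 0
    · rw [hB0, map_zero, zero_mul] at hrel
      exact hg0 (hG.tf hA0 hrel)
    · -- an eigenvector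
      have hinv : ι (B * X 0 ^ k) * (w * g) = ι (B * A₁ + L₁ * A) * g := by
        have e1 : ι B * (ι (X 0 ^ k) * (w * g)) = ι B * (ι A₁ * g + ι L₁ * v₁) := by
          rw [← E1]; ring
        simp only [map_mul, map_add] at e1 ⊢
        linear_combination e1 - ι L₁ * hrel
      have hh1 : (B * X 0 ^ k).IsHomogeneous (k + 1 + k) := hBh.mul (isHomogeneous_X_pow _ k)
      have hh2 : (B * A₁ + L₁ * A).IsHomogeneous (k + 1 + k + 1) := by
        have t1 := hBh.mul hA₁
        have t2 := hL₁h.mul hAh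
        rw [show k + 1 + (k + 1) = k + 1 + k + 1 by omega] at t1
        rw [show 1 + (k + (k + 1)) = k + 1 + k + 1 by omega] at t2
        exact t1.add t2
      obtain ⟨α, β, hab⟩ := hG.eig hh1 hh2 (mul_ne_zero hB0 (pow_ne_zero _ (X_ne_zero _))) hg0 hinv
      exact heigen α β hab

/-- The case `dim D2 V = q + 2`, `dim M V = q + 3` with `φ2, φ3 ∈ M V` is impossible. -/
theorem MS.caseB2 (h : MS QD m1 m2 w ι φ2 φ3 b) {d : ℕ} {V : Submodule K Q}
    (hd : 2 ≤ d) (hV : V ≤ QD d) (hq : 3 ≤ finrank K V)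
    (ha : finrank K (D2 m1 m2 V) = finrank K V + 2)
    (hnot : ¬ ∀ v ∈ V, w * v ∈ D2 m1 m2 V)
    (hM : finrank K (MM m1 m2 w V) = finrank K V + 3)
    (hφ2 : φ2 ∈ MM m1 m2 w V) (hφ3 : φ3 ∈ MM m1 m2 w V) : False := by
  have hG := h.toGT
  have hfdV := hG.fd_of_le hV
  have hfdD2 := hG.fd_of_le (hG.D2_le_QD hV)
  have hfdM := hG.fd_of_le (hG.MM_le_QD hV)
  push Not at hnot
  obtain ⟨v₁, hv₁, hwv₁⟩ := hnot
  have hle : D2 m1 m2 V ⊔ Submodule.span K {w * v₁} ≤ MM m1 m2 w V :=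
    sup_le (D2_le_MM V) ((Submodule.span_singleton_le_iff_mem _ _).2 (mul_mem_MM_w hv₁))
  have heq : D2 m1 m2 V ⊔ Submodule.span K {w * v₁} = MM m1 m2 w V :=
    Submodule.eq_of_le_of_finrank_le hle (by rw [finrank_sup_singleton hwv₁]; omega)
  set V₀ : Submodule K Q := V ⊓ (D2 m1 m2 V).comap (LinearMap.mulLeft K w) with hV₀
  have hV₀V : V₀ ≤ V := inf_le_left
  have hfdV₀ := hG.fd_of_le (hV₀V.trans hV)
  have hv₁V₀ : v₁ ∉ V₀ := fun hh => hwv₁ hh.2
  have hdec : ∀ v ∈ V, ∃ c : K, v - c • v₁ ∈ V₀ := by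
    intro v hv
    have hm : w * v ∈ D2 m1 m2 V ⊔ Submodule.span K {w * v₁} := by
      rw [heq]
      exact mul_mem_MM_w hv
    obtain ⟨c, hc⟩ := mem_sup_singleton.1 hm
    refine ⟨c, sub_mem hv (Submodule.smul_mem _ _ hv₁), ?_⟩
    show w * (v - c • v₁) ∈ D2 m1 m2 V
    have e : w * (v - c • v₁) = w * v - c • (w * v₁) := by
      simp only [Algebra.smul_def]; ring
    rw [e]
    exact hc
  have hwV₀ : ∀ v ∈ V₀, w * v ∈ D2 m1 m2 V := fun v hv => hv.2
  have hV₀dim : finrank K V₀ + 1 = finrank K V := by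
    have hsup : V₀ ⊔ Submodule.span K {v₁} = V := by
      refine le_antisymm (sup_le hV₀V ((Submodule.span_singleton_le_iff_mem _ _).2 hv₁)) ?_
      intro v hv
      exact mem_sup_singleton.2 (hdec v hv)
    rw [← finrank_sup_singleton hv₁V₀, hsup]
  by_cases hex : ∃ α β : K, (α ≠ 0 ∨ β ≠ 0) ∧ (α • m1 + β • m2) * v₁ ∈ D2 m1 m2 V₀
  · obtain ⟨α, β, hne, hℓ⟩ := hex
    exact hG.slope2 h.cubic hV hv₁ hdec hwV₀ hne hℓ (by omega) hφ2 h.nzd2
  · push Not at hex
    exact h.caseB2x0 hd hV hV₀V hv₁ hdec hwV₀ hwv₁ hq hV₀dim (fun α β hne => hex α β hne)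
      (by omega) hφ2 hφ3

/-- **The main step.** Let `d + 1 = b`, `V ⊂ Q_d` of dimension `q`, `1 ≤ q < 3 d`.
Then `M V + ⟨φ2, φ3⟩` has dimension at least `q + 3`, and at least `q + 4` when `d ≤ q`. -/
theorem MS.main_step (h : MS QD m1 m2 w ι φ2 φ3 b) {d : ℕ} (hdb : d + 1 = b)
    {V : Submodule K Q} (hV : V ≤ QD d) (hq : 1 ≤ finrank K V) (hq2 : finrank K V < 3 * d) :
    finrank K V + 3 ≤ finrank K ↥(MM m1 m2 w V ⊔ Submodule.span K {φ2, φ3}) ∧
      (d ≤ finrank K V →
        finrank K V + 4 ≤ finrank K ↥(MM m1 m2 w V ⊔ Submodule.span K {φ2, φ3})) := by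
  have hG := h.toGT
  have hb4 := h.hb
  have hfdV := hG.fd_of_le hV
  have hD2Q := hG.D2_le_QD hV
  have hMQ := hG.MM_le_QD hV
  have hfdD2 := hG.fd_of_le hD2Q
  have hfdM := hG.fd_of_le hMQ
  have hne : V ≠ ⊥ := by
    rintro rfl
    simp at hq
  have hlt := hG.lt_finrank_D2 d hV hne
  set Tt : Submodule K Q := MM m1 m2 w V ⊔ Submodule.span K {φ2, φ3} with hTt
  have hφ2T : φ2 ∈ Tt := Submodule.mem_sup_right (Submodule.subset_span (by simp))
  have hφ3T : φ3 ∈ Tt := Submodule.mem_sup_right (Submodule.subset_span (by simp))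
  have hMT : MM m1 m2 w V ≤ Tt := le_sup_left
  have hTQ : Tt ≤ QD (d + 1) := by
    refine sup_le hMQ ?_
    refine Submodule.span_le.2 ?_
    rintro x (rfl | hx)
    · rw [hdb]; exact h.φ2_mem
    · rw [hdb]
      have hx' : x = φ3 := hx
      rw [hx']
      exact h.φ3_mem
  have hfdT := hG.fd_of_le hTQ
  have hMT' := Submodule.finrank_mono hMT
  have hD2M := Submodule.finrank_mono (D2_le_MM (m1 := m1) (m2 := m2) (w := w) V)
  -- adding a vector outside `M V` increases the dimension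
  have hout : ∀ y ∈ Tt, y ∉ MM m1 m2 w V →
      finrank K (MM m1 m2 w V) + 1 ≤ finrank K Tt := by
    intro y hyT hy
    have hle : MM m1 m2 w V ⊔ Submodule.span K {y} ≤ Tt :=
      sup_le hMT ((Submodule.span_singleton_le_iff_mem _ _).2 hyT)
    have := Submodule.finrank_mono hle
    rwa [finrank_sup_singleton hy] at this
  have hfill : ∀ {x}, x ∈ QD (b + (b + 1)) → ∃ y ∈ QD (b + 1), ∃ z ∈ QD (b + 1),
      x = φ2 * y + φ3 * z := fun hx => h.fill hx
  by_cases hw : ∀ v ∈ V, w * v ∈ D2 m1 m2 V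
  · -- the stable case
    have hMeq : MM m1 m2 w V = D2 m1 m2 V := by
      refine le_antisymm ?_ (D2_le_MM V)
      refine sup_le le_rfl ?_
      rintro _ ⟨v, hv, rfl⟩
      exact hw v hv
    by_cases h2 : φ2 ∈ D2 m1 m2 V
    · by_cases h3 : φ3 ∈ D2 m1 m2 V
      · -- `e = 0`
        have hbig : finrank K V + 4 ≤ finrank K (D2 m1 m2 V) := by
          by_contra hc
          have := hG.caseA1 hdb hfill hV hw h2 h3 (by omega)
          omega
        have : finrank K (D2 m1 m2 V) ≤ finrank K Tt := by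
          rw [← hMeq]; exact hMT'
        exact ⟨by omega, fun _ => by omega⟩
      · -- `e = 1`
        have hbig : finrank K V + 3 ≤ finrank K (D2 m1 m2 V) := by
          by_contra hc
          exact hG.caseA2 hdb hfill h.φ3_mem h.nzd3 hV hw (Submodule.mem_sup_left h2)
            (Submodule.mem_sup_right (Submodule.mem_span_singleton_self _)) (by omega) (by omega)
        have := hout φ3 hφ3T (by rw [hMeq]; exact h3)
        rw [hMeq] at this
        exact ⟨by omega, fun _ => by omega⟩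
    · have hone := hout φ2 hφ2T (by rw [hMeq]; exact h2)
      rw [hMeq] at hone
      by_cases h3 : φ3 ∈ D2 m1 m2 V ⊔ Submodule.span K {φ2}
      · have hbig : finrank K V + 3 ≤ finrank K (D2 m1 m2 V) := by
          by_contra hc
          exact hG.caseA2 hdb hfill h.φ2_mem h.nzd2 hV hw
            (Submodule.mem_sup_right (Submodule.mem_span_singleton_self _)) h3 (by omega) (by omega)
        exact ⟨by omega, fun _ => by omega⟩
      · -- `e = 2`
        have hle : D2 m1 m2 V ⊔ Submodule.span K {φ2} ⊔ Submodule.span K {φ3} ≤ Tt := by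
          refine sup_le (sup_le ?_ ?_) ?_
          · rw [← hMeq]; exact hMT
          · exact (Submodule.span_singleton_le_iff_mem _ _).2 hφ2T
          · exact (Submodule.span_singleton_le_iff_mem _ _).2 hφ3T
        have h4 := Submodule.finrank_mono hle
        rw [finrank_sup_singleton h3, finrank_sup_singleton h2] at h4
        refine ⟨by omega, fun hdq => ?_⟩
        have : finrank K V + 2 ≤ finrank K (D2 m1 m2 V) := by
          by_contra hc
          have := hG.stable_small hV hq hw (by omega)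
          omega
        omega
  · -- `w` is not stable
    by_cases ha1 : finrank K (D2 m1 m2 V) = finrank K V + 1
    · have hB1 := hG.caseB1 hV hq ha1 hw
      by_cases hq3 : 3 ≤ finrank K V
      · exact ⟨by omega, fun _ => by omega⟩
      · refine ⟨?_, fun hdq => by omega⟩
        by_cases hq2' : finrank K V = 2
        · omega
        · -- `q = 1`
          have hq1 : finrank K V = 1 := by omega
          by_cases hM4 : 4 ≤ finrank K (MM m1 m2 w V)
          · omega
          · by_cases h2 : φ2 ∈ MM m1 m2 w V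
            · by_cases h3 : φ3 ∈ MM m1 m2 w V
              · exfalso
                obtain ⟨g, hg0, hg⟩ := finrank_eq_one_iff'.1 hq1
                have hVg : ∀ u ∈ V, u ∈ Ideal.span {(g : Q)} := by
                  intro u hu
                  obtain ⟨c, hc⟩ := hg ⟨u, hu⟩
                  have e : u = (c • (1 : Q)) * (g : Q) := by
                    have := congrArg Subtype.val hc
                    simp only [SetLike.val_smul] at this
                    rw [smul_mul_assoc, one_mul, this]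
                  rw [e]
                  exact Ideal.mem_span_singleton'.2 ⟨_, rfl⟩
                exact h.c1 (e := d) (by omega) (hV g.2) (fun h0 => hg0 (Subtype.ext h0))
                  (MM_le_ideal hVg h2) (MM_le_ideal hVg h3)
              · have := hout φ3 hφ3T h3
                omega
            · have := hout φ2 hφ2T h2
              omega
    · -- `M V ≥ D2 V + 1`
      have hM1 : finrank K (D2 m1 m2 V) + 1 ≤ finrank K (MM m1 m2 w V) := by
        push Not at hw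
        obtain ⟨v₁, hv₁, hwv₁⟩ := hw
        have hle : D2 m1 m2 V ⊔ Submodule.span K {w * v₁} ≤ MM m1 m2 w V :=
          sup_le (D2_le_MM V) ((Submodule.span_singleton_le_iff_mem _ _).2 (mul_mem_MM_w hv₁))
        have := Submodule.finrank_mono hle
        rwa [finrank_sup_singleton hwv₁] at this
      by_cases ha2 : finrank K (D2 m1 m2 V) = finrank K V + 2
      · refine ⟨by omega, fun hdq => ?_⟩
        by_cases hM4 : finrank K V + 4 ≤ finrank K (MM m1 m2 w V)
        · omega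
        · by_cases h2 : φ2 ∈ MM m1 m2 w V
          · by_cases h3 : φ3 ∈ MM m1 m2 w V
            · exact (h.caseB2 (by omega) hV (by omega) ha2 hw (by omega) h2 h3).elim
            · have := hout φ3 hφ3T h3
              omega
          · have := hout φ2 hφ2T h2
            omega
      · exact ⟨by omega, fun _ => by omega⟩

end Vale.Agent.P200b
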