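import Vale.Agent.Lib.P200b.CI

/-!
# P200 family: the numerical growth function
-/

namespace Vale.Agent.P200b

/-- The growth in one block. -/
def gh (b m t : ℕ) : ℕ :=
  if t = 0 then 0 else if T b m ≤ t then T b (m + 1) else if m + 1 < b then t + 1 else t

/-- The growth function: number of monomials outside `(x³, y^b, z^b)` in degree `d + 1` in the
lex-segment generated by the first `q` monomials of degree `d`. -/
def G (b d q : ℕ) : ℕ :=
  if q ≤ Tz b d 2 then gh b (d - 2) q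
  else if q ≤ Tz b d 2 + Tz b d 1 then Tz b (d + 1) 2 + gh b (d - 1) (q - Tz b d 2)
  else Tz b (d + 1) 2 + Tz b (d + 1) 1 + gh b d (q - Tz b d 2 - Tz b d 1)

theorem T_lt {b m : ℕ} (h : m < b) : T b m = m + 1 := if_pos h

theorem T_hi {b m : ℕ} (h : b ≤ m + 1) : T b m = 2 * b - 1 - m := by
  unfold T
  split_ifs <;> omega

theorem gh_lo {b m : ℕ} (h : m + 1 < b) (t : ℕ) :
    gh b m t = if t = 0 then 0 else if m + 1 ≤ t then m + 2 else t + 1 := by
  unfold gh
  rw [T_lt (by omega), T_lt h, if_pos h]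

theorem gh_hi {b m : ℕ} (h : b ≤ m + 1) (t : ℕ) :
    gh b m t = if t = 0 then 0 else if 2 * b - 1 - m ≤ t then 2 * b - 1 - (m + 1) else t := by
  unfold gh
  rw [T_hi h, T_hi (by omega : b ≤ m + 1 + 1)]
  split_ifs <;> omega

theorem gh_zero (b m : ℕ) : gh b m 0 = 0 := by
  simp [gh]

theorem G_zero (b d : ℕ) : G b d 0 = 0 := by
  simp [G, gh_zero]

theorem Tz_lt {b d i : ℕ} (h : d < i) : Tz b d i = 0 := if_pos h

theorem Tz_ge {b d i : ℕ} (h : i ≤ d) : Tz b d i = T b (d - i) := if_neg (by omega)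

/-- Explicit growth in low degree `1 ≤ d ≤ b - 2`. -/
theorem G_low {b d q : ℕ} (hd : 1 ≤ d) (hdb : d + 2 ≤ b) (hq : q ≤ 3 * d) :
    G b d q = if q = 0 then 0 else if q + 1 ≤ d then q + 1 else if q + 1 ≤ 2 * d then q + 2 else
      q + 3 := by
  have t2 : Tz b d 2 = d - 1 := by
    unfold Tz
    split_ifs with h
    · omega
    · rw [T_lt (by omega)]; omega
  have t1 : Tz b d 1 = d := by
    rw [Tz_ge hd, T_lt (by omega)]; omega
  have t3 : Tz b (d + 1) 2 = d := by
    rw [Tz_ge (by omega), T_lt (by omega)]; omega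
  have t4 : Tz b (d + 1) 1 = d + 1 := by
    rw [Tz_ge (by omega), T_lt (by omega)]; omega
  unfold G
  rw [t2, t1, t3, t4, gh_lo (by omega : d - 2 + 1 < b), gh_lo (by omega : d - 1 + 1 < b),
    gh_lo (by omega : d + 1 < b)]
  split_ifs <;> omega

/-- The growth from degree `b - 1`. -/
theorem G_mid {b d q : ℕ} (hd : 1 ≤ d) (hdb : d + 1 = b) (hq : q ≤ 3 * d) :
    G b d q = if q = 0 then 0 else if q + 1 ≤ d then q + 1 else if q < 3 * d then q + 2 else
      3 * d + 1 := by
  have t2 : Tz b d 2 = d - 1 := by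
    unfold Tz
    split_ifs with h
    · omega
    · rw [T_lt (by omega)]; omega
  have t1 : Tz b d 1 = d := by
    rw [Tz_ge hd, T_lt (by omega)]; omega
  have t3 : Tz b (d + 1) 2 = d := by
    rw [Tz_ge (by omega), T_lt (by omega)]; omega
  have t4 : Tz b (d + 1) 1 = d + 1 := by
    rw [Tz_ge (by omega), T_lt (by omega)]; omega
  unfold G
  rw [t2, t1, t3, t4, gh_lo (by omega : d - 2 + 1 < b), gh_lo (by omega : d - 1 + 1 < b),
    gh_hi (by omega : b ≤ d + 1)]
  split_ifs <;> omega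

/-- Growth from degree `0`. -/
theorem G_base {b q : ℕ} (hb : 3 ≤ b) (hq : q = 1) : G b 0 q = 3 := by
  subst hq
  have t2 : Tz b 0 2 = 0 := Tz_lt (by omega)
  have t1 : Tz b 0 1 = 0 := Tz_lt (by omega)
  have t3 : Tz b (0 + 1) 2 = 0 := Tz_lt (by omega)
  have t4 : Tz b (0 + 1) 1 = 1 := by
    rw [Tz_ge (by omega), T_lt (by omega)]
  unfold G
  rw [t2, t1, t3, t4, gh_lo (by omega : 0 + 1 < b)]
  simp

/-- Growth from degree `b`. -/
theorem G_b {b q : ℕ} (hb : 3 ≤ b) (hq : q ≤ 3 * (b - 1) + 1) :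
    G b b q = if q = 0 then 0 else if q ≤ 2 * (b - 1) then q + 1 else if q = 2 * (b - 1) + 1 then
      2 * (b - 1) + 1 else if q ≤ 3 * (b - 1) then q else 3 * (b - 1) := by
  have t2 : Tz b b 2 = b - 1 := by
    rw [Tz_ge (by omega), T_lt (by omega)]; omega
  have t1 : Tz b b 1 = b := by
    rw [Tz_ge (by omega), T_lt (by omega)]; omega
  have t3 : Tz b (b + 1) 2 = b := by
    rw [Tz_ge (by omega), T_lt (by omega)]; omega
  have t4 : Tz b (b + 1) 1 = b - 1 := by
    rw [Tz_ge (by omega), T_hi (by omega)]; omega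
  unfold G
  rw [t2, t1, t3, t4, gh_lo (by omega : b - 2 + 1 < b), gh_hi (by omega : b ≤ b - 1 + 1),
    gh_hi (by omega : b ≤ b + 1)]
  split_ifs <;> omega

/-- Growth from degree `d`, `b < d < 2 b`. -/
theorem G_high {b d e q : ℕ} (hb : 3 ≤ b) (hd : b + 1 ≤ d) (hde : d + e + 1 = 2 * b)
    (hq : q ≤ 3 * e + 3) :
    G b d q = if q ≤ e + 1 then q else if q = e + 2 then e + 1 else if q ≤ 2 * e + 2 then q - 1 else
      if q = 2 * e + 3 then 2 * e + 1 else if q ≤ 3 * e + 2 then q - 2 else 3 * e := by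
  have t2 : Tz b d 2 = e + 2 := by
    rw [Tz_ge (by omega), T_hi (by omega)]; omega
  have t1 : Tz b d 1 = e + 1 := by
    rw [Tz_ge (by omega), T_hi (by omega)]; omega
  have t3 : Tz b (d + 1) 2 = e + 1 := by
    rw [Tz_ge (by omega), T_hi (by omega)]; omega
  have t4 : Tz b (d + 1) 1 = e := by
    rw [Tz_ge (by omega), T_hi (by omega)]; omega
  unfold G
  rw [t2, t1, t3, t4, gh_hi (by omega : b ≤ d - 2 + 1), gh_hi (by omega : b ≤ d - 1 + 1),
    gh_hi (by omega : b ≤ d + 1)]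
  split_ifs <;> omega

/-- Growth from degree at least `2 b`. -/
theorem G_top {b d q : ℕ} (hb : 3 ≤ b) (hd : 2 * b ≤ d) (hq : q ≤ hilb b d) : G b d q = 0 := by
  have t1 : Tz b d 0 = 0 := by rw [Tz_ge (by omega), T_hi (by omega)]; omega
  have t2 : Tz b d 1 = 0 := by rw [Tz_ge (by omega), T_hi (by omega)]; omega
  have t3 : Tz b d 2 = 2 * b + 1 - d := by rw [Tz_ge (by omega), T_hi (by omega)]; omega
  have hq2 : q ≤ 2 * b + 1 - d := by
    simp only [hilb, t1, t2, t3] at hq
    omega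
  unfold G
  rw [t3, if_pos hq2, gh_hi (by omega : b ≤ d - 2 + 1)]
  split_ifs <;> omega

theorem hilb_zero {b : ℕ} (hb : 3 ≤ b) : hilb b 0 = 1 := by
  simp only [hilb, Tz, T]
  split_ifs <;> omega

theorem hilb_low {b d : ℕ} (hd : 1 ≤ d) (hdb : d < b) : hilb b d = 3 * d := by
  simp only [hilb, Tz, T]
  split_ifs <;> omega

theorem hilb_b {b : ℕ} (hb : 3 ≤ b) : hilb b b = 3 * (b - 1) + 1 := by
  simp only [hilb, Tz, T]
  split_ifs <;> omega

theorem hilb_mid {b d e : ℕ} (hb : 3 ≤ b) (hd : b + 1 ≤ d) (hde : d + e + 1 = 2 * b) :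
    hilb b d = 3 * e + 3 := by
  simp only [hilb, Tz, T]
  split_ifs <;> omega

theorem hilb_2b {b : ℕ} (hb : 3 ≤ b) : hilb b (2 * b) = 1 := by
  simp only [hilb, Tz, T]
  split_ifs <;> omega

/-- **Adjunction.** -/
theorem adj {b d e q r : ℕ} (hb : 3 ≤ b) (hde : d + e + 1 = 2 * b) (he : e < b)
    (hq : q ≤ hilb b d) (hr : r ≤ hilb b (d + 1))
    (h : G b e (hilb b e - r) + q ≤ hilb b (e + 1)) : G b d q ≤ r := by
  by_cases he0 : e = 0
  · subst he0
    have hd : d = 2 * b - 1 := by omega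
    have hd1 : d + 1 = 2 * b := by omega
    rw [hd1, hilb_2b hb] at hr
    rw [hilb_zero hb, hilb_low (by omega) (by omega)] at h
    rw [hilb_mid (d := d) (e := 0) hb (by omega) hde] at hq
    rw [G_high (d := d) (e := 0) hb (by omega) hde (by omega)]
    by_cases hr0 : r = 0
    · subst hr0
      rw [G_base hb (by omega)] at h
      have : q = 0 := by omega
      subst this
      simp
    · split_ifs <;> omega
  by_cases heb : e + 1 = b
  · -- `e = b - 1`, `d = b`
    have hd : d = b := by omega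
    subst hd
    have hb1 : d - 1 = e := by omega
    rw [hilb_b hb, hb1] at hq
    rw [hilb_mid hb (by omega) (by omega : d + 1 + (e - 1) + 1 = 2 * d)] at hr
    rw [hilb_low (by omega) (by omega), heb, hilb_b hb, hb1] at h
    have he1 : 3 * (e - 1) + 3 = 3 * e := by omega
    rw [he1] at hr
    rw [G_mid (by omega) heb (by omega)] at h
    rw [G_b hb (by omega), hb1]
    split_ifs at h ⊢ <;> omega
  · -- `1 ≤ e ≤ b - 2`
    have hd1 : d + 1 ≤ 2 * b - 1 := by omega
    rw [hilb_mid hb (by omega) hde] at hq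
    rw [hilb_mid hb (by omega) (by omega : d + 1 + (e - 1) + 1 = 2 * b)] at hr
    rw [hilb_low (by omega) (by omega), hilb_low (by omega) (by omega)] at h
    have he1 : 3 * (e - 1) + 3 = 3 * e := by omega
    rw [he1] at hr
    rw [G_low (by omega) (by omega) (by omega)] at h
    rw [G_high hb (by omega) hde (by omega)]
    split_ifs at h ⊢ <;> omega

end Vale.Agent.P200b
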