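import Vale.Agent.Lib.P200b.MainStep2
import Vale.Agent.Lib.P200b.Dual

/-!
# P200 family: a cubic form in normal position, as a polynomial in `x` over `K[y, z]`
-/

open MvPolynomial Module
open Vale.Agent.P200

namespace Vale.Agent.P200b

variable {K : Type*} [Field K]

/-- `K[y, z]` inside `K[x, y, z]`. -/
noncomputable def iS (K : Type*) [Field K] : R2 K →ₐ[K] S K := aeval ![X 1, X 2]

theorem iS_X0 : iS K (X 0) = X 1 := by simp [iS]

theorem iS_X1 : iS K (X 1) = X 2 := by simp [iS]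

/-- The identification of `K[x, y, z]` with polynomials over `K[y, z]`. -/
noncomputable abbrev eS (K : Type*) [Field K] : S K ≃ₐ[K] Polynomial (R2 K) := finSuccEquiv K 2

theorem eS_iS (t : R2 K) : eS K (iS K t) = Polynomial.C t := by
  have : (eS K : S K →ₐ[K] Polynomial (R2 K)).comp (iS K) =
      (Polynomial.CAlgHom : R2 K →ₐ[K] Polynomial (R2 K)) := by
    apply MvPolynomial.algHom_ext
    intro i
    fin_cases i
    · simp only [AlgHom.comp_apply, Polynomial.CAlgHom_apply]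
      change eS K (iS K (X 0)) = _
      rw [iS_X0]
      exact finSuccEquiv_X_succ (j := 0)
    · simp only [AlgHom.comp_apply, Polynomial.CAlgHom_apply]
      change eS K (iS K (X 1)) = _
      rw [iS_X1]
      exact finSuccEquiv_X_succ (j := 1)
  exact DFunLike.congr_fun this t

theorem eS_X0 : eS K (X 0) = Polynomial.X := finSuccEquiv_X_zero

/-- A cubic form with nonzero coefficient of `x³`. -/
structure NP (f1 : S K) : Prop where
  h1 : f1 ∈ H K 3
  hc : coeff (Finsupp.single 0 3) f1 ≠ 0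

variable {f1 : S K}

theorem cons_degree (m : Fin 2 →₀ ℕ) (i : ℕ) : (m.cons i : Fin 3 →₀ ℕ).degree = i + m.degree := by
  rw [Finsupp.degree_eq_sum, Fin.sum_univ_succ, Finsupp.degree_eq_sum]
  simp

theorem NP.coeff_hom (h : NP f1) {i k : ℕ} (hik : i + k = 3) :
    ((eS K f1).coeff i).IsHomogeneous k := by
  intro m hm
  have h1 : coeff m ((eS K f1).coeff i) = coeff (m.cons i) f1 := finSuccEquiv_coeff_coeff m f1 i
  rw [h1] at hm
  have h2 := h.h1 hm
  have h3 : (Finsupp.weight 1 : (Fin 3 →₀ ℕ) →+ ℕ) = Finsupp.degree := by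
    ext; simp [Finsupp.degree_eq_sum, Finsupp.weight_apply, Finsupp.sum_fintype]
  have h4 : (Finsupp.weight 1 : (Fin 2 →₀ ℕ) →+ ℕ) = Finsupp.degree := by
    ext; simp [Finsupp.degree_eq_sum, Finsupp.weight_apply, Finsupp.sum_fintype]
  rw [h3] at h2
  rw [h4]
  rw [cons_degree] at h2
  omega

theorem NP.coeff_three (h : NP f1) :
    (eS K f1).coeff 3 = C (coeff (Finsupp.single 0 3) f1) := by
  ext m
  have h1 : coeff m ((eS K f1).coeff 3) = coeff (m.cons 3) f1 := finSuccEquiv_coeff_coeff m f1 3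
  rw [h1, coeff_C]
  by_cases hm : m = 0
  · subst hm
    have : (Finsupp.cons 3 (0 : Fin 2 →₀ ℕ) : Fin 3 →₀ ℕ) = Finsupp.single 0 3 := by
      ext j
      refine Fin.cases ?_ (fun i => ?_) j
      · simp
      · simp [Finsupp.cons_succ, Finsupp.single_apply, (Fin.succ_ne_zero i).symm]
    rw [this, if_pos rfl]
  · rw [if_neg (Ne.symm hm)]
    by_contra hne
    have h2 := h.h1 hne
    have h3 : (Finsupp.weight 1 : (Fin 3 →₀ ℕ) →+ ℕ) = Finsupp.degree := by
      ext; simp [Finsupp.degree_eq_sum, Finsupp.weight_apply, Finsupp.sum_fintype]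
    rw [h3, cons_degree] at h2
    have : m.degree = 0 := by omega
    exact hm ((Finsupp.degree_eq_zero_iff m).1 this)

theorem NP.natDegree_le (h : NP f1) : (eS K f1).natDegree ≤ 3 := by
  rw [natDegree_finSuccEquiv]
  refine (degreeOf_le_totalDegree _ _).trans ?_
  exact h.h1.totalDegree_le

/-- The monic polynomial in `x`. -/
noncomputable def Pm (f1 : S K) : Polynomial (R2 K) :=
  Polynomial.C (C (coeff (Finsupp.single 0 3) f1)⁻¹) * eS K f1

theorem NP.eS_eq (h : NP f1) :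
    eS K f1 = Polynomial.C (C (coeff (Finsupp.single 0 3) f1)) * Pm f1 := by
  rw [Pm, ← mul_assoc, ← Polynomial.C_mul, ← C_mul, mul_inv_cancel₀ h.hc, C_1, Polynomial.C_1,
    one_mul]

theorem NP.Pm_coeff (_h : NP f1) (i : ℕ) : (Pm f1).coeff i =
    C (coeff (Finsupp.single 0 3) f1)⁻¹ * (eS K f1).coeff i := by
  rw [Pm, Polynomial.coeff_C_mul]

theorem NP.natDegree_Pm_le (h : NP f1) : (Pm f1).natDegree ≤ 3 :=
  (Polynomial.natDegree_C_mul_le _ _).trans h.natDegree_le

theorem NP.Pm_coeff3 (h : NP f1) : (Pm f1).coeff 3 = 1 := by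
  rw [h.Pm_coeff, h.coeff_three, ← C_mul, inv_mul_cancel₀ h.hc, C_1]

theorem NP.natDegree_Pm (h : NP f1) : (Pm f1).natDegree = 3 := by
  refine le_antisymm h.natDegree_Pm_le ?_
  refine Polynomial.le_natDegree_of_ne_zero ?_
  rw [h.Pm_coeff3]
  exact one_ne_zero

theorem NP.monic (h : NP f1) : (Pm f1).Monic := by
  rw [Polynomial.Monic, Polynomial.leadingCoeff, h.natDegree_Pm, h.Pm_coeff3]

/-- The coefficients of the monic polynomial. -/
theorem NP.Pm_form (h : NP f1) : ∃ c₁ c₂ c₃ : R2 K, c₁.IsHomogeneous 1 ∧ c₂.IsHomogeneous 2 ∧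
    c₃.IsHomogeneous 3 ∧ Pm f1 = Polynomial.X ^ 3 + Polynomial.C c₁ * Polynomial.X ^ 2 +
      Polynomial.C c₂ * Polynomial.X + Polynomial.C c₃ := by
  have hhom : ∀ {i k : ℕ}, i + k = 3 → ((Pm f1).coeff i).IsHomogeneous k := by
    intro i k hik
    rw [h.Pm_coeff]
    have := (isHomogeneous_C (Fin 2) (coeff (Finsupp.single 0 3) f1)⁻¹).mul (h.coeff_hom hik)
    rwa [zero_add] at this
  refine ⟨_, _, _, hhom (i := 2) rfl, hhom (i := 1) rfl, hhom (i := 0) rfl, ?_⟩
  have hlt : (Pm f1).natDegree < 4 := by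
    have := h.natDegree_Pm_le
    omega
  have e := Polynomial.as_sum_range_C_mul_X_pow' (Pm f1) hlt
  simp only [Finset.sum_range_succ, Finset.sum_range_zero, h.Pm_coeff3] at e
  simp only [Polynomial.C_1, one_mul, pow_zero, mul_one, pow_one, zero_add] at e
  exact e.trans (by ring)

/-- **Torsion freeness**, at the level of `S`. -/
theorem NP.tf (h : NP f1) {t : R2 K} {g : S K} (ht : t ≠ 0) (hg : iS K t * g ∈ Ideal.span {f1}) :
    g ∈ Ideal.span {f1} := by
  obtain ⟨y, hy⟩ := Ideal.mem_span_singleton'.1 hg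
  have e1 := congrArg (eS K) hy
  rw [map_mul, map_mul, eS_iS, h.eS_eq] at e1
  have hd : Pm f1 ∣ t • eS K g := by
    refine ⟨Polynomial.C (C (coeff (Finsupp.single 0 3) f1)) * eS K y, ?_⟩
    rw [Polynomial.smul_eq_C_mul, ← e1]
    ring
  have h0 := (Polynomial.modByMonic_eq_zero_iff_dvd h.monic).2 hd
  rw [Polynomial.smul_modByMonic, Polynomial.smul_eq_C_mul, mul_eq_zero] at h0
  have h2 : eS K g %ₘ Pm f1 = 0 := by
    refine h0.resolve_left ?_
    simpa using ht
  obtain ⟨u, hu⟩ := (Polynomial.modByMonic_eq_zero_iff_dvd h.monic).1 h2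
  refine Ideal.mem_span_singleton'.2 ⟨(eS K).symm (Polynomial.C (C (coeff (Finsupp.single 0 3) f1)⁻¹) * u), ?_⟩
  apply (eS K).injective
  rw [map_mul, AlgEquiv.apply_symm_apply, hu, h.eS_eq, Pm]
  have e2 : Polynomial.C (C (coeff (Finsupp.single 0 3) f1)⁻¹) * u * (Polynomial.C (C (coeff (Finsupp.single 0 3) f1)) * (Polynomial.C (C (coeff (Finsupp.single 0 3) f1)⁻¹) * eS K f1)) =
    (Polynomial.C (C (coeff (Finsupp.single 0 3) f1)⁻¹) * Polynomial.C (C (coeff (Finsupp.single 0 3) f1))) * (Polynomial.C (C (coeff (Finsupp.single 0 3) f1)⁻¹) * eS K f1 * u) := by ring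
  rw [e2, ← Polynomial.C_mul, ← C_mul, inv_mul_cancel₀ h.hc, C_1, Polynomial.C_1, one_mul]

theorem NP.ne (h : NP f1) : f1 ≠ 0 := by
  rintro rfl
  exact h.hc (by simp)

/-- The form, in terms of the monic polynomial. -/
theorem NP.f1_form (h : NP f1) : ∃ c₁ c₂ c₃ : R2 K, c₁.IsHomogeneous 1 ∧ c₂.IsHomogeneous 2 ∧
    c₃.IsHomogeneous 3 ∧ f1 = C (coeff (Finsupp.single 0 3) f1) *
      (X 0 ^ 3 + iS K c₁ * X 0 ^ 2 + iS K c₂ * X 0 + iS K c₃) := by
  obtain ⟨c₁, c₂, c₃, h1, h2, h3, e⟩ := h.Pm_form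
  refine ⟨c₁, c₂, c₃, h1, h2, h3, ?_⟩
  apply (eS K).injective
  rw [h.eS_eq, e]
  simp only [map_mul, map_add, map_pow, eS_iS, eS_X0]
  congr 1
  have : ∀ c : K, eS K (C c) = Polynomial.C (C c) := fun c => by
    have := (eS K).commutes c
    simpa [Polynomial.algebraMap_apply, algebraMap_eq] using this
  rw [this]

end Vale.Agent.P200b
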