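import Vale.Agent.Lib.P200b.Stmt
import Vale.Agent.Lib.P200b.Numeric

/-!
# P200 family: the position of a monomial in lex order
-/

namespace Vale.Agent.P200b

/-- The largest `j` in a block of degree `m`. -/
def jm (b m : ℕ) : ℕ := if m < b then m else b - 1

/-- The position of `t` in lex order among the monomials of degree `d` outside `P`. -/
def rk (b d : ℕ) (t : ℕ × ℕ × ℕ) : ℕ :=
  (if t.1 = 2 then 0 else if t.1 = 1 then Tz b d 2 else Tz b d 2 + Tz b d 1) +
    (jm b (d - t.1) - t.2.1)

theorem mem_Out {b d : ℕ} {t : ℕ × ℕ × ℕ} :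
    t ∈ Out b d ↔ t.1 < 3 ∧ t.2.1 < b ∧ t.2.2 < b ∧ t.1 + t.2.1 + t.2.2 = d := by
  simp [Out, and_assoc]

theorem idx_lt {b j k : ℕ} (hj : j < b) (hk : k < b) : jm b (j + k) - j < T b (j + k) := by
  unfold jm T
  split_ifs <;> omega

theorem j_le_jm {b j k : ℕ} (hj : j < b) : j ≤ jm b (j + k) := by
  unfold jm
  split_ifs <;> omega

theorem rk_two {b d j k : ℕ} (hd : 2 + j + k = d) : rk b d (2, j, k) = jm b (j + k) - j := by
  simp only [rk, if_true, zero_add]
  rw [show d - 2 = j + k by omega]

theorem rk_one {b d j k : ℕ} (hd : 1 + j + k = d) :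
    rk b d (1, j, k) = Tz b d 2 + (jm b (j + k) - j) := by
  simp only [rk, if_true, show ¬ (1 = 2) by omega, if_false]
  rw [show d - 1 = j + k by omega]

theorem rk_zero {b d j k : ℕ} (hd : 0 + j + k = d) :
    rk b d (0, j, k) = Tz b d 2 + Tz b d 1 + (jm b (j + k) - j) := by
  simp only [rk, show ¬ (0 = 2) by omega, show ¬ (0 = 1) by omega, if_false]
  rw [show d - 0 = j + k by omega]

theorem Tz_of {b d a m : ℕ} (h : a + m = d) : Tz b d a = T b m := by
  rw [Tz_ge (by omega), show d - a = m by omega]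

/-- Positions are bounded by the Hilbert function. -/
theorem rk_lt {b d : ℕ} {t : ℕ × ℕ × ℕ} (ht : t ∈ Out b d) : rk b d t < hilb b d := by
  obtain ⟨a, j, k⟩ := t
  obtain ⟨h1, h2, h3, h4⟩ := mem_Out.1 ht
  simp only at h1 h2 h3 h4
  have hi := idx_lt h2 h3
  have hh : hilb b d = Tz b d 0 + Tz b d 1 + Tz b d 2 := rfl
  interval_cases a
  · rw [rk_zero h4, hh, Tz_of (a := 0) (m := j + k) (by omega)]
    omega
  · rw [rk_one h4, hh, Tz_of (a := 1) (m := j + k) (by omega)]
    omega
  · rw [rk_two h4, hh, Tz_of (a := 2) (m := j + k) (by omega)]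
    omega

/-- The position decreases for lexicographically greater elements. -/
theorem rk_lt_of_lexGT {b d : ℕ} {u t : ℕ × ℕ × ℕ} (hu : u ∈ Out b d) (ht : t ∈ Out b d)
    (h : LexGT u t) : rk b d u < rk b d t := by
  obtain ⟨a', j', k'⟩ := u
  obtain ⟨a, j, k⟩ := t
  obtain ⟨h1, h2, h3, h4⟩ := mem_Out.1 hu
  obtain ⟨g1, g2, g3, g4⟩ := mem_Out.1 ht
  simp only at h1 h2 h3 h4 g1 g2 g3 g4
  have hi' := idx_lt h2 h3
  have hi := idx_lt g2 g3
  simp only [LexGT] at h
  rcases h with h | ⟨h, h'⟩ | ⟨h, h', h''⟩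
  · interval_cases a' <;> interval_cases a <;> try omega
    · rw [rk_one h4, rk_zero g4, Tz_of (a := 1) (m := j' + k') (by omega)]
      omega
    · rw [rk_two h4, rk_zero g4, Tz_of (a := 2) (m := j' + k') (by omega)]
      omega
    · rw [rk_two h4, rk_one g4, Tz_of (a := 2) (m := j' + k') (by omega)]
      omega
  · subst h
    have e : j' + k' = j + k := by omega
    have hle' := j_le_jm (b := b) (k := k') h2
    rw [e] at hle' hi'
    interval_cases a
    · rw [rk_zero h4, rk_zero g4, e]
      omega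
    · rw [rk_one h4, rk_one g4, e]
      omega
    · rw [rk_two h4, rk_two g4, e]
      omega
  · omega

theorem lexGT_total {b d : ℕ} {u t : ℕ × ℕ × ℕ} (hu : u ∈ Out b d) (ht : t ∈ Out b d)
    (hne : u ≠ t) : LexGT u t ∨ LexGT t u := by
  obtain ⟨a', j', k'⟩ := u
  obtain ⟨a, j, k⟩ := t
  obtain ⟨h1, h2, h3, h4⟩ := mem_Out.1 hu
  obtain ⟨g1, g2, g3, g4⟩ := mem_Out.1 ht
  simp only at h1 h2 h3 h4 g1 g2 g3 g4
  simp only [LexGT]
  by_contra hc
  push Not at hc
  apply hne
  have : a' = a ∧ j' = j ∧ k' = k := by omega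
  obtain ⟨rfl, rfl, rfl⟩ := this
  rfl

theorem rk_inj {b d : ℕ} {u t : ℕ × ℕ × ℕ} (hu : u ∈ Out b d) (ht : t ∈ Out b d)
    (h : rk b d u = rk b d t) : u = t := by
  by_contra hne
  rcases lexGT_total hu ht hne with h1 | h1
  · have := rk_lt_of_lexGT hu ht h1
    omega
  · have := rk_lt_of_lexGT ht hu h1
    omega

theorem lexGT_iff {b d : ℕ} {u t : ℕ × ℕ × ℕ} (hu : u ∈ Out b d) (ht : t ∈ Out b d) :
    LexGT u t ↔ rk b d u < rk b d t := by
  refine ⟨rk_lt_of_lexGT hu ht, fun h => ?_⟩
  have hne : u ≠ t := by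
    rintro rfl
    omega
  rcases lexGT_total hu ht hne with h1 | h1
  · exact h1
  · have := rk_lt_of_lexGT ht hu h1
    omega

theorem block_surj {b m n : ℕ} (hn : n < T b m) :
    ∃ j k, j < b ∧ k < b ∧ j + k = m ∧ jm b (j + k) - j = n := by
  unfold T at hn
  unfold jm
  by_cases hm : m < b
  · rw [if_pos hm] at hn
    refine ⟨m - n, n, by omega, by omega, by omega, ?_⟩
    rw [if_pos (by omega)]
    omega
  · rw [if_neg hm] at hn
    refine ⟨b - 1 - n, m - (b - 1 - n), by omega, by omega, by omega, ?_⟩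
    rw [if_neg (by omega)]
    omega

/-- Every position is attained. -/
theorem rk_surj {b d n : ℕ} (hn : n < hilb b d) : ∃ t ∈ Out b d, rk b d t = n := by
  have hh : hilb b d = Tz b d 0 + Tz b d 1 + Tz b d 2 := rfl
  rw [hh] at hn
  by_cases h2 : n < Tz b d 2
  · have hd : 2 ≤ d := by
      by_contra hc
      rw [Tz_lt (by omega)] at h2
      omega
    rw [Tz_ge hd] at h2
    obtain ⟨j, k, hj, hk, e, r⟩ := block_surj h2
    refine ⟨(2, j, k), mem_Out.2 ⟨by simp, hj, hk, by simp only; omega⟩, ?_⟩
    rw [rk_two (by omega), r]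
  by_cases h1 : n < Tz b d 2 + Tz b d 1
  · have hd : 1 ≤ d := by
      by_contra hc
      rw [Tz_lt (by omega), Tz_lt (by omega)] at h1
      omega
    have h1' : n - Tz b d 2 < T b (d - 1) := by
      rw [← Tz_ge hd]
      omega
    obtain ⟨j, k, hj, hk, e, r⟩ := block_surj h1'
    refine ⟨(1, j, k), mem_Out.2 ⟨by simp, hj, hk, by simp only; omega⟩, ?_⟩
    rw [rk_one (by omega), r]
    omega
  · have h0' : n - Tz b d 2 - Tz b d 1 < T b (d - 0) := by
      rw [← Tz_ge (Nat.zero_le d)]
      omega
    obtain ⟨j, k, hj, hk, e, r⟩ := block_surj h0'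
    refine ⟨(0, j, k), mem_Out.2 ⟨by simp, hj, hk, by simp only; omega⟩, ?_⟩
    rw [rk_zero (by omega), r]
    omega

/-- The number of lexicographically greater elements is the position. -/
theorem card_greater {b d : ℕ} {t : ℕ × ℕ × ℕ} (ht : t ∈ Out b d) :
    ((Out b d).filter fun u => LexGT u t).card = rk b d t := by
  have himg : ((Out b d).filter fun u => LexGT u t).image (rk b d) = Finset.range (rk b d t) := by
    ext n
    simp only [Finset.mem_image, Finset.mem_filter, Finset.mem_range]
    constructor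
    · rintro ⟨u, ⟨hu, hlt⟩, rfl⟩
      exact rk_lt_of_lexGT hu ht hlt
    · intro hn
      obtain ⟨u, hu, rfl⟩ := rk_surj (lt_trans hn (rk_lt ht))
      exact ⟨u, ⟨hu, (lexGT_iff hu ht).2 hn⟩, rfl⟩
  have hinj : Set.InjOn (rk b d) ((Out b d).filter fun u => LexGT u t : Finset _) := by
    intro x hx y hy hxy
    exact rk_inj (Finset.mem_filter.1 hx).1 (Finset.mem_filter.1 hy).1 hxy
  rw [← Finset.card_image_of_injOn hinj, himg, Finset.card_range]

theorem mem_lexSeg {b d q : ℕ} {t : ℕ × ℕ × ℕ} :
    t ∈ lexSeg b d q ↔ t ∈ Out b d ∧ rk b d t < q := by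
  simp only [lexSeg, Finset.mem_filter]
  constructor
  · rintro ⟨h1, h2⟩
    rw [card_greater h1] at h2
    exact ⟨h1, h2⟩
  · rintro ⟨h1, h2⟩
    rw [← card_greater h1] at h2
    exact ⟨h1, h2⟩

/-- The size of a lex segment. -/
theorem card_lexSeg {b d q : ℕ} (hq : q ≤ hilb b d) : (lexSeg b d q).card = q := by
  have himg : (lexSeg b d q).image (rk b d) = Finset.range q := by
    ext n
    simp only [Finset.mem_image, Finset.mem_range, mem_lexSeg]
    constructor
    · rintro ⟨u, ⟨_, hlt⟩, rfl⟩
      exact hlt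
    · intro hn
      obtain ⟨u, hu, rfl⟩ := rk_surj (lt_of_lt_of_le hn hq)
      exact ⟨u, ⟨hu, hn⟩, rfl⟩
  have hinj : Set.InjOn (rk b d) (lexSeg b d q : Finset _) := by
    intro x hx y hy hxy
    exact rk_inj (mem_lexSeg.1 hx).1 (mem_lexSeg.1 hy).1 hxy
  rw [← Finset.card_image_of_injOn hinj, himg, Finset.card_range]

/-- Multiply a monomial by a variable. -/
def bump : Fin 3 → ℕ × ℕ × ℕ → ℕ × ℕ × ℕ
  | 0, (a, c, e) => (a + 1, c, e)
  | 1, (a, c, e) => (a, c + 1, e)
  | 2, (a, c, e) => (a, c, e + 1)

/-- The monomial lies in `P`. -/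
def bad (b : ℕ) (t : ℕ × ℕ × ℕ) : Prop := 3 ≤ t.1 ∨ b ≤ t.2.1 ∨ b ≤ t.2.2

theorem block_bump {b j k t : ℕ} (hj : j < b) (hk : k < b) (hr : jm b (j + k) - j < t) :
    (j + 1 < b → jm b (j + k + 1) - (j + 1) < gh b (j + k) t) ∧
      (k + 1 < b → jm b (j + k + 1) - j < gh b (j + k) t) := by
  have hi1 : j + 1 < b → jm b (j + k + 1) - (j + 1) < T b (j + k + 1) := by
    intro h
    have := idx_lt (b := b) (j := j + 1) (k := k) h hk
    rwa [show j + 1 + k = j + k + 1 by omega] at this
  have hi2 : k + 1 < b → jm b (j + k + 1) - j < T b (j + k + 1) := by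
    intro h
    have := idx_lt (b := b) (j := j) (k := k + 1) hj h
    rwa [show j + (k + 1) = j + k + 1 by omega] at this
  unfold gh
  rw [if_neg (by omega)]
  split_ifs with h1 h2
  · exact ⟨hi1, hi2⟩
  · constructor <;> intro _ <;> unfold jm at * <;> split_ifs at * <;> omega
  · constructor <;> intro _ <;> unfold jm at * <;> split_ifs at * <;> omega

theorem fin3_cases (i : Fin 3) : i = 0 ∨ i = 1 ∨ i = 2 := by
  fin_cases i <;> simp

/-- The key combinatorial fact: multiplying by a variable stays in the lex segment of size `G`. -/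
theorem rk_bump {b d q : ℕ} {t : ℕ × ℕ × ℕ} (ht : t ∈ Out b d) (hq : rk b d t < q) (i : Fin 3)
    (hgood : ¬ bad b (bump i t)) : rk b (d + 1) (bump i t) < G b d q := by
  obtain ⟨a, j, k⟩ := t
  obtain ⟨h1, h2, h3, h4⟩ := mem_Out.1 ht
  simp only at h1 h2 h3 h4
  have hi := idx_lt h2 h3
  unfold G
  interval_cases a
  · -- block of no `x`
    obtain rfl : d = j + k := by omega
    rw [rk_zero (by omega)] at hq
    rw [if_neg (by omega), if_neg (by omega)]
    have hd1 : Tz b (j + k + 1) 1 = T b (j + k) := Tz_of (by omega)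
    have hbb := block_bump (t := q - Tz b (j + k) 2 - Tz b (j + k) 1) h2 h3 (by omega)
    rcases fin3_cases i with rfl | rfl | rfl
    · change rk b (j + k + 1) (1, j, k) < _
      rw [rk_one (by omega)]
      omega
    · change rk b (j + k + 1) (0, j + 1, k) < _
      have hg : j + 1 < b := by
        simp only [bad, bump] at hgood
        omega
      rw [rk_zero (by omega), show j + 1 + k = j + k + 1 by omega]
      have := hbb.1 hg
      omega
    · change rk b (j + k + 1) (0, j, k + 1) < _
      have hg : k + 1 < b := by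
        simp only [bad, bump] at hgood
        omega
      rw [rk_zero (by omega), show j + (k + 1) = j + k + 1 by omega]
      have := hbb.2 hg
      omega
  · -- block of `x`
    obtain rfl : d = 1 + j + k := by omega
    rw [rk_one rfl] at hq
    rw [if_neg (by omega)]
    have hd1 : Tz b (1 + j + k) 1 = T b (j + k) := Tz_of (by omega)
    have hd2 : Tz b (1 + j + k + 1) 2 = T b (j + k) := Tz_of (by omega)
    have hd3 : Tz b (1 + j + k + 1) 1 = T b (j + k + 1) := Tz_of (by omega)
    have e1 : 1 + j + k - 1 = j + k := by omega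
    rcases fin3_cases i with rfl | rfl | rfl
    · change rk b (1 + j + k + 1) (2, j, k) < _
      rw [rk_two (by omega)]
      split_ifs <;> omega
    · change rk b (1 + j + k + 1) (1, j + 1, k) < _
      have hg : j + 1 < b := by
        simp only [bad, bump] at hgood
        omega
      rw [rk_one (by omega), show j + 1 + k = j + k + 1 by omega, e1]
      split_ifs with hc
      · have hbb := block_bump (t := q - Tz b (1 + j + k) 2) h2 h3 (by omega)
        have := hbb.1 hg
        omega
      · have := idx_lt (b := b) (j := j + 1) (k := k) hg h3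
        rw [show j + 1 + k = j + k + 1 by omega] at this
        omega
    · change rk b (1 + j + k + 1) (1, j, k + 1) < _
      have hg : k + 1 < b := by
        simp only [bad, bump] at hgood
        omega
      rw [rk_one (by omega), show j + (k + 1) = j + k + 1 by omega, e1]
      split_ifs with hc
      · have hbb := block_bump (t := q - Tz b (1 + j + k) 2) h2 h3 (by omega)
        have := hbb.2 hg
        omega
      · have := idx_lt (b := b) (j := j) (k := k + 1) h2 hg
        rw [show j + (k + 1) = j + k + 1 by omega] at this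
        omega
  · -- block of `x²`
    obtain rfl : d = 2 + j + k := by omega
    rw [rk_two rfl] at hq
    have hd2 : Tz b (2 + j + k + 1) 2 = T b (j + k + 1) := Tz_of (by omega)
    have e1 : 2 + j + k - 2 = j + k := by omega
    rcases fin3_cases i with rfl | rfl | rfl
    · exfalso
      apply hgood
      exact Or.inl (by simp [bump])
    · change rk b (2 + j + k + 1) (2, j + 1, k) < _
      have hg : j + 1 < b := by
        simp only [bad, bump] at hgood
        omega
      rw [rk_two (by omega), show j + 1 + k = j + k + 1 by omega, e1]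
      have hlt := idx_lt (b := b) (j := j + 1) (k := k) hg h3
      rw [show j + 1 + k = j + k + 1 by omega] at hlt
      split_ifs with hc hc2
      · have hbb := block_bump (t := q) h2 h3 (by omega)
        exact hbb.1 hg
      · omega
      · omega
    · change rk b (2 + j + k + 1) (2, j, k + 1) < _
      have hg : k + 1 < b := by
        simp only [bad, bump] at hgood
        omega
      rw [rk_two (by omega), show j + (k + 1) = j + k + 1 by omega, e1]
      have hlt := idx_lt (b := b) (j := j) (k := k + 1) h2 hg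
      rw [show j + (k + 1) = j + k + 1 by omega] at hlt
      split_ifs with hc hc2
      · have hbb := block_bump (t := q) h2 h3 (by omega)
        exact hbb.2 hg
      · omega
      · omega

end Vale.Agent.P200b
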