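import Vale.Agent.Lib.P200.Koszul

/-!
# P200 family: definitions used in the statement of the theorem for `(3, b, b)`
-/

open MvPolynomial Module
open Vale.Agent.P200

namespace Vale.Agent.P200b

variable {K : Type*} [Field K]

/-- The exponents `(i, j, k)` of the degree `d` monomials `x^i y^j z^k` outside
`P = (x³, y^b, z^b)`: `i < 3`, `j < b`, `k < b`, `i + j + k = d`. -/
def Out (b d : ℕ) : Finset (ℕ × ℕ × ℕ) :=
  ((Finset.range 3) ×ˢ (Finset.range b) ×ˢ (Finset.range b)).filter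
    fun t => t.1 + t.2.1 + t.2.2 = d

/-- `u` is lexicographically greater than `t`, with `x > y > z`. -/
def LexGT (u t : ℕ × ℕ × ℕ) : Prop :=
  t.1 < u.1 ∨ (t.1 = u.1 ∧ t.2.1 < u.2.1) ∨ (t.1 = u.1 ∧ t.2.1 = u.2.1 ∧ t.2.2 < u.2.2)

instance : DecidableRel LexGT := fun u t => by
  unfold LexGT
  infer_instance

/-- The `q` lex-greatest elements of `Out b d`: those with fewer than `q` elements of
`Out b d` lexicographically greater. -/
def lexSeg (b d q : ℕ) : Finset (ℕ × ℕ × ℕ) :=
  (Out b d).filter fun t => ((Out b d).filter fun u => LexGT u t).card < q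

/-- The monomial `x^i y^j z^k`. -/
noncomputable def mono (t : ℕ × ℕ × ℕ) : S K := X 0 ^ t.1 * X 1 ^ t.2.1 * X 2 ^ t.2.2

/-- The ideal `P = (x³, y^b, z^b)`. -/
noncomputable def powIdeal (K : Type*) [Field K] (b : ℕ) : Ideal (S K) :=
  Ideal.span {X 0 ^ 3, X 1 ^ b, X 2 ^ b}

/-- The dimension of the degree `d` part of the ideal `I`. -/
noncomputable def gdim (I : Ideal (S K)) (d : ℕ) : ℕ :=
  finrank K ↥(I.restrictScalars K ⊓ H K d)

/-- `q_d = dim I_d - dim P_d`. -/
noncomputable def qd (b : ℕ) (I : Ideal (S K)) (d : ℕ) : ℕ := gdim I d - gdim (powIdeal K b) d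

/-- `J_d`: the span of `P_d` and the `q_d` lex-greatest monomials of degree `d` outside `P`. -/
noncomputable def Jd (b : ℕ) (I : Ideal (S K)) (d : ℕ) : Submodule K (S K) :=
  ((powIdeal K b).restrictScalars K ⊓ H K d) ⊔
    Submodule.span K {m | ∃ t ∈ lexSeg b d (qd b I d), m = mono t}

/-- `J = ⨁ J_d`. -/
noncomputable def lexPlusPowers (b : ℕ) (I : Ideal (S K)) : Submodule K (S K) := ⨆ d, Jd b I d

end Vale.Agent.P200b
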